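import Vale.Agent.P032.S5.H175.FrozenT

/-!
# P032: frozen circles, irredundant palettes, part 3: main theorems
-/

open Set Filter Topology Metric

noncomputable section

namespace Vale.Agent.P032.H175

open Vale.Agent.P032.Six
open Vale.Agent.P032.S5.H783 (cis_add cis_zero yy dist_yy yy_succ yy_rel dist_yy_succ
  yy_not_line three_cover yy_shift continuous_yy dist_yy_add dist_sq_lt dist_sq_gt dist_cis_sub
  om_eq)
open Vale.Agent.P032.H180 (Frz om)

variable {U : Fin 6 → Set ℂ} {T : ℂ → Set (Fin 6)}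

theorem covA {A : Set (Fin 6)} (hA3 : A.ncard = 3) {a b c : Fin 6} (ha : a ∉ A) (hb : b ∉ A)
    (hc : c ∉ A) (hab : a ≠ b) (hbc : b ≠ c) (hac : a ≠ c) {i : Fin 6} (hi : i ∉ A) :
    i = a ∨ i = b ∨ i = c := by
  have h4 : (Aᶜ).ncard = 3 := by rw [Set.ncard_compl, hA3]; simp
  exact three_cover h4 ha hb hc hab hbc hac hi

/-- the data of a frozen circle -/
theorem frz_data (h : Irr U T) {v : ℂ} {A : Set (Fin 6)} (hA3 : A.ncard = 3)
    (hQ1 : ∀ y, dist y v = 1 → ∃ i, i ∉ A ∧ i ∈ T y)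
    (hQ2 : ∀ y, dist y v = 1 → ∃ i, i ∉ A ∧ i ∉ T y) {c d e : Fin 6}
    (hcov : ∀ i, i ∉ A ↔ i = c ∨ i = d ∨ i = e) (hcd : c ≠ d) (hde : d ≠ e) (hce : c ≠ e)
    (σ : Fin 6 → Fin 6) (hσc : σ c = d) (hσd : σ d = e) (hσe : σ e = c)
    (hfr : ∀ y, dist y v = 1 → ∀ i, i ∉ A →
      (i ∈ T y ↔ σ i ∈ T (v + cis (Real.pi / 3) * (y - v)))) :
    ∃ (θa θ0 : ℝ) (cc : ℕ → Fin 6), FD T v A θa θ0 cc ∧
      ((Hxs T A (yy v θ0) fun k => cc (k + 2)) ∨ (Hxs T A (yy v θ0) fun k => cc (k + 1))) := by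
  have hpi := Real.pi_gt_three
  -- facts on `σ`
  have hσT : ∀ i, i ∉ A → σ i ∉ A := by
    intro i hi
    rcases (hcov i).1 hi with rfl | rfl | rfl
    · rw [hσc]; exact (hcov _).2 (Or.inr (Or.inl rfl))
    · rw [hσd]; exact (hcov _).2 (Or.inr (Or.inr rfl))
    · rw [hσe]; exact (hcov _).2 (Or.inl rfl)
  have hσ1 : ∀ i, i ∉ A → i ≠ σ i := by
    intro i hi
    rcases (hcov i).1 hi with rfl | rfl | rfl
    · rw [hσc]; exact hcd
    · rw [hσd]; exact hde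
    · rw [hσe]; exact hce.symm
  have hσ2 : ∀ i, i ∉ A → i ≠ σ (σ i) := by
    intro i hi
    rcases (hcov i).1 hi with rfl | rfl | rfl
    · rw [hσc, hσd]; exact hce
    · rw [hσd, hσe]; exact hcd.symm
    · rw [hσe, hσc]; exact hde.symm
  have hσ3 : ∀ i, i ∉ A → σ (σ (σ i)) = i := by
    intro i hi
    rcases (hcov i).1 hi with rfl | rfl | rfl
    · rw [hσc, hσd, hσe]
    · rw [hσd, hσe, hσc]
    · rw [hσe, hσc, hσd]
  have hσcov : ∀ i j, i ∉ A → j ∉ A → j = i ∨ j = σ i ∨ j = σ (σ i) := by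
    intro i j hi hj
    exact covA hA3 hi (hσT i hi) (hσT _ (hσT i hi)) (hσ1 i hi) (hσ1 _ (hσT i hi))
      (hσ2 i hi) hj
  -- the sets on the circle
  have hfr' : ∀ θ k i, i ∉ A → (i ∈ T (yy v θ k) ↔ σ i ∈ T (yy v θ (k + 1))) := by
    intro θ k i hi
    rw [yy_succ]
    exact hfr _ (dist_yy v θ k) i hi
  have hcis : ∀ θ, v + cis θ = yy v θ 0 := by intro θ; simp [yy]
  have hQne : ∀ θ, ∃ i, i ∉ A ∧ i ∈ T (yy v θ 0) := by
    intro θ
    exact hQ1 _ (dist_yy v θ 0)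
  have hQall : ∀ θ, ∃ i, i ∉ A ∧ i ∉ T (yy v θ 0) := fun θ =>
    hQ2 _ (dist_yy v θ 0)
  have husc : ∀ θ, ∀ᶠ θ' in 𝓝 θ, T (yy v θ' 0) ⊆ T (yy v θ 0) := fun θ =>
    (continuous_yy v 0).continuousAt.eventually (h.nhd (yy v θ 0))
  -- a pure point
  have hpure : ∃ θ m, m ∉ A ∧ ∀ i, i ∉ A → i ∈ T (yy v θ 0) → i = m := by
    by_contra hcon
    push Not at hcon
    -- two colours everywhere
    obtain ⟨i, hi, hi0⟩ := hQall 0
    have hclopen : IsClopen {θ | i ∉ T (yy v θ 0)} := by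
      constructor
      · rw [← isOpen_compl_iff, isOpen_iff_mem_nhds]
        intro θ hθ
        have hθ : i ∈ T (yy v θ 0) := not_not.1 hθ
        filter_upwards [husc θ] with θ' hθ' hcon2
        -- `T θ'` has two colours outside, both different from `i`
        have hcon2 : i ∉ T (yy v θ' 0) := hcon2
        obtain ⟨a, ha, ha'⟩ := hQne θ'
        obtain ⟨b, hb, hb', hba⟩ := hcon θ' a ha
        obtain ⟨m, hm, hm'⟩ := hQall θ
        rcases covA hA3 hi ha hb (fun h5 => hcon2 (h5 ▸ ha')) hba.symm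
          (fun h5 => hcon2 (h5 ▸ hb')) hm with h6 | h6 | h6
        · exact hm' (h6 ▸ hθ)
        · exact hm' (h6 ▸ hθ' ha')
        · exact hm' (h6 ▸ hθ' hb')
      · rw [isOpen_iff_mem_nhds]
        intro θ hθ
        have hθ : i ∉ T (yy v θ 0) := hθ
        filter_upwards [husc θ] with θ' hθ' hcon2
        exact hθ (hθ' hcon2)
    have huniv : {θ | i ∉ T (yy v θ 0)} = univ := hclopen.eq_univ ⟨0, hi0⟩
    have hall : ∀ θ, i ∉ T (yy v θ 0) := fun θ => by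
      have : θ ∈ {θ | i ∉ T (yy v θ 0)} := by rw [huniv]; trivial
      exact this
    -- then `σ i` is absent as well
    have h1 : σ i ∉ T (yy v 0 1) := fun h5 => by
      have := (hfr' 0 0 i hi).2 h5
      exact hall 0 this
    rw [show (1 : ℕ) = 0 + 1 from rfl, ← yy_shift] at h1
    obtain ⟨a, ha, ha'⟩ := hQne (0 + Real.pi / 3)
    obtain ⟨b, hb, hb', hba⟩ := hcon (0 + Real.pi / 3) a ha
    have hi1 := hall (0 + Real.pi / 3)
    have hcase : ∀ j, j ∉ A → j ∈ T (yy v (0 + Real.pi / 3) 0) → j = σ (σ i) := by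
      intro j hj hj'
      rcases hσcov i j hi hj with h6 | h6 | h6
      · exact absurd (h6 ▸ hj') hi1
      · exact absurd (h6 ▸ hj') h1
      · exact h6
    exact hba ((hcase b hb hb').trans (hcase a ha ha').symm)
  obtain ⟨θ1, m, hm, hm1⟩ := hpure
  -- first impure parameter
  set S := {θ | θ1 ≤ θ ∧ ∃ i, i ∉ A ∧ i ≠ m ∧ i ∈ T (yy v θ 0)} with hS
  have hSclosed : IsClosed S := by
    rw [← isOpen_compl_iff, isOpen_iff_mem_nhds]
    intro θ hθ
    by_cases hle1 : θ1 ≤ θ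
    · have hθ2 : ∀ i, i ∉ A → i ≠ m → i ∉ T (yy v θ 0) := by
        intro i hi him hik
        exact hθ ⟨hle1, i, hi, him, hik⟩
      filter_upwards [husc θ] with θ' hθ'
      rintro ⟨-, i, hi, him, hik⟩
      exact hθ2 i hi him (hθ' hik)
    · push Not at hle1
      filter_upwards [Iio_mem_nhds hle1] with θ' hθ'
      rintro ⟨h5, -⟩
      have hθ' : θ' < θ1 := hθ'
      linarith
  have hmK1 : m ∈ T (yy v θ1 0) := by
    obtain ⟨i, hi, hi'⟩ := hQne θ1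
    rwa [← hm1 i hi hi']
  have hSne : S.Nonempty := by
    refine ⟨θ1 + Real.pi / 3, by linarith, σ m, hσT m hm, (hσ1 m hm).symm, ?_⟩
    rw [yy_shift]
    exact (hfr' θ1 0 m hm).1 hmK1
  have hSbdd : BddBelow S := ⟨θ1, fun θ hθ => hθ.1⟩
  set θ0 := sInf S with hθ0
  have hθ0S : θ0 ∈ S := hSclosed.csInf_mem hSne hSbdd
  obtain ⟨h10, m', hm', hmm', hm'K⟩ := hθ0S
  have h10' : θ1 < θ0 := by
    rcases h10.lt_or_eq with h5 | h5
    · exact h5
    · exfalso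
      rw [← h5] at hm'K
      exact hmm' (hm1 m' hm' hm'K)
  have hpureI : ∀ θ, θ1 ≤ θ → θ < θ0 → m ∈ T (yy v θ 0) := by
    intro θ hθ1 hθ2
    have hnot : θ ∉ S := fun h5 => absurd (csInf_le hSbdd h5) (not_le.2 hθ2)
    obtain ⟨i, hi, hi'⟩ := hQne θ
    by_cases him : i = m
    · exact him ▸ hi'
    · exact absurd ⟨hθ1, i, hi, him, hi'⟩ hnot
  have hmK0 : m ∈ T (yy v θ0 0) := by
    have h5 : ∀ᶠ θ in 𝓝[<] θ0, T (yy v θ 0) ⊆ T (yy v θ0 0) :=
      mem_nhdsWithin_of_mem_nhds (husc θ0)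
    have h6 : ∀ᶠ θ in 𝓝[<] θ0, θ1 < θ := mem_nhdsWithin_of_mem_nhds (Ioi_mem_nhds h10')
    obtain ⟨θ, h7, h8, h9⟩ := (h5.and (h6.and self_mem_nhdsWithin)).exists
    exact h7 (hpureI θ h8.le h9)
  -- the left end of the arc
  set θa := max θ1 (θ0 - 1 / 2) with hθa
  have ha0 : θa < θ0 := max_lt h10' (by linarith)
  have ha1 : θ0 - θa ≤ 1 / 2 := by
    have := le_max_right θ1 (θ0 - 1 / 2); linarith
  have ha2 : θ1 ≤ θa := le_max_left _ _
  -- iterates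
  set cc : ℕ → Fin 6 := fun k => σ^[k] m with hcc
  have hcs : ∀ k, cc (k + 1) = σ (cc k) := fun k => Function.iterate_succ_apply' σ k m
  have hcT : ∀ k, cc k ∉ A := by
    intro k
    induction k with
    | zero => exact hm
    | succ k ih => rw [hcs]; exact hσT _ ih
  have hc1 : ∀ k, cc k ≠ cc (k + 1) := fun k => by rw [hcs]; exact hσ1 _ (hcT k)
  have hc2 : ∀ k, cc k ≠ cc (k + 2) := fun k => by
    rw [show k + 2 = k + 1 + 1 from rfl, hcs, hcs]; exact hσ2 _ (hcT k)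
  have hc3 : ∀ k, cc (k + 3) = cc k := fun k => by
    rw [show k + 3 = k + 1 + 1 + 1 from rfl, hcs, hcs, hcs]; exact hσ3 _ (hcT k)
  have hiter : ∀ θ k j, (cc j ∈ T (yy v θ 0) ↔ cc (j + k) ∈ T (yy v θ k)) := by
    intro θ k j
    induction k with
    | zero => rfl
    | succ k ih =>
      rw [ih, show j + (k + 1) = (j + k) + 1 from rfl, hcs]
      exact hfr' θ k _ (hcT _)
  have hin : ∀ k, cc k ∈ T (yy v θ0 k) := fun k => by
    have := (hiter θ0 k 0).1 hmK0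
    rwa [Nat.zero_add] at this
  have hcc0 : cc 0 = m := rfl
  -- purity before `θ0`
  have hpure0 : ∀ θ ∈ Ico θa θ0, ∀ i, i ∉ A → (i ∈ T (yy v θ 0) ↔ i = cc 0) := by
    intro θ hθ i hi
    constructor
    · intro hi'
      by_contra him
      exact absurd (csInf_le hSbdd (show θ ∈ S from ⟨ha2.trans hθ.1, i, hi, him, hi'⟩))
        (not_le.2 hθ.2)
    · intro him
      rw [him, hcc0]; exact hpureI θ (ha2.trans hθ.1) hθ.2
  have hcov3 : ∀ k, ∀ i, i ∉ A → ∃ j, i = cc (j + k) := by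
    intro k i hi
    rcases hσcov (cc k) i (hcT k) hi with h5 | h5 | h5
    · exact ⟨0, by rw [h5, Nat.zero_add]⟩
    · exact ⟨1, by rw [h5, ← hcs, add_comm]⟩
    · exact ⟨2, by rw [h5, ← hcs, ← hcs]; congr 1; ring⟩
  have hinjc : ∀ k j, (cc j = cc 0 ↔ cc (j + k) = cc k) := by
    intro k j
    have hper : ∀ j, cc (j + 3) = cc j := hc3
    have hmod : ∀ j, cc j = cc (j % 3) := by
      intro j
      induction j using Nat.strong_induction_on with
      | _ j ih =>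
        by_cases hj : j < 3
        · rw [Nat.mod_eq_of_lt hj]
        · have e1 : j = (j - 3) + 3 := by omega
          rw [e1, hper, ih (j - 3) (by omega)]
          congr 1
          omega
    have hinj3 : ∀ i < 3, ∀ j < 3, cc i = cc j → i = j := by
      intro i hi j hj hij
      interval_cases i <;> interval_cases j
      all_goals first
        | rfl
        | exact absurd hij (hc1 0)
        | exact absurd hij.symm (hc1 0)
        | exact absurd hij (hc1 1)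
        | exact absurd hij.symm (hc1 1)
        | exact absurd hij (hc2 0)
        | exact absurd hij.symm (hc2 0)
    constructor
    · intro h5
      rw [hmod j, hmod 0] at h5
      have h6 := hinj3 _ (Nat.mod_lt _ (by norm_num)) _ (Nat.mod_lt _ (by norm_num)) h5
      rw [hmod (j + k), hmod k]
      congr 1
      omega
    · intro h5
      rw [hmod (j + k), hmod k] at h5
      have h6 := hinj3 _ (Nat.mod_lt _ (by norm_num)) _ (Nat.mod_lt _ (by norm_num)) h5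
      rw [hmod j, hmod 0]
      congr 1
      omega
  refine ⟨θa, θ0, cc, ⟨ha0, ha1, hcT, hc1, hc2, hc3, hin, fun k θ hθ i hi => ?_⟩, ?_⟩
  · obtain ⟨j, rfl⟩ := hcov3 k i hi
    rw [← hiter θ k j, hpure0 θ hθ _ (hcT j), hinjc k j]
  obtain ⟨q, hq, hq'⟩ := hQall θ0
  -- the two cases
  rcases hσcov m m' hm hm' with h6 | h6 | h6
  · exact absurd h6 hmm'
  · -- `m' = σ m`
    left
    have hm1' : cc 1 ∈ T (yy v θ0 0) := by rw [hcs 0]; exact h6 ▸ hm'K
    have hm2' : cc 2 ∉ T (yy v θ0 0) := by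
      rcases hσcov m q hm hq with h7 | h7 | h7
      · exact absurd (h7 ▸ hmK0) hq'
      · exact absurd (by rw [h7, ← h6]; exact hm'K) hq'
      · rw [show (2 : ℕ) = 1 + 1 from rfl, hcs, hcs 0]; exact h7 ▸ hq'
    refine ⟨fun k => hcT _, fun k => hc1 _, fun k => hc2 _, fun k i hi => ?_⟩
    have e0 : cc k ∈ T (yy v θ0 k) := hin k
    have e1 : cc (k + 1) ∈ T (yy v θ0 k) := by
      have := (hiter θ0 k 1).1 hm1'
      rwa [add_comm] at this
    have e2 : cc (k + 2) ∉ T (yy v θ0 k) := by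
      intro h8
      apply hm2'
      rw [hiter θ0 k 2, add_comm]; exact h8
    constructor
    · rintro h8 rfl
      exact e2 h8
    · intro h8
      rcases covA hA3 (hcT k) (hcT (k + 1)) (hcT (k + 2)) (hc1 k) (hc1 (k + 1)) (hc2 k) hi
        with h9 | h9 | h9
      · rw [h9]; exact e0
      · rw [h9]; exact e1
      · exact absurd h9 h8
  · -- `m' = σ (σ m)`
    right
    have hm2' : cc 2 ∈ T (yy v θ0 0) := by
      rw [show (2 : ℕ) = 1 + 1 from rfl, hcs, hcs 0]; exact h6 ▸ hm'K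
    have hm1' : cc 1 ∉ T (yy v θ0 0) := by
      rcases hσcov m q hm hq with h7 | h7 | h7
      · exact absurd (h7 ▸ hmK0) hq'
      · rw [hcs 0]; exact h7 ▸ hq'
      · exact absurd (by rw [h7, ← h6]; exact hm'K) hq'
    refine ⟨fun k => hcT _, fun k => hc1 _, fun k => hc2 _, fun k i hi => ?_⟩
    have e0 : cc k ∈ T (yy v θ0 k) := hin k
    have e1 : cc (k + 2) ∈ T (yy v θ0 k) := by
      have := (hiter θ0 k 2).1 hm2'
      rwa [add_comm] at this
    have e2 : cc (k + 1) ∉ T (yy v θ0 k) := by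
      intro h8
      apply hm1'
      rw [hiter θ0 k 1, add_comm]; exact h8
    constructor
    · rintro h8 rfl
      exact e2 h8
    · intro h8
      rcases covA hA3 (hcT k) (hcT (k + 1)) (hcT (k + 2)) (hc1 k) (hc1 (k + 1)) (hc2 k) hi
        with h9 | h9 | h9
      · rw [h9]; exact e0
      · exact absurd h9 h8
      · rw [h9]; exact e1


/-- distance of `v + r cis φ` from `v + cis ψ` -/
theorem dist_rc (v : ℂ) (r φ ψ : ℝ) :
    dist (v + (r : ℂ) * cis φ) (v + cis ψ) ^ 2 = r ^ 2 + 1 - 2 * r * Real.cos (φ - ψ) := by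
  rw [dist_eq_norm, add_sub_add_left_eq_sub, Complex.sq_norm, Complex.normSq_apply]
  simp only [Complex.sub_re, Complex.sub_im, Complex.mul_re, Complex.mul_im, Complex.ofReal_re,
    Complex.ofReal_im, cis, Complex.exp_ofReal_mul_I_re, Complex.exp_ofReal_mul_I_im]
  rw [Real.cos_sub]
  have h1 := Real.sin_sq_add_cos_sq φ
  have h2 := Real.sin_sq_add_cos_sq ψ
  linear_combination r ^ 2 * h1 + h2

theorem dist_rv (v : ℂ) (r φ : ℝ) : dist (v + (r : ℂ) * cis φ) v = |r| := by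
  rw [dist_eq_norm, add_sub_cancel_left, norm_mul, norm_cis, mul_one, Complex.norm_real,
    Real.norm_eq_abs]

/-- a test point, case A -/
theorem virt_pts (v : ℂ) {θa θ0 : ℝ} (hlt : θa < θ0) (hle' : θ0 - θa ≤ 1 / 2) (j : ℕ) {ρ : ℝ}
    (hρ : 0 < ρ) : ∃ g, dist g v < ρ ∧ dist g (yy v θ0 (j + 4)) < 1 ∧
      dist g (yy v θ0 (j + 5)) < 1 ∧ dist (yy v θ0 (j + 3)) g < 1 ∧
      1 < dist (yy v θa (j + 3)) g := by
  have hpi := Real.pi_gt_three
  set δ := (θ0 - θa) / 2 with hδ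
  have hδ0 : 0 < δ := by rw [hδ]; linarith
  have hδ1 : δ ≤ 1 / 4 := by rw [hδ]; linarith
  have hsin : 0 < Real.sin δ := Real.sin_pos_of_pos_of_lt_pi hδ0 (by linarith)
  have hcosA : 1 / 2 < Real.cos (Real.pi / 6 - δ) := by
    rw [← Real.cos_pi_div_three, ← Real.cos_abs (Real.pi / 6 - δ)]
    apply Real.cos_lt_cos_of_nonneg_of_le_pi (abs_nonneg _) (by linarith)
    rw [abs_lt]; constructor <;> linarith
  have hcosB : 1 / 2 < Real.cos (Real.pi / 6 + δ) := by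
    rw [← Real.cos_pi_div_three]
    apply Real.cos_lt_cos_of_nonneg_of_le_pi (by positivity) (by linarith)
    linarith
  set φ := (θ0 - δ) + ((j + 3 : ℕ) : ℝ) * (Real.pi / 3) + Real.pi / 2 with hφ
  have k1 : Real.cos (φ - (θ0 + ((j + 4 : ℕ) : ℝ) * (Real.pi / 3))) =
      Real.cos (Real.pi / 6 - δ) := by
    congr 1; rw [hφ]; push_cast; ring
  have k2 : Real.cos (φ - (θ0 + ((j + 5 : ℕ) : ℝ) * (Real.pi / 3))) =
      Real.cos (Real.pi / 6 + δ) := by
    rw [← Real.cos_neg]; congr 1; rw [hφ]; push_cast; ring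
  have k3 : Real.cos (φ - (θ0 + ((j + 3 : ℕ) : ℝ) * (Real.pi / 3))) = Real.sin δ := by
    rw [← Real.cos_pi_div_two_sub]; congr 1; rw [hφ]; ring
  have k4 : Real.cos (φ - (θa + ((j + 3 : ℕ) : ℝ) * (Real.pi / 3))) = -Real.sin δ := by
    rw [← Real.cos_add_pi_div_two]; congr 1; rw [hφ, hδ]; ring
  set r := min (ρ / 2) (min (Real.sin δ) (1 / 4)) with hr
  have hr0 : 0 < r := lt_min (by linarith) (lt_min hsin (by norm_num))
  have hr1 : r < ρ := (min_le_left _ _).trans_lt (by linarith)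
  have hr2 : r ≤ Real.sin δ := (min_le_right _ _).trans (min_le_left _ _)
  have hr3 : r ≤ 1 / 4 := (min_le_right _ _).trans (min_le_right _ _)
  have q1 := dist_rc v r φ (θ0 + ((j + 4 : ℕ) : ℝ) * (Real.pi / 3))
  have q2 := dist_rc v r φ (θ0 + ((j + 5 : ℕ) : ℝ) * (Real.pi / 3))
  have q3 := dist_rc v r φ (θ0 + ((j + 3 : ℕ) : ℝ) * (Real.pi / 3))
  have q4 := dist_rc v r φ (θa + ((j + 3 : ℕ) : ℝ) * (Real.pi / 3))
  rw [k1] at q1
  rw [k2] at q2
  rw [k3] at q3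
  rw [k4] at q4
  clear_value r φ δ
  refine ⟨v + (r : ℂ) * cis φ, ?_, ?_, ?_, ?_, ?_⟩
  · rw [dist_rv, abs_of_pos hr0]; exact hr1
  · refine dist_sq_lt dist_nonneg (lt_of_eq_of_lt q1 ?_)
    nlinarith
  · refine dist_sq_lt dist_nonneg (lt_of_eq_of_lt q2 ?_)
    nlinarith
  · rw [dist_comm]
    refine dist_sq_lt dist_nonneg (lt_of_eq_of_lt q3 ?_)
    nlinarith
  · rw [dist_comm]
    refine dist_sq_gt dist_nonneg (lt_of_lt_of_eq ?_ q4.symm)
    nlinarith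

/-- a test point, case B -/
theorem virt_pts' (v : ℂ) {θa θ0 : ℝ} (hlt : θa < θ0) (hle' : θ0 - θa ≤ 1 / 2) (j : ℕ) {ρ : ℝ}
    (hρ : 0 < ρ) : ∃ g, dist g v < ρ ∧ 1 < dist g (yy v θ0 (j + 4)) ∧
      1 < dist g (yy v θ0 (j + 5)) ∧ 1 < dist (yy v θ0 (j + 3)) g ∧
      dist (yy v θa (j + 3)) g < 1 := by
  have hpi := Real.pi_gt_three
  set δ := (θ0 - θa) / 2 with hδ
  have hδ0 : 0 < δ := by rw [hδ]; linarith
  have hδ1 : δ ≤ 1 / 4 := by rw [hδ]; linarith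
  have hsin : 0 < Real.sin δ := Real.sin_pos_of_pos_of_lt_pi hδ0 (by linarith)
  have hcosA : 1 / 2 < Real.cos (Real.pi / 6 - δ) := by
    rw [← Real.cos_pi_div_three, ← Real.cos_abs (Real.pi / 6 - δ)]
    apply Real.cos_lt_cos_of_nonneg_of_le_pi (abs_nonneg _) (by linarith)
    rw [abs_lt]; constructor <;> linarith
  have hcosB : 1 / 2 < Real.cos (Real.pi / 6 + δ) := by
    rw [← Real.cos_pi_div_three]
    apply Real.cos_lt_cos_of_nonneg_of_le_pi (by positivity) (by linarith)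
    linarith
  set φ := (θ0 - δ) + ((j + 3 : ℕ) : ℝ) * (Real.pi / 3) + Real.pi / 2 with hφ
  have k1 : Real.cos (φ - (θ0 + ((j + 4 : ℕ) : ℝ) * (Real.pi / 3))) =
      Real.cos (Real.pi / 6 - δ) := by
    congr 1; rw [hφ]; push_cast; ring
  have k2 : Real.cos (φ - (θ0 + ((j + 5 : ℕ) : ℝ) * (Real.pi / 3))) =
      Real.cos (Real.pi / 6 + δ) := by
    rw [← Real.cos_neg]; congr 1; rw [hφ]; push_cast; ring
  have k3 : Real.cos (φ - (θ0 + ((j + 3 : ℕ) : ℝ) * (Real.pi / 3))) = Real.sin δ := by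
    rw [← Real.cos_pi_div_two_sub]; congr 1; rw [hφ]; ring
  have k4 : Real.cos (φ - (θa + ((j + 3 : ℕ) : ℝ) * (Real.pi / 3))) = -Real.sin δ := by
    rw [← Real.cos_add_pi_div_two]; congr 1; rw [hφ, hδ]; ring
  set r := min (ρ / 2) (min (Real.sin δ) (1 / 4)) with hr
  have hr0 : 0 < r := lt_min (by linarith) (lt_min hsin (by norm_num))
  have hr1 : r < ρ := (min_le_left _ _).trans_lt (by linarith)
  have hr2 : r ≤ Real.sin δ := (min_le_right _ _).trans (min_le_left _ _)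
  have hr3 : r ≤ 1 / 4 := (min_le_right _ _).trans (min_le_right _ _)
  have q1 := dist_rc v (-r) φ (θ0 + ((j + 4 : ℕ) : ℝ) * (Real.pi / 3))
  have q2 := dist_rc v (-r) φ (θ0 + ((j + 5 : ℕ) : ℝ) * (Real.pi / 3))
  have q3 := dist_rc v (-r) φ (θ0 + ((j + 3 : ℕ) : ℝ) * (Real.pi / 3))
  have q4 := dist_rc v (-r) φ (θa + ((j + 3 : ℕ) : ℝ) * (Real.pi / 3))
  rw [k1] at q1
  rw [k2] at q2
  rw [k3] at q3
  rw [k4] at q4
  clear_value r φ δ
  refine ⟨v + ((-r : ℝ) : ℂ) * cis φ, ?_, ?_, ?_, ?_, ?_⟩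
  · rw [dist_rv, abs_neg, abs_of_pos hr0]; exact hr1
  · refine dist_sq_gt dist_nonneg (lt_of_lt_of_eq ?_ q1.symm)
    nlinarith
  · refine dist_sq_gt dist_nonneg (lt_of_lt_of_eq ?_ q2.symm)
    nlinarith
  · rw [dist_comm]
    refine dist_sq_gt dist_nonneg (lt_of_lt_of_eq ?_ q3.symm)
    nlinarith
  · rw [dist_comm]
    refine dist_sq_lt dist_nonneg (lt_of_eq_of_lt q4 ?_)
    nlinarith

/-- the final contradiction for a virtual face -/
theorem virt_fin (h : Irr U T) {v : ℂ} {A : Set (Fin 6)} {a b : Fin 6} (hA3 : A.ncard = 3)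
    (hH : Harm T v a b) (ha : a ∈ A) (hb : b ∉ A) (hTv : T v = insert b A)
    (hle : ∀ y, dist y v = 1 → (T y).ncard ≤ 3) {θa θ0 : ℝ} {c m : ℕ → Fin 6}
    (hd : FD T v A θa θ0 c) (hs : Hxs T A (yy v θ0) m) (t : ℕ → Fin 6) (htA : ∀ k, t k ∈ A)
    (hty : ∀ k, t k ∈ T (yy v θ0 (k + 2))) (hne : ∀ k, t k ≠ t (k + 1))
    (hAB : (∀ k, ∀ᶠ g in 𝓝 v, t k ∈ Pal U g → 1 ≤ dist g (yy v θ0 (k + 2))) ∨
      ∀ k, ∀ᶠ g in 𝓝 v, t k ∈ Pal U g → dist g (yy v θ0 (k + 2)) ≤ 1) : False := by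
  -- the index of `b`
  obtain ⟨j, hj⟩ : ∃ j, c j = b := by
    rcases covA hA3 (hd.notA 0) (hd.notA 1) (hd.notA 2) (hd.ne1 0) (hd.ne1 1) (hd.ne2 0) hb
      with h1 | h1 | h1
    · exact ⟨0, h1.symm⟩
    · exact ⟨1, h1.symm⟩
    · exact ⟨2, h1.symm⟩
  have hab : ∀ i, c i = b → ∀ θ ∈ Icc θa θ0, a ∈ T (yy v θ i) ∧ b ∈ T (yy v θ i) := by
    intro i hi
    have h1 : ∀ θ ∈ Ico θa θ0, a ∈ T (yy v θ i) ∧ b ∈ T (yy v θ i) := by
      intro θ hθ
      refine hH.H1 _ (dist_yy v θ i) ?_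
      rw [hTv]
      intro l hl
      by_cases hlA : l ∈ A
      · exact Or.inr hlA
      · left
        rw [(hd.pure i θ hθ l hlA).1 hl, hi]
    have hcl : IsClosed {θ | a ∈ T (yy v θ i) ∧ b ∈ T (yy v θ i)} :=
      ((h.closed a).preimage (continuous_yy v i)).inter
        ((h.closed b).preimage (continuous_yy v i))
    intro θ hθ
    have h2 := hcl.closure_subset_iff.2 h1
    rw [closure_Ico hd.lt.ne] at h2
    exact h2 hθ
  have hc3 : c (j + 3) = b := by rw [hd.per, hj]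
  have hc6 : c (j + 6) = b := by
    rw [show j + 6 = j + 3 + 3 from rfl, hd.per, hc3]
  have h0 : θ0 ∈ Icc θa θ0 := ⟨hd.lt.le, le_rfl⟩
  have ht1 : t (j + 1) = a := by
    refine (hs.uniq (k := j + 1) hA3 (hle _ (dist_yy v θ0 _)) ha ?_ (htA _) (hty (j + 1))).symm
    exact (hab (j + 3) hc3 θ0 h0).1
  have ht4 : t (j + 4) = a := by
    refine (hs.uniq (k := j + 4) hA3 (hle _ (dist_yy v θ0 _)) ha ?_ (htA _) (hty (j + 4))).symm
    exact (hab (j + 6) hc6 θ0 h0).1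
  have hn2 : t (j + 2) ≠ a := fun h5 => hne (j + 1) (by rw [ht1]; exact h5.symm)
  have hn3 : t (j + 3) ≠ a := fun h5 => hne (j + 3) (by rw [h5]; exact ht4.symm)
  have hcovA : ∀ i ∈ A, i = a ∨ i = t (j + 2) ∨ i = t (j + 3) := fun i hi =>
    three_cover hA3 ha (htA _) (htA _) hn2.symm (hne (j + 2)) hn3.symm hi
  have harc : ∀ i, (i = a ∨ i = b) →
      (fun θ => yy v θ (j + 3)) '' Icc θa θ0 ⊆ closure (U i) := by
    rintro i hi _ ⟨θ, hθ, rfl⟩
    rcases hi with rfl | rfl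
    · exact h.sub _ (hab _ hc3 θ hθ).1
    · exact h.sub _ (hab _ hc3 θ hθ).2
  have hpre : IsPreconnected ((fun θ => yy v θ (j + 3)) '' Icc θa θ0) :=
    isPreconnected_Icc.image _ (continuous_yy v (j + 3)).continuousOn
  have hm0 : yy v θ0 (j + 3) ∈ (fun θ => yy v θ (j + 3)) '' Icc θa θ0 := ⟨θ0, h0, rfl⟩
  have hma : yy v θa (j + 3) ∈ (fun θ => yy v θ (j + 3)) '' Icc θa θ0 :=
    ⟨θa, ⟨le_rfl, hd.lt.le⟩, rfl⟩
  rcases hAB with hA | hB
  · have hev : ∀ᶠ g in 𝓝 v, (t (j + 2) ∈ Pal U g → 1 ≤ dist g (yy v θ0 (j + 4))) ∧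
        (t (j + 3) ∈ Pal U g → 1 ≤ dist g (yy v θ0 (j + 5))) ∧ T g ⊆ T v :=
      (hA (j + 2)).and ((hA (j + 3)).and (h.nhd v))
    obtain ⟨ρ, hρ, hball⟩ := Metric.eventually_nhds_iff.1 hev
    obtain ⟨g, hgv, c1, c2, c3, c4⟩ := virt_pts v hd.lt hd.le j hρ
    obtain ⟨g1, g2, g3⟩ := hball hgv
    have w : ∀ i, (i = a ∨ i = b) → i ∉ Pal U g := fun i hi =>
      h.mx.wlemma hpre (harc i hi) hm0 hma c3 c4
    obtain ⟨i, hi⟩ := h.ne g
    have hiv := g3 hi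
    have hiP := h.sub g hi
    rw [hTv] at hiv
    rcases hiv with h5 | h5
    · exact w i (Or.inr h5) hiP
    · rcases hcovA i h5 with h6 | h6 | h6
      · exact w i (Or.inl h6) hiP
      · exact absurd (g1 (h6 ▸ hiP)) (not_le.2 c1)
      · exact absurd (g2 (h6 ▸ hiP)) (not_le.2 c2)
  · have hev : ∀ᶠ g in 𝓝 v, (t (j + 2) ∈ Pal U g → dist g (yy v θ0 (j + 4)) ≤ 1) ∧
        (t (j + 3) ∈ Pal U g → dist g (yy v θ0 (j + 5)) ≤ 1) ∧ T g ⊆ T v :=
      (hB (j + 2)).and ((hB (j + 3)).and (h.nhd v))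
    obtain ⟨ρ, hρ, hball⟩ := Metric.eventually_nhds_iff.1 hev
    obtain ⟨g, hgv, c1, c2, c3, c4⟩ := virt_pts' v hd.lt hd.le j hρ
    obtain ⟨g1, g2, g3⟩ := hball hgv
    have w : ∀ i, (i = a ∨ i = b) → i ∉ Pal U g := fun i hi =>
      h.mx.wlemma hpre (harc i hi) hma hm0 c4 c3
    obtain ⟨i, hi⟩ := h.ne g
    have hiv := g3 hi
    have hiP := h.sub g hi
    rw [hTv] at hiv
    rcases hiv with h5 | h5
    · exact w i (Or.inr h5) hiP
    · rcases hcovA i h5 with h6 | h6 | h6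
      · exact w i (Or.inl h6) hiP
      · exact absurd (g1 (h6 ▸ hiP)) (not_le.2 c1)
      · exact absurd (g2 (h6 ▸ hiP)) (not_le.2 c2)

theorem yy_six (v : ℂ) (θ : ℝ) (k : ℕ) : yy v θ (k + 6) = yy v θ k := by
  have h1 := yy_rel v θ k
  have h2 := yy_rel v θ (k + 1)
  have h3 := yy_rel v θ (k + 2)
  have h4 := yy_rel v θ (k + 3)
  have h5 := yy_rel v θ (k + 4)
  have e1 : yy v θ (k + 3) + yy v θ k = 2 * v := by linear_combination h1 + h2
  have e2 : yy v θ (k + 6) + yy v θ (k + 3) = 2 * v := by linear_combination h4 + h5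
  linear_combination e2 - e1

/-- frozen pattern in permutation form -/
theorem frz_sigma {v : ℂ} {A : Set (Fin 6)} {col : Fin 3 → Fin 6}
    (hcol : ∀ i, i ∉ A ↔ ∃ l, i = col l) (hinj : Function.Injective col) (hf : Frz v T col) :
    ∃ (c d e : Fin 6) (σ : Fin 6 → Fin 6), (∀ i, i ∉ A ↔ i = c ∨ i = d ∨ i = e) ∧ c ≠ d ∧ d ≠ e ∧
      c ≠ e ∧ σ c = d ∧ σ d = e ∧ σ e = c ∧ ∀ y, dist y v = 1 → ∀ i, i ∉ A →
        (i ∈ T y ↔ σ i ∈ T (v + cis (Real.pi / 3) * (y - v))) := by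
  classical
  obtain ⟨s, hs, hfr⟩ := hf
  rw [om_eq] at hfr
  set σ : Fin 6 → Fin 6 := fun i => if hi : ∃ l, i = col l then col (hi.choose + s) else i with hσ
  have hσc : ∀ l, σ (col l) = col (l + s) := by
    intro l
    have hi : ∃ l', col l = col l' := ⟨l, rfl⟩
    have h1 : hi.choose = l := (hinj hi.choose_spec).symm
    simp only [hσ]
    rw [dif_pos hi, h1]
  have hfr' : ∀ y, dist y v = 1 → ∀ i, i ∉ A →
      (i ∈ T y ↔ σ i ∈ T (v + cis (Real.pi / 3) * (y - v))) := by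
    intro y hy i hi
    obtain ⟨l, rfl⟩ := (hcol i).1 hi
    rw [hσc]
    exact hfr y hy l
  have hcov : ∀ i, i ∉ A ↔ i = col 0 ∨ i = col 1 ∨ i = col 2 := by
    intro i
    rw [hcol]
    constructor
    · rintro ⟨l, rfl⟩
      fin_cases l
      · exact Or.inl rfl
      · exact Or.inr (Or.inl rfl)
      · exact Or.inr (Or.inr rfl)
    · rintro (rfl | rfl | rfl) <;> exact ⟨_, rfl⟩
  have h01 : col 0 ≠ col 1 := fun h5 => absurd (hinj h5) (by decide)
  have h12 : col 1 ≠ col 2 := fun h5 => absurd (hinj h5) (by decide)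
  have h02 : col 0 ≠ col 2 := fun h5 => absurd (hinj h5) (by decide)
  rcases hs with rfl | rfl
  · exact ⟨col 0, col 1, col 2, σ, hcov, h01, h12, h02, by rw [hσc]; rfl, by rw [hσc]; rfl,
      by rw [hσc]; rfl, hfr'⟩
  · refine ⟨col 0, col 2, col 1, σ, fun i => ?_, h02, h12.symm, h01, by rw [hσc]; rfl,
      by rw [hσc]; rfl, by rw [hσc]; rfl, hfr'⟩
    rw [hcov]
    tauto

/-- **No frozen circle, three-coloured centre.** Harmless points with four colours are allowed on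
the circle, but no two of them at distance one. -/
theorem not_Frz_real (h : Irr U T) {v : ℂ} (h3 : (T v).ncard = 3)
    (hQ2 : ∀ y, dist y v = 1 → ∃ i, i ∉ T v ∧ i ∉ T y)
    (hZ : ∀ y, dist y v = 1 → (T y).ncard ≤ 3 ∨ ∃ p q, Harm T y p q)
    (hnb : ∀ y y', dist y v = 1 → dist y' v = 1 → dist y y' = 1 →
      (T y).ncard ≤ 3 ∨ (T y').ncard ≤ 3) {col : Fin 3 → Fin 6}
    (hcol : ∀ i, i ∉ T v ↔ ∃ l, i = col l) (hinj : Function.Injective col) : ¬ Frz v T col := by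
  intro hf
  obtain ⟨c, d, e, σ, hcov, hcd, hde, hce, hσc, hσd, hσe, hfr⟩ := frz_sigma hcol hinj hf
  obtain ⟨θa, θ0, cc, hd, hs⟩ := frz_data h h3 (fun y hy => by
    obtain ⟨i, hi, hi'⟩ := h.not_sub' hy h3.le
    exact ⟨i, hi', hi⟩) hQ2 hcov hcd hde hce σ hσc hσd hσe hfr
  have hgood : ∀ m : ℕ → Fin 6, Hxs T (T v) (yy v θ0) m → ∀ k, Good T (T v) (yy v θ0 k) := by
    intro m hm k
    rcases hZ _ (dist_yy v θ0 k) with h5 | ⟨p, q, hH⟩
    · exact Or.inl h5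
    · right
      rw [← yy_six v θ0 k] at hH
      have h6 := hm.harm h h3 rfl (k := k + 4) hH
      rw [yy_six] at hH
      exact ⟨p, q, hH, h6.1, h6.2⟩
  have hnb' : ∀ k, (T (yy v θ0 k)).ncard ≤ 3 ∨ (T (yy v θ0 (k + 1))).ncard ≤ 3 := fun k =>
    hnb _ _ (dist_yy v θ0 k) (dist_yy v θ0 (k + 1)) (dist_yy_succ v θ0 k)
  have hsh : ∀ k, yy v (θ0 + Real.pi / 3 + Real.pi / 3) k = yy v θ0 (k + 2) := by
    intro k
    rw [yy_shift, yy_shift]
  rcases hs with hs | hs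
  · obtain ⟨t, ht1, ht2, ht3, ht4⟩ := hd.caseA h h3 hs (hgood _ hs) hnb'
    refine finA h h3 (θ0 + Real.pi / 3 + Real.pi / 3) t ht1 ht3 fun k => ?_
    rw [hsh]
    exact (ht4 k).mono fun g hg hg' => hg (h.sub g hg')
  · obtain ⟨t, ht1, ht2, ht3, ht4⟩ := hd.caseB h h3 hs (hgood _ hs) hnb'
    refine finB h h3 (θ0 + Real.pi / 3 + Real.pi / 3) t ht1 ht3 fun k => ?_
    rw [hsh]
    exact (ht4 k).mono fun g hg hg' => hg (h.sub g hg')

/-- **No frozen circle, virtual face of a harmless point.** -/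
theorem not_Frz_virt (h : Irr U T) {v : ℂ} {a b : Fin 6} (hH : Harm T v a b) {A : Set (Fin 6)}
    (hA3 : A.ncard = 3) (hAv : A ⊆ T v) (ha : a ∈ A) (hb : b ∉ A)
    (hle : ∀ y, dist y v = 1 → (T y).ncard ≤ 3)
    (hQ2 : ∀ y, dist y v = 1 → ∃ i, i ∉ A ∧ i ∉ T y) {col : Fin 3 → Fin 6}
    (hcol : ∀ i, i ∉ A ↔ ∃ l, i = col l) (hinj : Function.Injective col) : ¬ Frz v T col := by
  intro hf
  obtain ⟨c, d, e, σ, hcov, hcd, hde, hce, hσc, hσd, hσe, hfr⟩ := frz_sigma hcol hinj hf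
  obtain ⟨θa, θ0, cc, hd, hs⟩ := frz_data h hA3 (fun y hy => by
    by_contra hcon
    push Not at hcon
    have hsub : T y ⊆ A := fun i hi => by
      by_contra h5
      exact hcon i h5 hi
    exact hb (hsub (hH.H1 y hy (hsub.trans hAv)).2)) hQ2 hcov hcd hde hce σ hσc hσd hσe hfr
  have hTv : T v = insert b A := by
    symm
    apply Set.eq_of_subset_of_ncard_le
    · rintro i (rfl | hi)
      · exact hH.hq
      · exact hAv hi
    · rw [hH.card, Set.ncard_insert_of_notMem hb, hA3]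
    · exact Set.toFinite _
  have hg : ∀ k, Good T A (yy v θ0 k) := fun k => Or.inl (hle _ (dist_yy v θ0 k))
  have hnb : ∀ k, (T (yy v θ0 k)).ncard ≤ 3 ∨ (T (yy v θ0 (k + 1))).ncard ≤ 3 := fun k =>
    Or.inl (hle _ (dist_yy v θ0 k))
  rcases hs with hs | hs
  · obtain ⟨t, ht1, ht2, ht3, ht4⟩ := hd.caseA h hA3 hs hg hnb
    exact virt_fin h hA3 hH ha hb hTv hle hd hs t ht1 ht2 ht3 (Or.inl ht4)
  · obtain ⟨t, ht1, ht2, ht3, ht4⟩ := hd.caseB h hA3 hs hg hnb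
    exact virt_fin h hA3 hH ha hb hTv hle hd hs t ht1 ht2 ht3 (Or.inr ht4)

end Vale.Agent.P032.H175
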