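import Vale.Agent.P032.S5.H175.FrozenVV

/-!
# P032: the hexagon of harmless points which carry all three colours off the face
-/

open Set Filter Topology Metric

noncomputable section

namespace Vale.Agent.P032.H175

open Vale.Agent.P032.Six
open Vale.Agent.P032.S5.H783 (cis_add cis_zero yy dist_yy yy_succ yy_rel dist_yy_succ yy_not_line
  three_cover yy_shift continuous_yy dist_yy_add dist_sq_lt dist_sq_gt dist_cis_sub)

variable {U : Fin 6 → Set ℂ} {T : ℂ → Set (Fin 6)}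

/-- six harmless points with all colours off `A`, solid labels `g k` on one side -/
structure HexD (U : Fin 6 → Set ℂ) (T : ℂ → Set (Fin 6)) (v : ℂ) (A : Set (Fin 6)) (θ0 ε : ℝ)
    (g d c : ℕ → Fin 6) : Prop where
  eps : ε = 1 ∨ ε = -1
  gA : ∀ k, g k ∉ A
  g1 : ∀ k, g k ≠ g (k + 1)
  g2 : ∀ k, g k ≠ g (k + 2)
  g3 : ∀ k, g (k + 3) = g k
  cA : ∀ k, c k ∈ A
  TT : ∀ k i, i ∈ T (yy v θ0 k) ↔ i ∉ A ∨ i = c k
  dA : ∀ k, d k ∉ A
  hm : ∀ k, ∃ p q, Harm T (yy v θ0 k) p q ∧ ∀ i, (i = p ∨ i = q) ↔ (i ∉ A ∧ i ≠ d k)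
  c1 : ∀ k, c k ≠ c (k + 1)
  d1 : ∀ k, d k ≠ d (k + 1)
  d6 : ∀ k, d (k + 6) = d k
  n1 : ∀ k, ∀ᶠ p in 𝓝 (yy v θ0 (k + 1)), g k ∈ Pal U p → 0 ≤ ε * (dist p (yy v θ0 k) - 1)
  n2 : ∀ k, ∀ᶠ p in 𝓝 (yy v θ0 k), g (k + 1) ∈ Pal U p →
    ε * (dist p (yy v θ0 (k + 1)) - 1) ≤ 0

variable {v : ℂ} {A : Set (Fin 6)} {θ0 ε : ℝ} {g d c : ℕ → Fin 6}

theorem HexD.al (h : Irr U T) (H : HexD U T v A θ0 ε g d c) {k : ℕ} (hk : d k ≠ g (k + 2)) :
    ∀ᶠ x in 𝓝 v, c (k + 1) ∈ Pal U x → 0 ≤ ε * (dist x (yy v θ0 (k + 1)) - 1) := by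
  refine halfT h H.eps (a := yy v θ0 k) (b := yy v θ0 (k + 2))
    (by rw [dist_comm]; exact dist_yy v θ0 k) (by rw [dist_comm]; exact dist_yy_succ v θ0 k)
    (dist_yy v θ0 _) (by linear_combination yy_rel v θ0 k) ?_
  filter_upwards [H.n2 (k + 1), h.nhd (yy v θ0 (k + 1))] with w h5 h6 h7 h8
  by_contra hcon
  have hg : g (k + 2) ∉ T w := fun h9 => by
    have := h5 (h.sub w h9)
    have e : yy v θ0 (k + 1 + 1) = yy v θ0 (k + 2) := rfl
    rw [e] at this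
    linarith
  have hs : T w ⊆ T (yy v θ0 k) := by
    intro i hi
    rcases (H.TT _ i).1 (h6 hi) with h9 | h9
    · exact (H.TT _ i).2 (Or.inl h9)
    · exact absurd (h9 ▸ hi) hcon
  obtain ⟨p, q, hH, hpq⟩ := H.hm k
  obtain ⟨hp, hq⟩ := hH.H1 w h7 hs
  rcases (hpq (g (k + 2))).2 ⟨H.gA _, fun h9 => hk h9.symm⟩ with h9 | h9
  · exact hg (h9 ▸ hp)
  · exact hg (h9 ▸ hq)

theorem HexD.be (h : Irr U T) (H : HexD U T v A θ0 ε g d c) {k : ℕ} (hk : d (k + 2) ≠ g k) :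
    ∀ᶠ x in 𝓝 v, c (k + 1) ∈ Pal U x → 0 ≤ -ε * (dist x (yy v θ0 (k + 1)) - 1) := by
  have hε : -ε = 1 ∨ -ε = -1 := by
    rcases H.eps with h5 | h5 <;> rw [h5] <;> norm_num
  refine halfT h hε (a := yy v θ0 (k + 2)) (b := yy v θ0 k)
    (by rw [dist_comm]; exact dist_yy v θ0 _) (dist_yy_succ v θ0 (k + 1))
    (dist_yy v θ0 _) (by linear_combination yy_rel v θ0 k) ?_
  filter_upwards [H.n1 k, h.nhd (yy v θ0 (k + 1))] with w h5 h6 h7 h8
  by_contra hcon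
  have hg : g k ∉ T w := fun h9 => by
    have := h5 (h.sub w h9)
    linarith
  have hs : T w ⊆ T (yy v θ0 (k + 2)) := by
    intro i hi
    rcases (H.TT _ i).1 (h6 hi) with h9 | h9
    · exact (H.TT _ i).2 (Or.inl h9)
    · exact absurd (h9 ▸ hi) hcon
  obtain ⟨p, q, hH, hpq⟩ := H.hm (k + 2)
  obtain ⟨hp, hq⟩ := hH.H1 w h7 hs
  rcases (hpq (g k)).2 ⟨H.gA _, fun h9 => hk h9.symm⟩ with h9 | h9
  · exact hg (h9 ▸ hp)
  · exact hg (h9 ▸ hq)

/-- a colour of `T v` does not live only on a circle through `v` -/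
theorem no_on (h : Irr U T) {i : Fin 6} (hi : i ∈ T v) {y : ℂ} (h1 : ∀ᶠ x in 𝓝 v, i ∈ Pal U x →
    dist x y = 1) : False := by
  obtain ⟨w, hw, hw2⟩ := ((h.pure v i hi).and_eventually
    (eventually_eventually_nhds.2 h1)).exists
  have hwU : w ∈ U i := h.mem_of_single hw.subset
  have h3 : ∀ᶠ x in 𝓝 w, x ∈ U i := (h.mx.isOpen i).mem_nhds hwU
  have h4 : ∀ᶠ x in 𝓝 w, x ∈ sphere y 1 := by
    filter_upwards [hw2, h3] with x h5 h6
    exact h5 (subset_closure h6)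
  have h5 : w ∈ interior (sphere y (1 : ℝ)) := mem_interior_iff_mem_nhds.2 h4
  rw [interior_sphere y (one_ne_zero)] at h5
  exact h5

theorem HexD.or (h : Irr U T) (hAv : A ⊆ T v) (H : HexD U T v A θ0 ε g d c) (k : ℕ) :
    d k = g (k + 2) ∨ d (k + 2) = g k := by
  by_contra hcon
  push Not at hcon
  refine no_on h (hAv (H.cA (k + 1))) (y := yy v θ0 (k + 1)) ?_
  filter_upwards [H.al h hcon.1, H.be h hcon.2] with x h5 h6 h7
  have h8 := h5 h7
  have h9 := h6 h7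
  rcases H.eps with h10 | h10 <;> rw [h10] at h8 h9 <;> linarith

theorem HexD.g6 (H : HexD U T v A θ0 ε g d c) (k : ℕ) : g (k + 6) = g k := by
  rw [show k + 6 = k + 3 + 3 from rfl, H.g3, H.g3]

/-- all apex labels on the same side -/
theorem HexD.uni (h : Irr U T) (hAv : A ⊆ T v) (H : HexD U T v A θ0 ε g d c) :
    (∀ k, d k = g (k + 2)) ∨ ∀ k, d k = g (k + 1) := by
  have hor := H.or h hAv
  -- one step
  have e1 : ∀ k, d k = g (k + 2) → d (k + 4) = g (k + 6) := by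
    intro k hk
    rcases hor (k + 4) with h1 | h1
    · exact h1
    · have h2 : d (k + 6) = g (k + 4) := h1
      rw [H.d6, hk, show k + 4 = k + 1 + 3 from rfl, H.g3] at h2
      exact absurd h2.symm (H.g1 (k + 1))
  have e2 : ∀ k, d k = g (k + 2) → d (k + 2) = g (k + 4) := by
    intro k hk
    have h1 := e1 _ (e1 k hk)
    have h2 : d (k + 8) = g (k + 10) := h1
    rw [show k + 8 = k + 2 + 6 from rfl, H.d6, show k + 10 = k + 4 + 6 from rfl, H.g6] at h2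
    exact h2
  have f1 : ∀ k, ¬ d k = g (k + 2) → d (k + 2) = g (k + 3) := by
    intro k hk
    rw [H.g3]
    exact (hor k).resolve_left hk
  have f2 : ∀ k, d k = g (k + 1) → d (k + 2) = g (k + 3) := by
    intro k hk
    refine f1 k fun h1 => ?_
    rw [hk] at h1
    exact H.g1 (k + 1) h1
  have cls : ∀ r, (∀ j, d (2 * j + r) = g (2 * j + r + 2)) ∨
      ∀ j, d (2 * j + r) = g (2 * j + r + 1) := by
    intro r
    by_cases h0 : d r = g (r + 2)
    · left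
      intro j
      induction j with
      | zero => simpa using h0
      | succ j ih =>
        have h1 := e2 _ ih
        rw [show 2 * (j + 1) + r = 2 * j + r + 2 by ring]
        exact h1
    · right
      have h1 : d (r + 2) = g (r + 3) := f1 r h0
      have h2 : d (r + 4) = g (r + 5) := f2 _ h1
      have h3 : d (r + 6) = g (r + 7) := f2 _ h2
      rw [H.d6, show r + 7 = r + 1 + 6 from rfl, H.g6] at h3
      intro j
      induction j with
      | zero => simpa using h3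
      | succ j ih =>
        have h1 := f2 _ ih
        rw [show 2 * (j + 1) + r = 2 * j + r + 2 by ring]
        exact h1
  rcases cls 0 with h0 | h0 <;> rcases cls 1 with h1 | h1
  · left
    intro k
    rcases Nat.even_or_odd' k with ⟨j, rfl | rfl⟩
    · exact h0 j
    · exact h1 j
  · exfalso
    have a0 : d 0 = g 2 := h0 0
    have a1 : d 1 = g 2 := h1 0
    exact H.d1 0 (a0.trans a1.symm)
  · exfalso
    have a0 : d 2 = g 3 := h0 1
    have a1 : d 1 = g 3 := h1 0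
    exact H.d1 1 (a1.trans a0.symm)
  · right
    intro k
    rcases Nat.even_or_odd' k with ⟨j, rfl | rfl⟩
    · exact h0 j
    · exact h1 j

/-- the colours `c` all live on the same side -/
theorem HexD.side (h : Irr U T) (hAv : A ⊆ T v) (H : HexD U T v A θ0 ε g d c) :
    ((∀ k, d k = g (k + 2)) ∧ ∀ k, ∀ᶠ x in 𝓝 v, c (k + 1) ∈ Pal U x →
      0 ≤ -ε * (dist x (yy v θ0 (k + 1)) - 1)) ∨
    ((∀ k, d k = g (k + 1)) ∧ ∀ k, ∀ᶠ x in 𝓝 v, c (k + 1) ∈ Pal U x →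
      0 ≤ ε * (dist x (yy v θ0 (k + 1)) - 1)) := by
  rcases H.uni h hAv with h1 | h1
  · refine Or.inl ⟨h1, fun k => H.be h ?_⟩
    rw [h1 (k + 2), show k + 2 + 2 = k + 1 + 3 from rfl, H.g3]
    exact (H.g1 k).symm
  · refine Or.inr ⟨h1, fun k => H.al h ?_⟩
    rw [h1 k]
    exact H.g1 (k + 1)

/-- **real base** -/
theorem HexD.real (h : Irr U T) (h3 : (T v).ncard = 3) (H : HexD U T v (T v) θ0 ε g d c) :
    False := by
  have key : (∀ k, ∀ᶠ x in 𝓝 v, c (k + 1) ∈ Pal U x → 1 ≤ dist x (yy v θ0 (k + 1))) ∨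
      ∀ k, ∀ᶠ x in 𝓝 v, c (k + 1) ∈ Pal U x → dist x (yy v θ0 (k + 1)) ≤ 1 := by
    rcases H.side h Subset.rfl with ⟨-, h1⟩ | ⟨-, h1⟩ <;> rcases H.eps with h2 | h2
    · exact Or.inr fun k => (h1 k).mono fun x h5 h6 => by
        have := h5 h6; rw [h2] at this; linarith
    · exact Or.inl fun k => (h1 k).mono fun x h5 h6 => by
        have := h5 h6; rw [h2] at this; linarith
    · exact Or.inl fun k => (h1 k).mono fun x h5 h6 => by
        have := h5 h6; rw [h2] at this; linarith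
    · exact Or.inr fun k => (h1 k).mono fun x h5 h6 => by
        have := h5 h6; rw [h2] at this; linarith
  rcases key with h1 | h1
  · refine finA h h3 (θ0 + Real.pi / 3) (fun k => c (k + 1)) (fun k => H.cA _)
      (fun k => H.c1 _) fun k => ?_
    rw [yy_shift]
    exact (h1 k).mono fun x h5 h6 => h5 (h.sub x h6)
  · refine finB h h3 (θ0 + Real.pi / 3) (fun k => c (k + 1)) (fun k => H.cA _)
      (fun k => H.c1 _) fun k => ?_
    rw [yy_shift]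
    exact (h1 k).mono fun x h5 h6 => h5 (h.sub x h6)

/-- **virtual base**: `b` is the extra colour, `a` its partner -/
theorem HexD.virt (h : Irr U T) (hA3 : A.ncard = 3) (hAv : A ⊆ T v)
    (H : HexD U T v A θ0 ε g d c) {a b : Fin 6} (hb : b ∉ A) (hd : ∀ k, d k = b → c k = a)
    (hg : ∀ k, g k = b → c k = a) : False := by
  obtain ⟨j, hj⟩ : ∃ j, g (j + 1) = b := by
    rcases covA hA3 (H.gA 1) (H.gA 2) (H.gA 3) (H.g1 1) (H.g1 2) (H.g2 1) hb
      with h1 | h1 | h1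
    · exact ⟨0, h1.symm⟩
    · exact ⟨1, h1.symm⟩
    · exact ⟨2, h1.symm⟩
  rcases H.uni h hAv with h1 | h1
  · have h2 : d (j + 2) = b := by
      rw [h1, show j + 2 + 2 = j + 1 + 3 from rfl, H.g3, hj]
    exact H.c1 (j + 1) ((hg _ hj).trans (hd _ h2).symm)
  · have h2 : d j = b := by rw [h1, hj]
    exact H.c1 j ((hd _ h2).trans (hg _ hj).symm)

/-- the near conditions from a solid left side -/
theorem near_left (h : Irr U T) {θa : ℝ} (hlt : θa < θ0) (hle : θ0 - θa ≤ 1 / 2)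
    (hg : ∀ k, ∀ θ ∈ Icc θa θ0, g k ∈ T (yy v θ k)) :
    (∀ k, ∀ᶠ p in 𝓝 (yy v θ0 (k + 1)), g k ∈ Pal U p → 0 ≤ 1 * (dist p (yy v θ0 k) - 1)) ∧
    ∀ k, ∀ᶠ p in 𝓝 (yy v θ0 k), g (k + 1) ∈ Pal U p →
      1 * (dist p (yy v θ0 (k + 1)) - 1) ≤ 0 :=
  ⟨fun k => (arcB_gen h hlt hle k (hg k)).mono fun p h5 h6 => by have := h5 h6; linarith,
    fun k => (arcA_gen h hlt hle k (hg (k + 1))).mono fun p h5 h6 => by
      have := h5 h6; linarith⟩

theorem arcA_genR (h : Irr U T) {θb : ℝ} (hlt : θ0 < θb) (hle : θb - θ0 ≤ 1 / 2)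
    (k : ℕ) {i : Fin 6} (hi : ∀ θ ∈ Icc θ0 θb, i ∈ T (yy v θ k)) :
    ∀ᶠ p in 𝓝 (yy v θ0 (k + 1)), i ∈ Pal U p → dist p (yy v θ0 k) ≤ 1 := by
  have hpi := Real.pi_gt_three
  refine Vale.Agent.P032.S5.H783.arcA h.mx (Q := (fun θ => yy v θ k) '' Icc θ0 θb)
    (a0 := yy v θb k)
    (isPreconnected_Icc.image _ (continuous_yy v k).continuousOn) ?_
    ⟨θ0, ⟨le_rfl, hlt.le⟩, rfl⟩ ⟨θb, ⟨hlt.le, le_rfl⟩, rfl⟩ ?_
  · rintro _ ⟨θ, hθm, rfl⟩
    exact h.sub _ (hi θ hθm)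
  · apply dist_sq_lt dist_nonneg
    rw [dist_yy_add]
    have e1 : (θb - θ0) + ((k : ℝ) - ((k + 1 : ℕ) : ℝ)) * (Real.pi / 3) =
        -(Real.pi / 3 - (θb - θ0)) := by push_cast; ring
    rw [e1, Real.cos_neg]
    have e2 : 1 / 2 < Real.cos (Real.pi / 3 - (θb - θ0)) := by
      rw [← Real.cos_pi_div_three]
      apply Real.cos_lt_cos_of_nonneg_of_le_pi <;> linarith
    linarith

theorem arcB_genR (h : Irr U T) {θb : ℝ} (hlt : θ0 < θb) (hle : θb - θ0 ≤ 1 / 2)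
    (k : ℕ) {i : Fin 6} (hi : ∀ θ ∈ Icc θ0 θb, i ∈ T (yy v θ (k + 1))) :
    ∀ᶠ p in 𝓝 (yy v θ0 k), i ∈ Pal U p → 1 ≤ dist p (yy v θ0 (k + 1)) := by
  have hpi := Real.pi_gt_three
  refine Vale.Agent.P032.S5.H783.arcB h.mx (Q := (fun θ => yy v θ (k + 1)) '' Icc θ0 θb)
    (a0 := yy v θb (k + 1))
    (isPreconnected_Icc.image _ (continuous_yy v (k + 1)).continuousOn) ?_
    ⟨θ0, ⟨le_rfl, hlt.le⟩, rfl⟩ ⟨θb, ⟨hlt.le, le_rfl⟩, rfl⟩ ?_
  · rintro _ ⟨θ, hθm, rfl⟩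
    exact h.sub _ (hi θ hθm)
  · apply dist_sq_gt dist_nonneg
    rw [dist_yy_add]
    have e1 : (θb - θ0) + (((k + 1 : ℕ) : ℝ) - (k : ℝ)) * (Real.pi / 3) =
        Real.pi / 3 + (θb - θ0) := by push_cast; ring
    rw [e1]
    have e2 : Real.cos (Real.pi / 3 + (θb - θ0)) < 1 / 2 := by
      rw [← Real.cos_pi_div_three]
      apply Real.cos_lt_cos_of_nonneg_of_le_pi <;> linarith
    linarith

/-- the near conditions from a solid right side -/
theorem near_right (h : Irr U T) {θb : ℝ} (hlt : θ0 < θb) (hle : θb - θ0 ≤ 1 / 2)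
    (hg : ∀ k, ∀ θ ∈ Icc θ0 θb, g k ∈ T (yy v θ k)) :
    (∀ k, ∀ᶠ p in 𝓝 (yy v θ0 (k + 1)), g k ∈ Pal U p → 0 ≤ -1 * (dist p (yy v θ0 k) - 1)) ∧
    ∀ k, ∀ᶠ p in 𝓝 (yy v θ0 k), g (k + 1) ∈ Pal U p →
      -1 * (dist p (yy v θ0 (k + 1)) - 1) ≤ 0 :=
  ⟨fun k => (arcA_genR h hlt hle k (hg k)).mono fun p h5 h6 => by have := h5 h6; linarith,
    fun k => (arcB_genR h hlt hle k (hg (k + 1))).mono fun p h5 h6 => by
      have := h5 h6; linarith⟩

end Vale.Agent.P032.H175
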