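import Vale.Agent.P032.S5.H180.RulesH
import Vale.Agent.P032.S5.H180.HexZ
import Vale.Agent.P032.S5.H175.HexD

/-!
# P032: the ring about a base is not frozen, arbitrary unit pairs of harmless points
-/

open Set Filter Topology Metric

noncomputable section

namespace Vale.Agent.P032.H175

open Vale.Agent.P032.Six
open Vale.Agent.P032.H180 (Qt Qt_of_ne Qt_of_eq pt continuous_pt pt_six dist_pt univ_of_three)
open Vale.Agent.P032.S5.H783 (yy dist_yy)

/-- frozen times -/
structure FQ (Q : ℝ → Set (Fin 3)) (r : ℝ → Fin 3) (s : Fin 3) : Prop where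
  s0 : s ≠ 0
  ne : ∀ t, (Q t).Nonempty
  usc : ∀ t, ∀ᶠ t' in 𝓝 t, Q t' ⊆ Q t
  fro : ∀ t l, l ∈ Qt Q r t ↔ l + s ∈ Qt Q r (t + 1)
  adj : ∀ t m, Q t = univ → Q (t + 1) ≠ {m}
  adj' : ∀ t m, Q (t + 1) = univ → Q t ≠ {m}

theorem f1 : ∀ l s : Fin 3, s ≠ 0 → l ≠ l + s := by decide
theorem f2' : ∀ l s : Fin 3, s ≠ 0 → l ≠ l + s + s := by decide
theorem f3 : ∀ l s : Fin 3, l + s + s + s = l := by decide
theorem f4 : ∀ l s : Fin 3, l + s + s + s = l ∧ (l - s) + s = l := by decide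
theorem f5 : ∀ l i s : Fin 3, s ≠ 0 → i = l ∨ i = l + s ∨ i = l + s + s := by decide
theorem f6 : ∀ l i s : Fin 3, l - s = i ↔ l = i + s := by decide

/-- the sequence of labels -/
def uu (s m : Fin 3) (k : ℕ) : Fin 3 := (fun l => l + s)^[k] m

theorem uu_zero (s m : Fin 3) : uu s m 0 = m := rfl

theorem uu_succ (s m : Fin 3) (k : ℕ) : uu s m (k + 1) = uu s m k + s :=
  Function.iterate_succ_apply' _ k m

theorem uu_three (s m : Fin 3) (k : ℕ) : uu s m (k + 3) = uu s m k := by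
  rw [show k + 3 = k + 1 + 1 + 1 from rfl, uu_succ, uu_succ, uu_succ, f3]

variable {Q : ℝ → Set (Fin 3)} {r : ℝ → Fin 3} {s : Fin 3}

theorem FQ.full (h : FQ Q r s) {t : ℝ} (ht : Q t = univ) :
    Q (t + 1) = univ ∧ r (t + 1) = r t + s := by
  have h1 : ∀ l, l ∈ Qt Q r (t + 1) ↔ l = r t + s := by
    intro l
    have h2 := h.fro t (l - s)
    rw [(f4 l s).2, Qt_of_eq ht] at h2
    rw [← h2]
    exact f6 l (r t) s
  have h3 : Q (t + 1) = univ := by
    by_contra hcon
    refine h.adj t (r t + s) ht ?_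
    rw [← Qt_of_ne (Q := Q) (r := r) hcon]
    ext l
    exact h1 l
  refine ⟨h3, ?_⟩
  have h4 := (h1 (r (t + 1))).1 (by rw [Qt_of_eq h3]; rfl)
  exact h4

theorem FQ.pred (h : FQ Q r s) {t : ℝ} (ht : Q (t + 1) = univ) : Q t = univ := by
  by_contra hcon
  refine h.adj' t (r (t + 1) - s) ht ?_
  rw [← Qt_of_ne (Q := Q) (r := r) hcon]
  ext l
  rw [h.fro t l, Qt_of_eq ht]
  exact ⟨fun h1 => ((f6 _ _ s).2 (Eq.symm h1)).symm, fun h1 => ((f6 _ _ s).1 (Eq.symm h1)).symm⟩

theorem FQ.step (h : FQ Q r s) {t : ℝ} (ht : Q t ≠ univ) :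
    Q (t + 1) ≠ univ ∧ ∀ l, l ∈ Q t ↔ l + s ∈ Q (t + 1) := by
  have h1 : Q (t + 1) ≠ univ := fun h1 => ht (h.pred h1)
  refine ⟨h1, fun l => ?_⟩
  have h2 := h.fro t l
  rwa [Qt_of_ne ht, Qt_of_ne h1] at h2

theorem FQ.iter (h : FQ Q r s) {t : ℝ} (ht : Q t ≠ univ) (m : Fin 3) (k : ℕ) :
    Q (t + k) ≠ univ ∧ (m ∈ Q t ↔ uu s m k ∈ Q (t + k)) := by
  induction k with
  | zero => simpa [uu_zero] using ht
  | succ k ih =>
    have h1 := h.step ih.1
    rw [show t + ((k + 1 : ℕ) : ℝ) = t + k + 1 by push_cast; ring, uu_succ]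
    exact ⟨h1.1, ih.2.trans (h1.2 _)⟩

theorem FQ.iterF (h : FQ Q r s) {t : ℝ} (ht : Q t = univ) (k : ℕ) :
    Q (t + k) = univ ∧ r (t + k) = uu s (r t) k := by
  induction k with
  | zero => simpa [uu_zero] using ht
  | succ k ih =>
    have h1 := h.full ih.1
    rw [show t + ((k + 1 : ℕ) : ℝ) = t + k + 1 by push_cast; ring, uu_succ, h1.2, ih.2]
    exact ⟨h1.1, rfl⟩

/-- a pure time and its labels -/
theorem FQ.pureI (h : FQ Q r s) {t : ℝ} {m : Fin 3} (ht : Q t = {m}) (k : ℕ) :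
    Q (t + k) = {uu s m k} := by
  have hne : Q t ≠ univ := by
    intro h1
    rw [h1] at ht
    have h2 : m + 1 ∈ (univ : Set (Fin 3)) := mem_univ _
    rw [ht] at h2
    exact f1 m 1 (by decide) (Eq.symm h2)
  induction k with
  | zero => simpa [uu_zero] using ht
  | succ k ih =>
    have h0 := (h.iter hne m k).1
    have h1 := h.step h0
    rw [show t + ((k + 1 : ℕ) : ℝ) = t + k + 1 by push_cast; ring, uu_succ]
    ext l
    have h2 := h1.2 (l - s)
    rw [(f4 l s).2, ih] at h2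
    rw [← h2]
    exact f6 l _ s

/-- **first impure time** -/
theorem FQ.first (h : FQ Q r s) {t1 : ℝ} {m : Fin 3} (ht1 : Q t1 = {m}) :
    ∃ t0, t1 < t0 ∧ (∀ t ∈ Ico t1 t0, Q t = {m}) ∧ m ∈ Q t0 ∧ ∃ i, i ≠ m ∧ i ∈ Q t0 := by
  set S := {t | t1 ≤ t ∧ ∃ i, i ≠ m ∧ i ∈ Q t} with hS
  have hSclosed : IsClosed S := by
    rw [← isOpen_compl_iff, isOpen_iff_mem_nhds]
    intro t ht
    by_cases hle1 : t1 ≤ t
    · have ht2 : ∀ i, i ≠ m → i ∉ Q t := fun i him hik => ht ⟨hle1, i, him, hik⟩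
      filter_upwards [h.usc t] with t' ht'
      rintro ⟨-, i, him, hik⟩
      exact ht2 i him (ht' hik)
    · push Not at hle1
      filter_upwards [Iio_mem_nhds hle1] with t' ht'
      rintro ⟨h5, -⟩
      have ht' : t' < t1 := ht'
      linarith
  have hSne : S.Nonempty := by
    refine ⟨t1 + 1, by linarith, uu s m 1, ?_, ?_⟩
    · rw [uu_succ, uu_zero]
      exact (f1 m s h.s0).symm
    · have h2 := h.pureI ht1 1
      rw [Nat.cast_one] at h2
      rw [h2]
      rfl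
  have hSbdd : BddBelow S := ⟨t1, fun t ht => ht.1⟩
  have h0S : sInf S ∈ S := hSclosed.csInf_mem hSne hSbdd
  obtain ⟨h10, i, him, hi⟩ := h0S
  have hlt : t1 < sInf S := by
    rcases h10.lt_or_eq with h5 | h5
    · exact h5
    · exfalso
      rw [← h5, ht1] at hi
      exact him hi
  have hpure : ∀ t ∈ Ico t1 (sInf S), Q t = {m} := by
    intro t ht
    have hnot : t ∉ S := fun h5 => absurd (csInf_le hSbdd h5) (not_le.2 ht.2)
    have h6 : ∀ i ∈ Q t, i = m := by
      intro i hi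
      by_contra him
      exact hnot ⟨ht.1, i, him, hi⟩
    obtain ⟨i', hi'⟩ := h.ne t
    ext l
    constructor
    · exact fun hl => h6 l hl
    · intro hl
      have hl : l = m := hl
      rw [hl, ← h6 i' hi']
      exact hi'
  refine ⟨sInf S, hlt, hpure, ?_, i, him, hi⟩
  have h5 : ∀ᶠ t in 𝓝[<] (sInf S), Q t ⊆ Q (sInf S) := mem_nhdsWithin_of_mem_nhds (h.usc _)
  have h6 : ∀ᶠ t in 𝓝[<] (sInf S), t1 < t := mem_nhdsWithin_of_mem_nhds (Ioi_mem_nhds hlt)
  obtain ⟨t, h7, h8, h9⟩ := (h5.and (h6.and self_mem_nhdsWithin)).exists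
  exact h7 (by rw [hpure t ⟨h8.le, h9⟩]; rfl)

/-- two labels at the first impure time -/
theorem FQ.two (h : FQ Q r s) {t0 : ℝ} {m : Fin 3} (hm : m ∈ Q t0) (hi : ∃ i, i ≠ m ∧ i ∈ Q t0)
    (hnu : Q t0 ≠ univ) :
    (∀ k l, l ∈ Q (t0 + (k : ℕ)) ↔ l ≠ uu s m (k + 2)) ∨
      ∀ k l, l ∈ Q (t0 + (k : ℕ)) ↔ l ≠ uu s m (k + 1) := by
  have prop : ∀ j, (∀ l, l ∈ Q t0 ↔ l ≠ uu s m j) →
      ∀ (k : ℕ) l, l ∈ Q (t0 + (k : ℝ)) ↔ l ≠ uu s m (k + j) := by
    intro j hj k
    induction k with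
    | zero => simpa using hj
    | succ k ih =>
      intro l
      have h0 := (h.iter hnu m k).1
      have h1 := (h.step h0).2 (l - s)
      rw [(f4 l s).2] at h1
      rw [show t0 + ((k + 1 : ℕ) : ℝ) = t0 + k + 1 by push_cast; ring, ← h1, ih,
        show k + 1 + j = k + j + 1 by ring, uu_succ]
      exact not_congr (f6 l _ s)
  obtain ⟨i, him, hi⟩ := hi
  obtain ⟨q, hq⟩ : ∃ q, q ∉ Q t0 := by
    by_contra hcon
    push Not at hcon
    exact hnu (eq_univ_of_forall hcon)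
  have hqm : q ≠ m := fun h1 => hq (h1 ▸ hm)
  have hiq : i ≠ q := fun h1 => hq (h1 ▸ hi)
  have hall : ∀ l, l ∈ Q t0 ↔ l ≠ q := by
    intro l
    constructor
    · rintro hl rfl
      exact hq hl
    · intro hl
      have : l = m ∨ l = i := by
        revert hl hiq hqm him
        clear hq hi prop hm
        revert l i q m
        decide
      rcases this with rfl | rfl
      · exact hm
      · exact hi
  rcases f5 m q s h.s0 with h1 | h1 | h1
  · exact absurd h1 hqm
  · right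
    exact prop 1 (by rw [uu_succ, uu_zero, ← h1]; exact hall)
  · left
    exact prop 2 (by rw [uu_succ, uu_succ, uu_zero, ← h1]; exact hall)

variable {U : Fin 6 → Set ℂ} {T : ℂ → Set (Fin 6)} {x : ℂ} {S : Set (Fin 6)}

theorem pt_yy (v : ℂ) (t : ℝ) (k : ℕ) : pt v (t + k) = yy v (t * (Real.pi / 3)) k := by
  unfold pt yy cis
  congr 2
  push_cast
  ring

theorem pt_yy' (v : ℂ) (θ : ℝ) (k : ℕ) : yy v θ k = pt v (θ * (3 / Real.pi) + k) := by
  rw [pt_yy]
  congr 1
  have := Real.pi_ne_zero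
  field_simp

/-- 585's harmless points -/
theorem of_harm (h : Irr U T) {z : ℂ} {A : Set (Fin 6)} (hz : Six.Harm T z A) {p q : Fin 6}
    (hpq : p ≠ q) (hA : A = {p, q}) : Harm T z p q := by
  have hp : p ∈ A := by rw [hA]; exact Or.inl rfl
  have hq : q ∈ A := by rw [hA]; exact Or.inr rfl
  refine ⟨hz.card, hpq, hz.sub hp, hz.sub hq, fun w hw hsub => ?_, ?_⟩
  · have h1 := hz.h1 w hw hsub
    exact ⟨h1 hp, h1 hq⟩
  · obtain ⟨y, hy, hyJ⟩ := hz.arc
    have hyA : T y = A := hyJ.self_of_nhdsWithin hy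
    filter_upwards [h.no_layer hy] with w hw h1 h2
    refine hw ?_
    rw [hyA, hA]
    rintro i (rfl | rfl)
    · exact h1
    · exact h2

theorem dist_pt_one (v : ℂ) (t : ℝ) : dist (pt v t) (pt v (t + 1)) = 1 := by
  have h1 := pt_yy v t 0
  have h2 := pt_yy v t 1
  rw [Nat.cast_zero, add_zero] at h1
  rw [Nat.cast_one] at h2
  rw [h1, h2]
  exact Vale.Agent.P032.S5.H783.dist_yy_succ _ _ _

theorem ex_pt {v y : ℂ} (hy : dist y v = 1) : ∃ t, y = pt v t := by
  obtain ⟨φ, hφ⟩ := exists_cis (u := y - v) (by rw [← dist_eq_norm]; exact hy)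
  refine ⟨φ * (3 / Real.pi), ?_⟩
  have h1 := pt_yy' v φ 0
  rw [Nat.cast_zero, add_zero] at h1
  rw [← h1]
  unfold yy
  rw [Nat.cast_zero, zero_mul, add_zero, ← hφ]
  ring

theorem ex_pair {A : Set (Fin 6)} (hA : A.ncard = 2) : ∃ p q, p ≠ q ∧ A = {p, q} :=
  Set.ncard_eq_two.1 hA

/-- **The ring about a base is not frozen.** -/
theorem not_frozenZ (b : S5.H180.Bs U T x S) {f : ℂ → Set (Fin 6)}
    (hZ : ∀ y, dist y x = 1 → 4 ≤ (T y).ncard → Six.Harm T y (f y))
    (hx : T x = S ∨ Six.Harm T x (f x))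
    (hc : ∀ y, dist y x = 1 → Sᶜ ⊆ T y → 4 ≤ (T y).ncard)
    (hup : ∀ y y', (y = x ∨ dist y x = 1) → (y' = x ∨ dist y' x = 1) → dist y y' = 1 →
      4 ≤ (T y).ncard → 4 ≤ (T y').ncard → T y \ f y ⊆ T y' → T y \ f y = f y')
    {col : Fin 3 → Fin 6} (hcol : ∀ i, i ∉ S ↔ ∃ l, i = col l) (hinj : Function.Injective col)
    {r : ℝ → Fin 3} (hr : ∀ t, Sᶜ ⊆ T (pt x t) → f (pt x t) = Sᶜ \ {col (r t)}) :
    ¬ ((∀ t ∈ Icc (0 : ℝ) 6, ∀ l, l ∈ Qt (fun t => {l | col l ∈ T (pt x t)}) r t ↔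
        l + 1 ∈ Qt (fun t => {l | col l ∈ T (pt x t)}) r (t + 1)) ∨
      ∀ t ∈ Icc (0 : ℝ) 6, ∀ l, l ∈ Qt (fun t => {l | col l ∈ T (pt x t)}) r t ↔
        l + 2 ∈ Qt (fun t => {l | col l ∈ T (pt x t)}) r (t + 1)) := by
  intro hfr
  have h := b.irr
  set Q : ℝ → Set (Fin 3) := fun t => {l | col l ∈ T (pt x t)} with hQ
  have hQm : ∀ t l, l ∈ Q t ↔ col l ∈ T (pt x t) := fun t l => Iff.rfl
  have hcS : ∀ l, col l ∉ S := fun l => (hcol _).2 ⟨l, rfl⟩
  have hfull : ∀ t, Q t = univ ↔ Sᶜ ⊆ T (pt x t) := by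
    intro t
    constructor
    · intro h1 i hi
      obtain ⟨l, rfl⟩ := (hcol i).1 hi
      have : l ∈ Q t := by rw [h1]; exact mem_univ l
      exact this
    · intro h1
      exact eq_univ_of_forall fun l => h1 (hcS l)
  have hper : ∀ t, Q (t + 6) = Q t := fun t => by simp only [hQ, pt_six]
  have hrper : ∀ t, Q t = univ → r (t + 6) = r t := by
    intro t ht
    have h1 := hr t ((hfull t).1 ht)
    have h2 := hr (t + 6) ((hfull _).1 (by rw [hper]; exact ht))
    rw [pt_six, h1] at h2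
    by_contra hne
    have h3 : col (r (t + 6)) ∈ Sᶜ \ {col (r t)} :=
      ⟨hcS _, fun h4 => hne (hinj h4)⟩
    rw [h2] at h3
    exact h3.2 rfl
  have hQt6 : ∀ t, Qt Q r (t + 6) = Qt Q r t := by
    intro t
    by_cases ht : Q t = univ
    · rw [Qt_of_eq ht, Qt_of_eq (by rw [hper]; exact ht), hrper t ht]
    · rw [Qt_of_ne ht, Qt_of_ne (by rw [hper]; exact ht), hper]
  -- frozen for all times
  obtain ⟨s, hs0, hfro⟩ : ∃ s : Fin 3, s ≠ 0 ∧
      ∀ t l, l ∈ Qt Q r t ↔ l + s ∈ Qt Q r (t + 1) := by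
    have ext : ∀ s : Fin 3, (∀ t ∈ Icc (0 : ℝ) 6, ∀ l, l ∈ Qt Q r t ↔ l + s ∈ Qt Q r (t + 1)) →
        ∀ t l, l ∈ Qt Q r t ↔ l + s ∈ Qt Q r (t + 1) := by
      intro s hs
      have up : ∀ (n : ℕ) t, t ∈ Icc (0 : ℝ) 6 → ∀ l,
          (l ∈ Qt Q r (t + 6 * n) ↔ l + s ∈ Qt Q r (t + 6 * n + 1)) ∧
          (l ∈ Qt Q r (t - 6 * n) ↔ l + s ∈ Qt Q r (t - 6 * n + 1)) := by
        intro n
        induction n with
        | zero =>
          intro t ht l
          simpa using hs t ht l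
        | succ n ih =>
          intro t ht l
          obtain ⟨i1, i2⟩ := ih t ht l
          constructor
          · rw [show t + 6 * ((n + 1 : ℕ) : ℝ) + 1 = (t + 6 * n + 1) + 6 by push_cast; ring,
              show t + 6 * ((n + 1 : ℕ) : ℝ) = (t + 6 * n) + 6 by push_cast; ring, hQt6, hQt6]
            exact i1
          · rw [← hQt6 (t - 6 * ((n + 1 : ℕ) : ℝ)), ← hQt6 (t - 6 * ((n + 1 : ℕ) : ℝ) + 1),
              show t - 6 * ((n + 1 : ℕ) : ℝ) + 1 + 6 = t - 6 * n + 1 by push_cast; ring,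
              show t - 6 * ((n + 1 : ℕ) : ℝ) + 6 = t - 6 * n by push_cast; ring]
            exact i2
      intro t l
      have h1 : (⌊t / 6⌋ : ℝ) ≤ t / 6 := Int.floor_le _
      have h2 : t / 6 < ⌊t / 6⌋ + 1 := Int.lt_floor_add_one _
      have h3 : t - 6 * ⌊t / 6⌋ ∈ Icc (0 : ℝ) 6 := ⟨by linarith, by linarith⟩
      rcases le_or_gt 0 ⌊t / 6⌋ with h4 | h4
      · obtain ⟨n, hn⟩ := Int.eq_ofNat_of_zero_le h4
        have h5 := (up n _ h3 l).1
        rw [hn] at h5
        simpa using h5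
      · obtain ⟨n, hn⟩ := Int.eq_ofNat_of_zero_le (by omega : 0 ≤ -⌊t / 6⌋)
        have hn' : (⌊t / 6⌋ : ℝ) = -(n : ℝ) := by
          have : (⌊t / 6⌋ : ℤ) = -(n : ℤ) := by omega
          rw [this]; push_cast; ring
        have h5 := (up n _ h3 l).2
        rw [hn'] at h5
        have e : t - 6 * -(n : ℝ) - 6 * n = t := by ring
        rwa [e] at h5
    rcases hfr with h1 | h1
    · exact ⟨1, by decide, ext 1 h1⟩
    · exact ⟨2, by decide, ext 2 h1⟩
  have hFQ : FQ Q r s := by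
    refine ⟨hs0, fun t => ?_, fun t => ?_, hfro, fun t m ht hm => ?_, fun t m ht hm => ?_⟩
    · obtain ⟨i, hi, hiS⟩ := Set.not_subset.1 (b.full _ (dist_pt x t))
      obtain ⟨l, rfl⟩ := (hcol i).1 hiS
      exact ⟨l, hi⟩
    · filter_upwards [(continuous_pt x).continuousAt.eventually (h.nhd (pt x t))] with t' ht' l hl
      exact ht' hl
    · obtain ⟨m', n', hm', hn', hmS, hnS, hmn⟩ := S5.H57.two_out h b.full (dist_pt x (t + 1))
        (dist_pt x t) (by rw [dist_comm]; exact dist_pt_one x t)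
        (fun i hi => (hfull t).1 ht hi.2)
      obtain ⟨l, rfl⟩ := (hcol m').1 hmS
      obtain ⟨l', rfl⟩ := (hcol n').1 hnS
      have e1 : l ∈ Q (t + 1) := hm'
      have e2 : l' ∈ Q (t + 1) := hn'
      rw [hm] at e1 e2
      have e1 : l = m := e1
      have e2 : l' = m := e2
      exact hmn (by rw [e1, e2])
    · obtain ⟨m', n', hm', hn', hmS, hnS, hmn⟩ := S5.H57.two_out h b.full (dist_pt x t)
        (dist_pt x (t + 1)) (dist_pt_one x t) (fun i hi => (hfull _).1 ht hi.2)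
      obtain ⟨l, rfl⟩ := (hcol m').1 hmS
      obtain ⟨l', rfl⟩ := (hcol n').1 hnS
      have e1 : l ∈ Q t := hm'
      have e2 : l' ∈ Q t := hn'
      rw [hm] at e1 e2
      have e1 : l = m := e1
      have e2 : l' = m := e2
      exact hmn (by rw [e1, e2])
  -- a pure time
  have hpure : ∃ t m, Q t = {m} := by
    by_contra hcon
    push Not at hcon
    obtain ⟨t, ht⟩ : ∃ t, Q t ≠ univ := by
      by_contra hall
      push Not at hall
      have h1 : pt x '' Icc 0 1 ⊆ {y | 4 ≤ (T y).ncard} := by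
        rintro _ ⟨t, -, rfl⟩
        exact hc _ (dist_pt x t) ((hfull t).1 (hall t))
      have h2 := h.td _ h1 (isPreconnected_Icc.image _ (continuous_pt x).continuousOn)
        ⟨0, ⟨le_rfl, zero_le_one⟩, rfl⟩ ⟨1, ⟨zero_le_one, le_rfl⟩, rfl⟩
      have h3 := dist_pt_one x 0
      rw [zero_add, h2, dist_self] at h3
      norm_num at h3
    obtain ⟨q, hq⟩ : ∃ q, q ∉ Q t := by
      by_contra h1
      push Not at h1
      exact ht (eq_univ_of_forall h1)
    -- palettes inside `Q t` are all of `Q t`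
    have hsame : ∀ t', Q t' ⊆ Q t → ∀ l, l ≠ q → l ∈ Q t' := by
      intro t' hsub l hl
      obtain ⟨i, hi⟩ := hFQ.ne t'
      obtain ⟨j, hj, hji⟩ : ∃ j ∈ Q t', j ≠ i := by
        by_contra h1
        push Not at h1
        refine hcon t' i ?_
        ext j
        exact ⟨fun h2 => h1 j h2, fun h2 => by rw [show j = i from h2]; exact hi⟩
      have hiq : i ≠ q := fun h1 => hq (h1 ▸ hsub hi)
      have hjq : j ≠ q := fun h1 => hq (h1 ▸ hsub hj)
      have : l = i ∨ l = j := by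
        clear_value Q
        clear hi hj hsub hq
        revert l i j q
        decide
      rcases this with rfl | rfl
      · exact hi
      · exact hj
    have hc1 : q + s + s ∈ Q t := hsame t Subset.rfl _ (f2' q s hs0).symm
    have hc2 : q + s + s ∈ Q (t + 1) :=
      ((hFQ.step ht).2 _).1 (hsame t Subset.rfl _ (f1 q s hs0).symm)
    refine S5.H57.no_partner h (dist_pt x t) (t := col (q + s + s)) ?_ (dist_pt_one x t)
      (by rw [dist_comm]; exact dist_pt x (t + 1)) hc2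
    filter_upwards [mem_nhdsWithin_of_mem_nhds (h.nhd (pt x t)), self_mem_nhdsWithin]
      with y h1 h2
    obtain ⟨t', rfl⟩ := ex_pt (mem_sphere.1 h2)
    exact hsame t' (fun l hl => h1 hl) _ (f2' q s hs0).symm
  obtain ⟨t1, m, ht1⟩ := hpure
  obtain ⟨t0, hlt, hpI, hm0, hi0⟩ := hFQ.first ht1
  have hpi := Real.pi_pos
  set θ0 := t0 * (Real.pi / 3) with hθ0
  set θa := max (t1 * (Real.pi / 3)) (θ0 - 1 / 2) with hθa
  have hlt1 : t1 * (Real.pi / 3) < θ0 := by
    rw [hθ0]; exact mul_lt_mul_of_pos_right hlt (by positivity)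
  have hlta : θa < θ0 := max_lt hlt1 (by linarith)
  have hlea : θ0 - θa ≤ 1 / 2 := by
    have := le_max_right (t1 * (Real.pi / 3)) (θ0 - 1 / 2); linarith
  have hya : ∀ k, yy x θ0 k = pt x (t0 + k) := fun k => (pt_yy x t0 k).symm
  have hcol' : ∀ l l', col l = col l' ↔ l = l' := fun l l' =>
    ⟨fun h1 => hinj h1, fun h1 => by rw [h1]⟩
  have hun1 : ∀ k, uu s m k ≠ uu s m (k + 1) := fun k => by rw [uu_succ]; exact f1 _ _ hs0
  have hun2 : ∀ k, uu s m k ≠ uu s m (k + 2) := fun k => by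
    rw [show k + 2 = k + 1 + 1 from rfl, uu_succ, uu_succ]; exact f2' _ _ hs0
  have hFD : FD T x S θa θ0 fun k => col (uu s m k) := by
    refine ⟨hlta, hlea, fun k => hcS _, fun k h1 => hun1 k (hinj h1),
      fun k h1 => hun2 k (hinj h1), fun k => by rw [uu_three], fun k => ?_, fun k θ hθ i hi => ?_⟩
    · rw [hya]
      by_cases h1 : Q t0 = univ
      · have h2 := (hFQ.iterF h1 k).1
        have : uu s m k ∈ Q (t0 + k) := by rw [h2]; exact mem_univ _
        exact this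
      · exact (hFQ.iter h1 m k).2.1 hm0
    · obtain ⟨l, rfl⟩ := (hcol i).1 hi
      rw [pt_yy', hcol']
      have hτ : θ * (3 / Real.pi) ∈ Ico t1 t0 := by
        have e1 : t1 * (Real.pi / 3) ≤ θ := (le_max_left _ _).trans hθ.1
        have e2 : θ < t0 * (Real.pi / 3) := hθ.2
        have e3 : Real.pi / 3 * (3 / Real.pi) = 1 := by field_simp
        have e4 : 0 < 3 / Real.pi := by positivity
        constructor
        · calc t1 = t1 * (Real.pi / 3) * (3 / Real.pi) := by rw [mul_assoc, e3, mul_one]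
            _ ≤ θ * (3 / Real.pi) := mul_le_mul_of_nonneg_right e1 e4.le
        · calc θ * (3 / Real.pi) < t0 * (Real.pi / 3) * (3 / Real.pi) :=
              mul_lt_mul_of_pos_right e2 e4
            _ = t0 := by rw [mul_assoc, e3, mul_one]
      have h1 := hFQ.pureI (hpI _ hτ) k
      have h2 : l ∈ Q (θ * (3 / Real.pi) + k) ↔ l = uu s m k := by rw [h1]; rfl
      exact h2
  have hZ' : ∀ k, (T (yy x θ0 k)).ncard ≤ 3 ∨
      ∃ p q, Harm T (yy x θ0 k) p q ∧ f (yy x θ0 k) = {p, q} := by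
    intro k
    by_cases h4 : 4 ≤ (T (yy x θ0 k)).ncard
    · right
      have hz := hZ _ (dist_yy x θ0 k) h4
      obtain ⟨p, q, hpq, hA⟩ := ex_pair hz.cardA
      exact ⟨p, q, of_harm h hz hpq hA, hA⟩
    · exact Or.inl (by omega)
  by_cases hu : Q t0 = univ
  · -- full
    have hk := hFQ.iterF hu
    have hSk : ∀ k, Sᶜ ⊆ T (yy x θ0 k) := fun k => by
      rw [hya]; exact (hfull _).1 (hk k).1
    have hfk : ∀ k, f (yy x θ0 k) = Sᶜ \ {col (uu s (r t0) k)} := fun k => by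
      have h1 := hr (t0 + k) ((hfull _).1 (hk k).1)
      rw [hya, h1, (hk k).2]
    have h4k : ∀ k, 4 ≤ (T (yy x θ0 k)).ncard := fun k => hc _ (dist_yy x θ0 k) (hSk k)
    have hHk : ∀ k, Six.Harm T (yy x θ0 k) (f (yy x θ0 k)) := fun k =>
      hZ _ (dist_yy x θ0 k) (h4k k)
    have hex : ∀ k, ∃ c, c ∈ S ∧ ∀ i, i ∈ T (yy x θ0 k) ↔ i ∉ S ∨ i = c := by
      intro k
      have h1 := Set.ncard_inter_add_ncard_sdiff_eq_ncard (T (yy x θ0 k)) S (Set.toFinite _)
      have h2 : T (yy x θ0 k) \ S = Sᶜ := by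
        apply Subset.antisymm
        · exact fun i hi => hi.2
        · exact fun i hi => ⟨hSk k hi, hi⟩
      have h3 : (Sᶜ).ncard = 3 := by rw [Set.ncard_compl, b.three]; simp
      rw [(hHk k).card, h2, h3] at h1
      obtain ⟨c, hcc⟩ := Set.ncard_eq_one.1 (by omega : (T (yy x θ0 k) ∩ S).ncard = 1)
      have h5 : c ∈ T (yy x θ0 k) ∩ S := by rw [hcc]; rfl
      refine ⟨c, h5.2, fun i => ⟨fun hi => ?_, ?_⟩⟩
      · by_cases hiS : i ∈ S
        · right
          have : i ∈ T (yy x θ0 k) ∩ S := ⟨hi, hiS⟩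
          rw [hcc] at this
          exact this
        · exact Or.inl hiS
      · rintro (h6 | rfl)
        · exact hSk k h6
        · exact h5.1
    choose c hcS' hTT using hex
    have hnl := near_left (g := fun k => col (uu s m k)) h hlta hlea fun k θ hθ => hFD.arc k hθ
    have hHex : HexD U T x S θ0 1 (fun k => col (uu s m k)) (fun k => col (uu s (r t0) k)) c := by
      refine ⟨Or.inl rfl, fun k => hcS _, fun k h1 => hun1 k (hinj h1),
        fun k h1 => hun2 k (hinj h1), fun k => by rw [uu_three], hcS', hTT, fun k => hcS _,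
        fun k => ?_, fun k h1 => ?_, fun k h1 => ?_, fun k => ?_, hnl.1, hnl.2⟩
      · obtain ⟨p, q, hpq, hA⟩ := ex_pair (hHk k).cardA
        refine ⟨p, q, of_harm h (hHk k) hpq hA, fun i => ?_⟩
        have h1 : i ∈ f (yy x θ0 k) ↔ i ∈ ({p, q} : Set (Fin 6)) := by rw [hA]
        have h2 : i ∈ f (yy x θ0 k) ↔ i ∈ Sᶜ \ {col (uu s (r t0) k)} := by rw [hfk]
        exact h1.symm.trans h2
      · have h2 : T (yy x θ0 k) \ f (yy x θ0 k) ⊆ T (yy x θ0 (k + 1)) := by
          rintro i ⟨hi, -⟩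
          rw [hTT] at hi ⊢
          rwa [h1] at hi
        have h3 := hup _ _ (Or.inr (dist_yy x θ0 k)) (Or.inr (dist_yy x θ0 (k + 1)))
          (Vale.Agent.P032.S5.H783.dist_yy_succ x θ0 k) (h4k k) (h4k (k + 1)) h2
        have h5 : c k ∈ T (yy x θ0 k) \ f (yy x θ0 k) := by
          refine ⟨(hTT k _).2 (Or.inr rfl), ?_⟩
          rw [hfk]
          exact fun h6 => h6.1 (hcS' k)
        rw [h3, hfk] at h5
        exact h5.1 (hcS' k)
      · have h2 := hinj h1
        rw [uu_succ] at h2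
        exact f1 _ _ hs0 h2
      · show col (uu s (r t0) (k + 6)) = col (uu s (r t0) k)
        rw [show k + 6 = k + 3 + 3 from rfl, uu_three, uu_three]
    rcases hx with hx | hx
    · subst hx
      exact hHex.real h b.three
    · obtain ⟨e, c', he, heS, hc'S, hDc, hTx⟩ := b.virt hx
      refine hHex.virt h b.three b.sub heS (a := c') (fun k hk' => ?_) (fun k hk' => ?_)
      · have h2 : T (yy x θ0 k) \ f (yy x θ0 k) ⊆ T x := by
          rintro i ⟨hi, hi'⟩
          rw [hfk] at hi'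
          rw [hTx]
          rcases (hTT k i).1 hi with h3 | h3
          · left
            by_contra h5
            exact hi' ⟨h3, fun h6 => h5 ((show i = _ from h6).trans hk')⟩
          · right
            rw [h3]; exact hcS' k
        have h3 := hup _ _ (Or.inr (dist_yy x θ0 k)) (Or.inl rfl) (dist_yy x θ0 k) (h4k k)
          hx.card.ge h2
        have h5 : c k ∈ T (yy x θ0 k) \ f (yy x θ0 k) := by
          refine ⟨(hTT k _).2 (Or.inr rfl), ?_⟩
          rw [hfk]
          exact fun h6 => h6.1 (hcS' k)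
        rw [h3, hDc] at h5
        rcases h5 with h6 | h6
        · exact absurd (h6 ▸ hcS' k) heS
        · exact h6
      · have h1 : ∀ θ ∈ Ico θa θ0, c' ∈ T (yy x θ k) := by
          intro θ hθ
          refine hx.h1 _ (dist_yy x θ k) ?_ (by rw [hDc]; exact Or.inr rfl)
          rw [hTx]
          intro i hi
          by_cases hiS : i ∈ S
          · exact Or.inr hiS
          · left
            exact ((hFD.pure k θ hθ i hiS).1 hi).trans hk'
        have hcl : IsClosed {θ | c' ∈ T (yy x θ k)} :=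
          (h.closed c').preimage (Vale.Agent.P032.S5.H783.continuous_yy x k)
        have h2 := hcl.closure_subset_iff.2 h1
        rw [closure_Ico hlta.ne] at h2
        have h3 : c' ∈ T (yy x θ0 k) := h2 ⟨hlta.le, le_rfl⟩
        rcases (hTT k c').1 h3 with h5 | h5
        · exact absurd hc'S h5
        · exact h5.symm
  · -- two labels
    have hHx : (Hxs T S (yy x θ0) fun k => col (uu s m (k + 2))) ∨
        Hxs T S (yy x θ0) fun k => col (uu s m (k + 1)) := by
      rcases hFQ.two hm0 hi0 hu with h1 | h1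
      · left
        refine ⟨fun k => hcS _, fun k h2 => hun1 (k + 2) (hinj h2),
          fun k h2 => hun2 (k + 2) (hinj h2), fun k i hi => ?_⟩
        obtain ⟨l, rfl⟩ := (hcol i).1 hi
        rw [hya]
        exact (h1 k l).trans (not_congr (hcol' _ _).symm)
      · right
        refine ⟨fun k => hcS _, fun k h2 => hun1 (k + 1) (hinj h2),
          fun k h2 => hun2 (k + 1) (hinj h2), fun k i hi => ?_⟩
        obtain ⟨l, rfl⟩ := (hcol i).1 hi
        rw [hya]
        exact (h1 k l).trans (not_congr (hcol' _ _).symm)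
    rcases hx with hx | hx
    · subst hx
      exact real_local h b.three hFD hHx fun k => (hZ' k).imp id fun ⟨p, q, hpq, _⟩ => ⟨p, q, hpq⟩
    · obtain ⟨e, c', he, heS, hc'S, hDc, hTx⟩ := b.virt hx
      have hne : c' ≠ e := fun h1 => heS (h1 ▸ hc'S)
      have hfx : f x = {c', e} := by rw [hDc, Set.pair_comm]
      exact virt_local h (of_harm h hx hne hfx) b.three b.sub hc'S heS hfx hFD hHx hZ' hup

end Vale.Agent.P032.H175
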