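import Vale.Agent.P032.S5.H783.Frozen2
import Vale.Agent.P032.S5.H483.IrrZ

/-!
# P032: frozen circles, irredundant palettes, part 1

Harmless points with four colours, the half plane lemmas, the final contradiction for a
three-coloured centre.
-/

open Set Filter Topology Metric

noncomputable section

namespace Vale.Agent.P032.H175

open Vale.Agent.P032.Six
open Vale.Agent.P032.S5.H783 (cis_add cis_zero circ_param pt pt_zero continuous_pt dist_pt_a
  dist_pt_y dist_pt_y_le dist_pt_v dist_pt_b core yy dist_yy yy_succ yy_rel dist_yy_succ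
  yy_not_line ip dist_sq_ip ip_sum ip_sq_sum ip_one ip_half ip_half' ip_smul dist_move
  dist_move_sq three_cover yy_shift continuous_yy dist_yy_add dist_sq_lt dist_sq_gt)

variable {U : Fin 6 → Set ℂ} {T : ℂ → Set (Fin 6)}

/-- a harmless point: four colours, the pair `p, q` is the only pair on its circle -/
structure Harm (T : ℂ → Set (Fin 6)) (y : ℂ) (p q : Fin 6) : Prop where
  card : (T y).ncard = 4
  ne : p ≠ q
  hp : p ∈ T y
  hq : q ∈ T y
  H1 : ∀ w, dist w y = 1 → T w ⊆ T y → p ∈ T w ∧ q ∈ T w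
  H2 : ∀ᶠ w in 𝓝 y, p ∈ T w → q ∈ T w → 4 ≤ (T w).ncard

theorem Harm.symm {y : ℂ} {p q : Fin 6} (h : Harm T y p q) : Harm T y q p :=
  ⟨h.card, h.ne.symm, h.hq, h.hp, fun w h1 h2 => (h.H1 w h1 h2).symm,
    h.H2.mono fun w hw h1 h2 => hw h2 h1⟩

/-- no point of `S(u)` has its palette inside `T u` and inside `T p` -/
def Rel (T : ℂ → Set (Fin 6)) (u p : ℂ) : Prop :=
  ∀ w, dist w u = 1 → T w ⊆ T p → ¬ T w ⊆ T u

theorem rel_of_three (h : Irr U T) {u : ℂ} (h3 : (T u).ncard ≤ 3) (p : ℂ) : Rel T u p :=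
  fun _ hw _ hs => h.not_sub hw h3 hs

theorem rel_of_harm {u p : ℂ} {a b : Fin 6} (hH : Harm T u a b) (hp : ¬ (a ∈ T p ∧ b ∈ T p)) :
    Rel T u p := fun w hw h1 h2 => hp ⟨h1 (hH.H1 w hw h2).1, h1 (hH.H1 w hw h2).2⟩

theorem Rel.arc (h : Irr U T) {u p : ℂ} {t : Fin 6} (hr : Rel T u p) (ht : T p ⊆ insert t (T u)) :
    ∀ᶠ q in 𝓝[sphere u 1] p, t ∈ T q := by
  filter_upwards [mem_nhdsWithin_of_mem_nhds (h.nhd p), self_mem_nhdsWithin] with q h1 h2
  by_contra hcon
  refine hr q h2 h1 fun m hm => ?_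
  rcases ht (h1 hm) with h3 | h3
  · exact absurd (h3 ▸ hm) hcon
  · exact h3

/-- Lemma X for relatively full points -/
theorem Rel.line (h : Irr U T) {u p v : ℂ} {t : Fin 6} (hr : Rel T u p) (hup : dist p u = 1)
    (ht : T p ⊆ insert t (T u)) (hv : dist p v = 1) (htv : t ∈ Pal U v) :
    v = u ∨ v + u = 2 * p :=
  h.mx.partner_line hup ((hr.arc h ht).mono fun q hq => h.sub q hq) hv htv

/-- **case A**: if the colour `c'` lives near `y` inside `cl D(b)` then the colour `t` lives near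
`v` outside `D(y)` -/
theorem fzA (h : Irr U T) {v y a b : ℂ} {c c' t : Fin 6} (h1 : dist v a = 1) (h2 : dist y a = 1)
    (h3 : dist y v = 1) (hb : b = v + y - a) (hpal : T y ⊆ {c, c', t})
    (hca : c ∈ Pal U a) (hc' : ∀ᶠ p in 𝓝 y, c' ∈ Pal U p → dist p b ≤ 1) :
    ∀ᶠ g in 𝓝 v, t ∈ Pal U g → 1 ≤ dist g y := by
  obtain ⟨κ, hκ, hv⟩ := circ_param h1 h2 h3
  obtain ⟨r, hr, hrp⟩ := Metric.eventually_nhds_iff.1 (hc'.and (h.nhd y))
  set η := min (r / 2) 1 with hη
  have hη0 : 0 < η := lt_min (by linarith) one_pos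
  have hηr : η < r := (min_le_left _ _).trans_lt (by linarith)
  have hη1 : η ≤ 1 := min_le_right _ _
  have hpi := Real.pi_gt_three
  -- outward points
  have hout : ∀ δ, -η ≤ δ → δ < 0 → 1 < dist (pt a y κ δ) v := by
    intro δ hδ1 hδ2
    have e1 := dist_pt_v h2 hκ hv δ
    have e2 : Real.cos (δ - Real.pi / 3) < 1 / 2 := by
      rw [← Real.cos_pi_div_three, ← Real.cos_neg (δ - Real.pi / 3)]
      apply Real.cos_lt_cos_of_nonneg_of_le_pi
      · positivity
      · linarith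
      · linarith
    have e3 := dist_nonneg (x := pt a y κ δ) (y := v)
    nlinarith
  have hev1 : ∀ᶠ g in 𝓝 v, 1 < dist (pt a y κ (-η)) g :=
    (continuous_const.dist continuous_id).continuousAt.eventually
      (Ioi_mem_nhds (hout (-η) le_rfl (by linarith)))
  have hev2 : ∀ᶠ g in 𝓝 v, dist g v < 1 / 4 := Metric.ball_mem_nhds v (by norm_num)
  have hev := hev1.and hev2
  rw [← eventually_eventually_nhds] at hev
  filter_upwards [hev] with g0 hg0 ht0
  by_contra hcon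
  push Not at hcon
  -- move `g0` into `U t`
  have hev3 : ∀ᶠ g in 𝓝 g0, dist g y < 1 :=
    (continuous_id.dist continuous_const).continuousAt.eventually (Iio_mem_nhds hcon)
  obtain ⟨g, ⟨⟨hg1, hg2⟩, hg3⟩, hgU⟩ := mem_closure_iff_nhds.1 ht0 _ (hg0.and hev3)
  -- intermediate value
  have hcont : ContinuousOn (fun δ => dist (pt a y κ δ) g) (Icc (-η) 0) :=
    ((continuous_pt a y κ).dist continuous_const).continuousOn
  have hmem : (1 : ℝ) ∈ Icc (dist (pt a y κ 0) g) (dist (pt a y κ (-η)) g) := by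
    rw [pt_zero, dist_comm]
    exact ⟨hg3.le, hg1.le⟩
  obtain ⟨δ, ⟨hδ1, hδ2⟩, hδ⟩ := intermediate_value_Icc' (by linarith) hcont hmem
  have hδ : dist (pt a y κ δ) g = 1 := hδ
  have hδ3 : δ < 0 := by
    rcases hδ2.lt_or_eq with h4 | h4
    · exact h4
    · rw [h4, pt_zero, dist_comm] at hδ; linarith
  set p := pt a y κ δ with hp
  have hpa : dist p a = 1 := dist_pt_a h2 κ δ
  have hpv : 1 < dist p v := hout δ hδ1 hδ3
  have hpb : 1 < dist p b := by
    have e1 := dist_pt_b h1 h2 h3 hpa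
    rw [← hb] at e1
    have e2 := dist_nonneg (x := p) (y := b)
    have e3 := sq_nonneg (dist p y)
    nlinarith
  have hpy : dist p y < r := by
    refine (dist_pt_y_le h2 hκ δ).trans_lt ?_
    rw [abs_of_neg hδ3]; linarith
  have hga : g ≠ a := by
    rintro rfl
    rw [dist_comm] at hg2
    linarith
  have hga2 : g + a ≠ 2 * p := by
    intro h5
    have h6 : g - a = 2 * (p - a) := by linear_combination h5
    have h7 : dist g a = 2 := by
      rw [dist_eq_norm, h6, norm_mul, ← dist_eq_norm, hpa]; simp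
    have h8 := dist_triangle g v a
    linarith
  have hO : {q | 1 < dist q b} ∩ {q | dist q y < r} ∈ 𝓝 p :=
    inter_mem ((continuous_id.dist continuous_const).continuousAt.eventually (Ioi_mem_nhds hpb))
      ((continuous_id.dist continuous_const).continuousAt.eventually (Iio_mem_nhds hpy))
  obtain ⟨q, ⟨hq1, hq2⟩, hq3, hq4⟩ := core h.mx hgU hca hδ hpa hga hga2 hO
  obtain ⟨hq5, hq6⟩ := hrp hq2
  obtain ⟨i, hi'⟩ := h.ne q
  have hi := h.sub q hi'
  rcases hpal (hq6 hi') with rfl | rfl | rfl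
  · exact hq3 hi
  · have := hq5 hi
    have hq1 : 1 < dist q b := hq1
    linarith
  · exact hq4 hi

/-- **case B**: if the colour `c'` lives near `y` outside `D(b)` then the colour `t` lives near
`v` inside `cl D(y)` -/
theorem fzB (h : Irr U T) {v y a b : ℂ} {c c' t : Fin 6} (h1 : dist v a = 1) (h2 : dist y a = 1)
    (h3 : dist y v = 1) (hb : b = v + y - a) (hpal : T y ⊆ {c, c', t})
    (hca : c ∈ Pal U a) (hc' : ∀ᶠ p in 𝓝 y, c' ∈ Pal U p → 1 ≤ dist p b) :
    ∀ᶠ g in 𝓝 v, t ∈ Pal U g → dist g y ≤ 1 := by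
  obtain ⟨κ, hκ, hv⟩ := circ_param h1 h2 h3
  obtain ⟨r, hr, hrp⟩ := Metric.eventually_nhds_iff.1 (hc'.and (h.nhd y))
  set η := min (r / 2) 1 with hη
  have hη0 : 0 < η := lt_min (by linarith) one_pos
  have hηr : η < r := (min_le_left _ _).trans_lt (by linarith)
  have hη1 : η ≤ 1 := min_le_right _ _
  have hpi := Real.pi_gt_three
  -- inward points
  have hin : ∀ δ, 0 < δ → δ ≤ η → dist (pt a y κ δ) v < 1 := by
    intro δ hδ1 hδ2
    have e1 := dist_pt_v h2 hκ hv δ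
    have e2 : 1 / 2 < Real.cos (δ - Real.pi / 3) := by
      rw [← Real.cos_pi_div_three, ← Real.cos_neg (δ - Real.pi / 3)]
      apply Real.cos_lt_cos_of_nonneg_of_le_pi
      · linarith
      · linarith
      · linarith
    have e3 := dist_nonneg (x := pt a y κ δ) (y := v)
    nlinarith
  have hinb : ∀ δ, 0 < δ → δ ≤ η → dist (pt a y κ δ) b < 1 := by
    intro δ hδ1 hδ2
    have e1 := dist_pt_v h2 hκ hv δ
    have e2 := dist_pt_y h2 hκ δ
    have e3 := dist_pt_b h1 h2 h3 (dist_pt_a h2 κ δ)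
    rw [← hb] at e3
    -- `cos δ + cos (δ - π/3) > 3/2`
    have e4 : 3 / 2 < Real.cos δ + Real.cos (δ - Real.pi / 3) := by
      have e5 : Real.cos δ + Real.cos (δ - Real.pi / 3) =
          2 * Real.cos (δ - Real.pi / 6) * Real.cos (Real.pi / 6) := by
        have e6 : Real.cos δ = Real.cos (δ - Real.pi / 6) * Real.cos (Real.pi / 6) -
            Real.sin (δ - Real.pi / 6) * Real.sin (Real.pi / 6) := by
          rw [← Real.cos_add]; congr 1; ring
        have e7 : Real.cos (δ - Real.pi / 3) =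
            Real.cos (δ - Real.pi / 6) * Real.cos (Real.pi / 6) +
            Real.sin (δ - Real.pi / 6) * Real.sin (Real.pi / 6) := by
          rw [← Real.cos_sub]; congr 1; ring
        rw [e6, e7]; ring
      have e8 : Real.cos (Real.pi / 6) < Real.cos (δ - Real.pi / 6) := by
        rw [← Real.cos_abs (δ - Real.pi / 6)]
        apply Real.cos_lt_cos_of_nonneg_of_le_pi (abs_nonneg _) (by linarith)
        rw [abs_lt]; constructor <;> linarith
      rw [e5]
      rw [Real.cos_pi_div_six] at *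
      have hs : Real.sqrt 3 ^ 2 = 3 := Real.sq_sqrt (by norm_num)
      have hs0 : 0 < Real.sqrt 3 := Real.sqrt_pos.2 (by norm_num)
      nlinarith
    have e9 := dist_nonneg (x := pt a y κ δ) (y := b)
    nlinarith
  have hev1 : ∀ᶠ g in 𝓝 v, dist (pt a y κ η) g < 1 :=
    (continuous_const.dist continuous_id).continuousAt.eventually
      (Iio_mem_nhds (hin η hη0 le_rfl))
  have hev2 : ∀ᶠ g in 𝓝 v, dist g v < 1 / 4 := Metric.ball_mem_nhds v (by norm_num)
  have hev := hev1.and hev2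
  rw [← eventually_eventually_nhds] at hev
  filter_upwards [hev] with g0 hg0 ht0
  by_contra hcon
  push Not at hcon
  have hev3 : ∀ᶠ g in 𝓝 g0, 1 < dist g y :=
    (continuous_id.dist continuous_const).continuousAt.eventually (Ioi_mem_nhds hcon)
  obtain ⟨g, ⟨⟨hg1, hg2⟩, hg3⟩, hgU⟩ := mem_closure_iff_nhds.1 ht0 _ (hg0.and hev3)
  have hcont : ContinuousOn (fun δ => dist (pt a y κ δ) g) (Icc 0 η) :=
    ((continuous_pt a y κ).dist continuous_const).continuousOn
  have hmem : (1 : ℝ) ∈ Icc (dist (pt a y κ η) g) (dist (pt a y κ 0) g) := by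
    rw [pt_zero, dist_comm y g]
    exact ⟨hg1.le, hg3.le⟩
  obtain ⟨δ, ⟨hδ1, hδ2⟩, hδ⟩ := intermediate_value_Icc' hη0.le hcont hmem
  have hδ : dist (pt a y κ δ) g = 1 := hδ
  have hδ3 : 0 < δ := by
    rcases hδ1.lt_or_eq with h4 | h4
    · exact h4
    · rw [← h4, pt_zero, dist_comm] at hδ; linarith
  set p := pt a y κ δ with hp
  have hpa : dist p a = 1 := dist_pt_a h2 κ δ
  have hpb : dist p b < 1 := hinb δ hδ3 hδ2
  have hpy : dist p y < r := by
    refine (dist_pt_y_le h2 hκ δ).trans_lt ?_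
    rw [abs_of_pos hδ3]; linarith
  have hga : g ≠ a := by
    rintro rfl
    rw [dist_comm] at hg2
    linarith
  have hga2 : g + a ≠ 2 * p := by
    intro h5
    have h6 : g - a = 2 * (p - a) := by linear_combination h5
    have h7 : dist g a = 2 := by
      rw [dist_eq_norm, h6, norm_mul, ← dist_eq_norm, hpa]; simp
    have h8 := dist_triangle g v a
    linarith
  have hO : {q | dist q b < 1} ∩ {q | dist q y < r} ∈ 𝓝 p :=
    inter_mem ((continuous_id.dist continuous_const).continuousAt.eventually (Iio_mem_nhds hpb))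
      ((continuous_id.dist continuous_const).continuousAt.eventually (Iio_mem_nhds hpy))
  obtain ⟨q, ⟨hq1, hq2⟩, hq3, hq4⟩ := core h.mx hgU hca hδ hpa hga hga2 hO
  obtain ⟨hq5, hq6⟩ := hrp hq2
  obtain ⟨i, hi'⟩ := h.ne q
  have hi := h.sub q hi'
  rcases hpal (hq6 hi') with rfl | rfl | rfl
  · exact hq3 hi
  · have := hq5 hi
    have hq1 : dist q b < 1 := hq1
    linarith
  · exact hq4 hi

/-- final contradiction, case A -/
theorem finA (h : Irr U T) {v : ℂ} (h3 : (T v).ncard = 3) (θ : ℝ)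
    (t : ℕ → Fin 6) (ht : ∀ k, t k ∈ T v) (hne : ∀ k, t k ≠ t (k + 1))
    (hA : ∀ k, ∀ᶠ g in 𝓝 v, t k ∈ T g → 1 ≤ dist g (yy v θ k)) : False := by
  by_cases halt : t 0 = t 2 ∧ t 2 = t 4
  · obtain ⟨h02, h24⟩ := halt
    have hev : ∀ᶠ g in 𝓝 v, (t 0 ∈ T g → 1 ≤ dist g (yy v θ 0)) ∧
        (t 2 ∈ T g → 1 ≤ dist g (yy v θ 2)) ∧ (t 4 ∈ T g → 1 ≤ dist g (yy v θ 4)) ∧
        dist g v < 1 / 2 :=
      (hA 0).and ((hA 2).and ((hA 4).and (Metric.ball_mem_nhds v (by norm_num))))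
    obtain ⟨g, hgT, g0, g2, g4, g5⟩ := ((h.pure v _ (ht 0)).and_eventually hev).exists
    have hgm : t 0 ∈ T g := by rw [hgT]; exact rfl
    have hg0 := g0 hgm
    have hg2 := g2 (h02 ▸ hgm)
    have hg4 := g4 (h24 ▸ h02 ▸ hgm)
    have hgv : g ≠ v := by
      rintro rfl
      rw [hgT, Set.ncard_singleton] at h3
      omega
    have hr : 0 < dist g v := dist_pos.2 hgv
    have e0 := dist_sq_ip g v (yy v θ 0) (dist_yy v θ 0)
    have e2 := dist_sq_ip g v (yy v θ 2) (dist_yy v θ 2)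
    have e4 := dist_sq_ip g v (yy v θ 4) (dist_yy v θ 4)
    have es := ip_sum v g θ 0
    have eq := ip_sq_sum v g θ 0
    simp only [Nat.zero_add] at es eq
    set a0 := ip (g - v) (yy v θ 0 - v)
    set a2 := ip (g - v) (yy v θ 2 - v)
    set a4 := ip (g - v) (yy v θ 4 - v)
    set r := dist g v
    have b0 : a0 ≤ r ^ 2 / 2 := by nlinarith
    have b2 : a2 ≤ r ^ 2 / 2 := by nlinarith
    have b4 : a4 ≤ r ^ 2 / 2 := by nlinarith
    have c0 : -(r ^ 2) ≤ a0 := by linarith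
    have c2 : -(r ^ 2) ≤ a2 := by linarith
    have c4 : -(r ^ 2) ≤ a4 := by linarith
    have hr2 : 0 < r ^ 2 := by positivity
    have d0 : a0 ^ 2 ≤ (r ^ 2) ^ 2 := sq_le_sq' c0 (by linarith)
    have d2 : a2 ^ 2 ≤ (r ^ 2) ^ 2 := sq_le_sq' c2 (by linarith)
    have d4 : a4 ^ 2 ≤ (r ^ 2) ^ 2 := sq_le_sq' c4 (by linarith)
    have hr3 : r ^ 2 < 1 / 4 := by nlinarith
    nlinarith
  · -- three consecutive different colours
    have hk : ∃ k, t k ≠ t (k + 2) := by
      by_contra hcon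
      push Not at hcon
      exact halt ⟨hcon 0, hcon 2⟩
    obtain ⟨k, hk⟩ := hk
    have hev : ∀ᶠ g in 𝓝 v, (t k ∈ T g → 1 ≤ dist g (yy v θ k)) ∧
        (t (k + 1) ∈ T g → 1 ≤ dist g (yy v θ (k + 1))) ∧
        (t (k + 2) ∈ T g → 1 ≤ dist g (yy v θ (k + 2))) ∧ T g ⊆ T v :=
      (hA k).and ((hA (k + 1)).and ((hA (k + 2)).and (h.nhd v)))
    obtain ⟨ρ, hρ, hball⟩ := Metric.eventually_nhds_iff.1 hev
    set r := min (ρ / 2) (1 / 2) with hr
    have hr0 : 0 < r := lt_min (by linarith) (by norm_num)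
    have hr1 : r < ρ := (min_le_left _ _).trans_lt (by linarith)
    have hr2 : r ≤ 1 / 2 := min_le_right _ _
    set g := v + (r : ℂ) * (yy v θ (k + 1) - v) with hg
    obtain ⟨g0, g1, g2, g3⟩ := hball (y := g) (by rw [hg, dist_move, abs_of_pos hr0]; exact hr1)
    obtain ⟨i, hi⟩ := h.ne g
    have q0 := dist_move_sq v θ k r k
    have q1 := dist_move_sq v θ k r (k + 1)
    have q2 := dist_move_sq v θ k r (k + 2)
    rw [ip_half] at q0
    rw [ip_one] at q1
    rw [ip_half'] at q2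
    rw [← hg] at q0 q1 q2
    have p0 := dist_nonneg (x := g) (y := yy v θ k)
    have p1 := dist_nonneg (x := g) (y := yy v θ (k + 1))
    have p2 := dist_nonneg (x := g) (y := yy v θ (k + 2))
    rcases three_cover h3 (ht k) (ht (k + 1)) (ht (k + 2)) (hne k) (hne (k + 1)) hk (g3 hi)
      with rfl | rfl | rfl
    · have := g0 hi; nlinarith
    · have := g1 hi; nlinarith
    · have := g2 hi; nlinarith

/-- final contradiction, case B -/
theorem finB (h : Irr U T) {v : ℂ} (h3 : (T v).ncard = 3) (θ : ℝ)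
    (t : ℕ → Fin 6) (ht : ∀ k, t k ∈ T v) (hne : ∀ k, t k ≠ t (k + 1))
    (hB : ∀ k, ∀ᶠ g in 𝓝 v, t k ∈ T g → dist g (yy v θ k) ≤ 1) : False := by
  by_cases halt : t 0 = t 2 ∧ t 2 = t 4
  · obtain ⟨h02, h24⟩ := halt
    have hev : ∀ᶠ g in 𝓝 v, (t 0 ∈ T g → dist g (yy v θ 0) ≤ 1) ∧
        (t 2 ∈ T g → dist g (yy v θ 2) ≤ 1) ∧ (t 4 ∈ T g → dist g (yy v θ 4) ≤ 1) :=
      (hB 0).and ((hB 2).and (hB 4))
    obtain ⟨g, hgT, g0, g2, g4⟩ := ((h.pure v _ (ht 0)).and_eventually hev).exists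
    have hgm : t 0 ∈ T g := by rw [hgT]; exact rfl
    have hg0 := g0 hgm
    have hg2 := g2 (h02 ▸ hgm)
    have hg4 := g4 (h24 ▸ h02 ▸ hgm)
    have hgv : g ≠ v := by
      rintro rfl
      rw [hgT, Set.ncard_singleton] at h3
      omega
    have hr : 0 < dist g v := dist_pos.2 hgv
    have e0 := dist_sq_ip g v (yy v θ 0) (dist_yy v θ 0)
    have e2 := dist_sq_ip g v (yy v θ 2) (dist_yy v θ 2)
    have e4 := dist_sq_ip g v (yy v θ 4) (dist_yy v θ 4)
    have es := ip_sum v g θ 0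
    simp only [Nat.zero_add] at es
    have p0 := dist_nonneg (x := g) (y := yy v θ 0)
    have p2 := dist_nonneg (x := g) (y := yy v θ 2)
    have p4 := dist_nonneg (x := g) (y := yy v θ 4)
    have hr2 : 0 < dist g v ^ 2 := by positivity
    have b0 : dist g (yy v θ 0) ^ 2 ≤ 1 := by nlinarith
    have b2 : dist g (yy v θ 2) ^ 2 ≤ 1 := by nlinarith
    have b4 : dist g (yy v θ 4) ^ 2 ≤ 1 := by nlinarith
    linarith
  · have hk : ∃ k, t k ≠ t (k + 2) := by
      by_contra hcon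
      push Not at hcon
      exact halt ⟨hcon 0, hcon 2⟩
    obtain ⟨k, hk⟩ := hk
    have hev : ∀ᶠ g in 𝓝 v, (t k ∈ T g → dist g (yy v θ k) ≤ 1) ∧
        (t (k + 1) ∈ T g → dist g (yy v θ (k + 1)) ≤ 1) ∧
        (t (k + 2) ∈ T g → dist g (yy v θ (k + 2)) ≤ 1) ∧ T g ⊆ T v :=
      (hB k).and ((hB (k + 1)).and ((hB (k + 2)).and (h.nhd v)))
    obtain ⟨ρ, hρ, hball⟩ := Metric.eventually_nhds_iff.1 hev
    set r := ρ / 2 with hr
    have hr0 : 0 < r := by positivity
    have hr1 : r < ρ := by linarith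
    set g := v + ((-r : ℝ) : ℂ) * (yy v θ (k + 1) - v) with hg
    obtain ⟨g0, g1, g2, g3⟩ := hball (y := g) (by
      rw [hg, dist_move, abs_neg, abs_of_pos hr0]; exact hr1)
    obtain ⟨i, hi⟩ := h.ne g
    have q0 := dist_move_sq v θ k (-r) k
    have q1 := dist_move_sq v θ k (-r) (k + 1)
    have q2 := dist_move_sq v θ k (-r) (k + 2)
    rw [ip_half] at q0
    rw [ip_one] at q1
    rw [ip_half'] at q2
    rw [← hg] at q0 q1 q2
    have p0 := dist_nonneg (x := g) (y := yy v θ k)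
    have p1 := dist_nonneg (x := g) (y := yy v θ (k + 1))
    have p2 := dist_nonneg (x := g) (y := yy v θ (k + 2))
    rcases three_cover h3 (ht k) (ht (k + 1)) (ht (k + 2)) (hne k) (hne (k + 1)) hk (g3 hi)
      with rfl | rfl | rfl
    · have := g0 hi; nlinarith
    · have := g1 hi; nlinarith
    · have := g2 hi; nlinarith


/-- a half arc of `S(a)` outside `cl D(b)` at a harmless point `y` -/
theorem halfA (h : Irr U T) {v y a b : ℂ} {c c' p q : Fin 6} (h1 : dist v a = 1)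
    (h2 : dist y a = 1) (h3 : dist y v = 1) (hb : b = v + y - a) (hTa : (T a).ncard ≤ 3)
    (hca : c ∈ T a) (hH : Harm T y p q) (hTy : T y ⊆ {c, c', p, q})
    (hc' : ∀ᶠ w in 𝓝 y, c' ∈ Pal U w → dist w b ≤ 1) :
    ∃ s, (s = p ∨ s = q) ∧ ∀ᶠ g in 𝓝 v, s ∈ Pal U g → 1 ≤ dist g y := by
  obtain ⟨κ, hκ, hv⟩ := circ_param h1 h2 h3
  obtain ⟨r, hr, hrp⟩ := Metric.eventually_nhds_iff.1 (hc'.and ((h.nhd y).and hH.H2))
  set η := min (r / 2) 1 with hη
  have hη0 : 0 < η := lt_min (by linarith) one_pos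
  have hηr : η < r := (min_le_left _ _).trans_lt (by linarith)
  have hη1 : η ≤ 1 := min_le_right _ _
  have hpi := Real.pi_gt_three
  -- outward points
  have hout : ∀ δ, -η ≤ δ → δ < 0 → 1 < dist (pt a y κ δ) v := by
    intro δ hδ1 hδ2
    have e1 := dist_pt_v h2 hκ hv δ
    have e2 : Real.cos (δ - Real.pi / 3) < 1 / 2 := by
      rw [← Real.cos_pi_div_three, ← Real.cos_neg (δ - Real.pi / 3)]
      apply Real.cos_lt_cos_of_nonneg_of_le_pi
      · positivity
      · linarith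
      · linarith
    have e3 := dist_nonneg (x := pt a y κ δ) (y := v)
    nlinarith
  -- exactly one of `p, q` on the half arc
  have hone : ∀ δ, -η ≤ δ → δ < 0 → (p ∈ T (pt a y κ δ) ∨ q ∈ T (pt a y κ δ)) ∧
      ¬ (p ∈ T (pt a y κ δ) ∧ q ∈ T (pt a y κ δ)) := by
    intro δ hδ1 hδ2
    set w := pt a y κ δ with hw
    have hwa : dist w a = 1 := dist_pt_a h2 κ δ
    have hwb : 1 < dist w b := by
      have e1 := dist_pt_b h1 h2 h3 hwa
      rw [← hb] at e1
      have e0 := hout δ hδ1 hδ2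
      have e2 := dist_nonneg (x := w) (y := b)
      have e3 := sq_nonneg (dist w y)
      nlinarith
    have hwy : dist w y < r := by
      refine (dist_pt_y_le h2 hκ δ).trans_lt ?_
      rw [abs_of_neg hδ2]; linarith
    obtain ⟨k1, k2, k3⟩ := hrp hwy
    have hc'w : c' ∉ T w := fun h5 => by
      have := k1 (h.sub w h5)
      linarith
    have hsub : T w ⊆ {c, p, q} := by
      intro m hm
      rcases hTy (k2 hm) with h5 | h5 | h5 | h5
      · exact Or.inl h5
      · exact absurd (h5 ▸ hm) hc'w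
      · exact Or.inr (Or.inl h5)
      · exact Or.inr (Or.inr h5)
    constructor
    · obtain ⟨m, hm, hma⟩ := h.not_sub' hwa hTa
      rcases hsub hm with h5 | h5 | h5
      · exact absurd (h5 ▸ hca) hma
      · exact Or.inl (h5 ▸ hm)
      · exact Or.inr (h5 ▸ hm)
    · rintro ⟨h5, h6⟩
      have h7 := k3 h5 h6
      have h8 := Set.ncard_le_ncard hsub (Set.toFinite _)
      have h9 : ({c, p, q} : Set (Fin 6)).ncard ≤ 3 := Set.ncard_insert_le _ _ |>.trans (by
        have := Set.ncard_insert_le p {q}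
        rw [Set.ncard_singleton] at this
        omega)
      omega
  -- connectedness
  have hcl : ∀ i, IsClosed {δ : ℝ | i ∈ T (pt a y κ δ)} := fun i =>
    (h.closed i).preimage (continuous_pt a y κ)
  have hs : ∃ s, (s = p ∨ s = q) ∧ ∀ δ, -η ≤ δ → δ < 0 → s ∈ T (pt a y κ δ) := by
    by_contra hcon
    push Not at hcon
    obtain ⟨δ1, a1, a2, a3⟩ := hcon p (Or.inl rfl)
    obtain ⟨δ2, b1, b2, b3⟩ := hcon q (Or.inr rfl)
    have hpre : IsPreconnected (Ico (-η) (0 : ℝ)) := isPreconnected_Ico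
    rw [isPreconnected_closed_iff] at hpre
    obtain ⟨δ, hδ, hδ1, hδ2⟩ := hpre {δ : ℝ | p ∈ T (pt a y κ δ)} {δ : ℝ | q ∈ T (pt a y κ δ)}
      (hcl p) (hcl q) (fun δ hδ => (hone δ hδ.1 hδ.2).1)
      ⟨δ2, ⟨b1, b2⟩, ((hone δ2 b1 b2).1.resolve_right b3)⟩
      ⟨δ1, ⟨a1, a2⟩, ((hone δ1 a1 a2).1.resolve_left a3)⟩
    exact (hone δ hδ.1 hδ.2).2 ⟨hδ1, hδ2⟩
  obtain ⟨s, hs1, hs2⟩ := hs
  refine ⟨s, hs1, ?_⟩
  have hev1 : ∀ᶠ g in 𝓝 v, 1 < dist (pt a y κ (-η)) g :=
    (continuous_const.dist continuous_id).continuousAt.eventually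
      (Ioi_mem_nhds (hout (-η) le_rfl (by linarith)))
  filter_upwards [hev1] with g hg hsg
  by_contra hcon
  push Not at hcon
  refine h.mx.wlemma (Q := pt a y κ '' Icc (-η) 0)
    (isPreconnected_Icc.image _ (continuous_pt a y κ).continuousOn) ?_
    (a := y) (b := pt a y κ (-η)) ⟨0, ⟨by linarith, le_rfl⟩, pt_zero a y κ⟩
    ⟨-η, ⟨le_rfl, by linarith⟩, rfl⟩ (by rw [dist_comm]; exact hcon) hg hsg
  rintro _ ⟨δ, ⟨hδ1, hδ2⟩, rfl⟩
  rcases hδ2.lt_or_eq with h5 | h5
  · exact h.sub _ (hs2 δ hδ1 h5)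
  · rw [h5, pt_zero]
    rcases hs1 with rfl | rfl
    · exact h.sub _ hH.hp
    · exact h.sub _ hH.hq

/-- a half arc of `S(a)` inside `D(b)` at a harmless point `y` -/
theorem halfB (h : Irr U T) {v y a b : ℂ} {c c' p q : Fin 6} (h1 : dist v a = 1)
    (h2 : dist y a = 1) (h3 : dist y v = 1) (hb : b = v + y - a) (hTa : (T a).ncard ≤ 3)
    (hca : c ∈ T a) (hH : Harm T y p q) (hTy : T y ⊆ {c, c', p, q})
    (hc' : ∀ᶠ w in 𝓝 y, c' ∈ Pal U w → 1 ≤ dist w b) :
    ∃ s, (s = p ∨ s = q) ∧ ∀ᶠ g in 𝓝 v, s ∈ Pal U g → dist g y ≤ 1 := by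
  obtain ⟨κ, hκ, hv⟩ := circ_param h1 h2 h3
  obtain ⟨r, hr, hrp⟩ := Metric.eventually_nhds_iff.1 (hc'.and ((h.nhd y).and hH.H2))
  set η := min (r / 2) 1 with hη
  have hη0 : 0 < η := lt_min (by linarith) one_pos
  have hηr : η < r := (min_le_left _ _).trans_lt (by linarith)
  have hη1 : η ≤ 1 := min_le_right _ _
  have hpi := Real.pi_gt_three
  -- inward points
  have hin : ∀ δ, 0 < δ → δ ≤ η → dist (pt a y κ δ) v < 1 := by
    intro δ hδ1 hδ2
    have e1 := dist_pt_v h2 hκ hv δ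
    have e2 : 1 / 2 < Real.cos (δ - Real.pi / 3) := by
      rw [← Real.cos_pi_div_three, ← Real.cos_neg (δ - Real.pi / 3)]
      apply Real.cos_lt_cos_of_nonneg_of_le_pi
      · linarith
      · linarith
      · linarith
    have e3 := dist_nonneg (x := pt a y κ δ) (y := v)
    nlinarith
  have hinb : ∀ δ, 0 < δ → δ ≤ η → dist (pt a y κ δ) b < 1 := by
    intro δ hδ1 hδ2
    have e1 := dist_pt_v h2 hκ hv δ
    have e2 := dist_pt_y h2 hκ δ
    have e3 := dist_pt_b h1 h2 h3 (dist_pt_a h2 κ δ)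
    rw [← hb] at e3
    have e4 : 3 / 2 < Real.cos δ + Real.cos (δ - Real.pi / 3) := by
      have e5 : Real.cos δ + Real.cos (δ - Real.pi / 3) =
          2 * Real.cos (δ - Real.pi / 6) * Real.cos (Real.pi / 6) := by
        have e6 : Real.cos δ = Real.cos (δ - Real.pi / 6) * Real.cos (Real.pi / 6) -
            Real.sin (δ - Real.pi / 6) * Real.sin (Real.pi / 6) := by
          rw [← Real.cos_add]; congr 1; ring
        have e7 : Real.cos (δ - Real.pi / 3) =
            Real.cos (δ - Real.pi / 6) * Real.cos (Real.pi / 6) +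
            Real.sin (δ - Real.pi / 6) * Real.sin (Real.pi / 6) := by
          rw [← Real.cos_sub]; congr 1; ring
        rw [e6, e7]; ring
      have e8 : Real.cos (Real.pi / 6) < Real.cos (δ - Real.pi / 6) := by
        rw [← Real.cos_abs (δ - Real.pi / 6)]
        apply Real.cos_lt_cos_of_nonneg_of_le_pi (abs_nonneg _) (by linarith)
        rw [abs_lt]; constructor <;> linarith
      rw [e5]
      rw [Real.cos_pi_div_six] at *
      have hs : Real.sqrt 3 ^ 2 = 3 := Real.sq_sqrt (by norm_num)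
      have hs0 : 0 < Real.sqrt 3 := Real.sqrt_pos.2 (by norm_num)
      nlinarith
    have e9 := dist_nonneg (x := pt a y κ δ) (y := b)
    nlinarith
  have hone : ∀ δ, 0 < δ → δ ≤ η → (p ∈ T (pt a y κ δ) ∨ q ∈ T (pt a y κ δ)) ∧
      ¬ (p ∈ T (pt a y κ δ) ∧ q ∈ T (pt a y κ δ)) := by
    intro δ hδ1 hδ2
    set w := pt a y κ δ with hw
    have hwa : dist w a = 1 := dist_pt_a h2 κ δ
    have hwb : dist w b < 1 := hinb δ hδ1 hδ2
    have hwy : dist w y < r := by
      refine (dist_pt_y_le h2 hκ δ).trans_lt ?_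
      rw [abs_of_pos hδ1]; linarith
    obtain ⟨k1, k2, k3⟩ := hrp hwy
    have hc'w : c' ∉ T w := fun h5 => by
      have := k1 (h.sub w h5)
      linarith
    have hsub : T w ⊆ {c, p, q} := by
      intro m hm
      rcases hTy (k2 hm) with h5 | h5 | h5 | h5
      · exact Or.inl h5
      · exact absurd (h5 ▸ hm) hc'w
      · exact Or.inr (Or.inl h5)
      · exact Or.inr (Or.inr h5)
    constructor
    · obtain ⟨m, hm, hma⟩ := h.not_sub' hwa hTa
      rcases hsub hm with h5 | h5 | h5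
      · exact absurd (h5 ▸ hca) hma
      · exact Or.inl (h5 ▸ hm)
      · exact Or.inr (h5 ▸ hm)
    · rintro ⟨h5, h6⟩
      have h7 := k3 h5 h6
      have h8 := Set.ncard_le_ncard hsub (Set.toFinite _)
      have h9 : ({c, p, q} : Set (Fin 6)).ncard ≤ 3 := Set.ncard_insert_le _ _ |>.trans (by
        have := Set.ncard_insert_le p {q}
        rw [Set.ncard_singleton] at this
        omega)
      omega
  have hcl : ∀ i, IsClosed {δ : ℝ | i ∈ T (pt a y κ δ)} := fun i =>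
    (h.closed i).preimage (continuous_pt a y κ)
  have hs : ∃ s, (s = p ∨ s = q) ∧ ∀ δ, 0 < δ → δ ≤ η → s ∈ T (pt a y κ δ) := by
    by_contra hcon
    push Not at hcon
    obtain ⟨δ1, a1, a2, a3⟩ := hcon p (Or.inl rfl)
    obtain ⟨δ2, b1, b2, b3⟩ := hcon q (Or.inr rfl)
    have hpre : IsPreconnected (Ioc (0 : ℝ) η) := isPreconnected_Ioc
    rw [isPreconnected_closed_iff] at hpre
    obtain ⟨δ, hδ, hδ1, hδ2⟩ := hpre {δ : ℝ | p ∈ T (pt a y κ δ)} {δ : ℝ | q ∈ T (pt a y κ δ)}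
      (hcl p) (hcl q) (fun δ hδ => (hone δ hδ.1 hδ.2).1)
      ⟨δ2, ⟨b1, b2⟩, ((hone δ2 b1 b2).1.resolve_right b3)⟩
      ⟨δ1, ⟨a1, a2⟩, ((hone δ1 a1 a2).1.resolve_left a3)⟩
    exact (hone δ hδ.1 hδ.2).2 ⟨hδ1, hδ2⟩
  obtain ⟨s, hs1, hs2⟩ := hs
  refine ⟨s, hs1, ?_⟩
  have hev1 : ∀ᶠ g in 𝓝 v, dist (pt a y κ η) g < 1 :=
    (continuous_const.dist continuous_id).continuousAt.eventually
      (Iio_mem_nhds (hin η hη0 le_rfl))
  filter_upwards [hev1] with g hg hsg
  by_contra hcon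
  push Not at hcon
  refine h.mx.wlemma (Q := pt a y κ '' Icc 0 η)
    (isPreconnected_Icc.image _ (continuous_pt a y κ).continuousOn) ?_
    (a := pt a y κ η) (b := y) ⟨η, ⟨hη0.le, le_rfl⟩, rfl⟩ ⟨0, ⟨le_rfl, hη0.le⟩, pt_zero a y κ⟩
    hg (by rw [dist_comm]; exact hcon) hsg
  rintro _ ⟨δ, ⟨hδ1, hδ2⟩, rfl⟩
  rcases hδ1.lt_or_eq with h5 | h5
  · exact h.sub _ (hs2 δ h5 hδ2)
  · rw [← h5, pt_zero]
    rcases hs1 with rfl | rfl
    · exact h.sub _ hH.hp
    · exact h.sub _ hH.hq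

end Vale.Agent.P032.H175
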