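import Vale.Agent.P032.S5.H175.FrozenM

/-!
# P032: frozen circles with unit pairs of harmless points, final step for a three-coloured centre
-/

open Set Filter Topology Metric

noncomputable section

namespace Vale.Agent.P032.H175

open Vale.Agent.P032.Six
open Vale.Agent.P032.S5.H783 (circ_param pt pt_zero continuous_pt dist_pt_a dist_pt_y
  dist_pt_y_le dist_pt_v dist_pt_b cis_add cis_zero norm_cis_sub_le yy dist_yy yy_succ yy_rel
  dist_yy_succ yy_not_line three_cover yy_shift continuous_yy dist_yy_add dist_sq_lt dist_sq_gt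
  dist_cis_sub ip dist_sq_ip ip_sum ip_sq_sum)
open Vale.Agent.P032.H180 (Frz om)

variable {U : Fin 6 → Set ℂ} {T : ℂ → Set (Fin 6)}

/-- a half arc of `S(a)` outside `cl D(b)` at a harmless point `y` -/
theorem halfA' (h : Irr U T) {v y a b : ℂ} {c c' p q : Fin 6} (h1 : dist v a = 1)
    (h2 : dist y a = 1) (h3 : dist y v = 1) (hb : b = v + y - a) (hTa : ∀ w, dist w a = 1 → ¬ T w ⊆ {c})
    (hH : Harm T y p q) (hTy : T y ⊆ {c, c', p, q})
    (hc' : ∀ᶠ w in 𝓝 y, c' ∈ Pal U w → dist w b ≤ 1) :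
    ∃ s, (s = p ∨ s = q) ∧ ∀ᶠ g in 𝓝 v, s ∈ Pal U g → 1 ≤ dist g y := by
  obtain ⟨κ, hκ, hv⟩ := circ_param h1 h2 h3
  obtain ⟨r, hr, hrp⟩ := Metric.eventually_nhds_iff.1 (hc'.and ((h.nhd y).and hH.H2))
  set η := min (r / 2) 1 with hη
  have hη0 : 0 < η := lt_min (by linarith) one_pos
  have hηr : η < r := (min_le_left _ _).trans_lt (by linarith)
  have hη1 : η ≤ 1 := min_le_right _ _
  have hpi := Real.pi_gt_three
  -- outward points
  have hout : ∀ δ, -η ≤ δ → δ < 0 → 1 < dist (pt a y κ δ) v := by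
    intro δ hδ1 hδ2
    have e1 := dist_pt_v h2 hκ hv δ
    have e2 : Real.cos (δ - Real.pi / 3) < 1 / 2 := by
      rw [← Real.cos_pi_div_three, ← Real.cos_neg (δ - Real.pi / 3)]
      apply Real.cos_lt_cos_of_nonneg_of_le_pi
      · positivity
      · linarith
      · linarith
    have e3 := dist_nonneg (x := pt a y κ δ) (y := v)
    nlinarith
  -- exactly one of `p, q` on the half arc
  have hone : ∀ δ, -η ≤ δ → δ < 0 → (p ∈ T (pt a y κ δ) ∨ q ∈ T (pt a y κ δ)) ∧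
      ¬ (p ∈ T (pt a y κ δ) ∧ q ∈ T (pt a y κ δ)) := by
    intro δ hδ1 hδ2
    set w := pt a y κ δ with hw
    have hwa : dist w a = 1 := dist_pt_a h2 κ δ
    have hwb : 1 < dist w b := by
      have e1 := dist_pt_b h1 h2 h3 hwa
      rw [← hb] at e1
      have e0 := hout δ hδ1 hδ2
      have e2 := dist_nonneg (x := w) (y := b)
      have e3 := sq_nonneg (dist w y)
      nlinarith
    have hwy : dist w y < r := by
      refine (dist_pt_y_le h2 hκ δ).trans_lt ?_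
      rw [abs_of_neg hδ2]; linarith
    obtain ⟨k1, k2, k3⟩ := hrp hwy
    have hc'w : c' ∉ T w := fun h5 => by
      have := k1 (h.sub w h5)
      linarith
    have hsub : T w ⊆ {c, p, q} := by
      intro m hm
      rcases hTy (k2 hm) with h5 | h5 | h5 | h5
      · exact Or.inl h5
      · exact absurd (h5 ▸ hm) hc'w
      · exact Or.inr (Or.inl h5)
      · exact Or.inr (Or.inr h5)
    constructor
    · by_contra hcon
      push Not at hcon
      refine hTa w hwa fun m hm => ?_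
      rcases hsub hm with h5 | h5 | h5
      · exact h5
      · exact absurd (h5 ▸ hm) hcon.1
      · exact absurd (h5 ▸ hm) hcon.2
    · rintro ⟨h5, h6⟩
      have h7 := k3 h5 h6
      have h8 := Set.ncard_le_ncard hsub (Set.toFinite _)
      have h9 : ({c, p, q} : Set (Fin 6)).ncard ≤ 3 := Set.ncard_insert_le _ _ |>.trans (by
        have := Set.ncard_insert_le p {q}
        rw [Set.ncard_singleton] at this
        omega)
      omega
  -- connectedness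
  have hcl : ∀ i, IsClosed {δ : ℝ | i ∈ T (pt a y κ δ)} := fun i =>
    (h.closed i).preimage (continuous_pt a y κ)
  have hs : ∃ s, (s = p ∨ s = q) ∧ ∀ δ, -η ≤ δ → δ < 0 → s ∈ T (pt a y κ δ) := by
    by_contra hcon
    push Not at hcon
    obtain ⟨δ1, a1, a2, a3⟩ := hcon p (Or.inl rfl)
    obtain ⟨δ2, b1, b2, b3⟩ := hcon q (Or.inr rfl)
    have hpre : IsPreconnected (Ico (-η) (0 : ℝ)) := isPreconnected_Ico
    rw [isPreconnected_closed_iff] at hpre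
    obtain ⟨δ, hδ, hδ1, hδ2⟩ := hpre {δ : ℝ | p ∈ T (pt a y κ δ)} {δ : ℝ | q ∈ T (pt a y κ δ)}
      (hcl p) (hcl q) (fun δ hδ => (hone δ hδ.1 hδ.2).1)
      ⟨δ2, ⟨b1, b2⟩, ((hone δ2 b1 b2).1.resolve_right b3)⟩
      ⟨δ1, ⟨a1, a2⟩, ((hone δ1 a1 a2).1.resolve_left a3)⟩
    exact (hone δ hδ.1 hδ.2).2 ⟨hδ1, hδ2⟩
  obtain ⟨s, hs1, hs2⟩ := hs
  refine ⟨s, hs1, ?_⟩
  have hev1 : ∀ᶠ g in 𝓝 v, 1 < dist (pt a y κ (-η)) g :=
    (continuous_const.dist continuous_id).continuousAt.eventually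
      (Ioi_mem_nhds (hout (-η) le_rfl (by linarith)))
  filter_upwards [hev1] with g hg hsg
  by_contra hcon
  push Not at hcon
  refine h.mx.wlemma (Q := pt a y κ '' Icc (-η) 0)
    (isPreconnected_Icc.image _ (continuous_pt a y κ).continuousOn) ?_
    (a := y) (b := pt a y κ (-η)) ⟨0, ⟨by linarith, le_rfl⟩, pt_zero a y κ⟩
    ⟨-η, ⟨le_rfl, by linarith⟩, rfl⟩ (by rw [dist_comm]; exact hcon) hg hsg
  rintro _ ⟨δ, ⟨hδ1, hδ2⟩, rfl⟩
  rcases hδ2.lt_or_eq with h5 | h5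
  · exact h.sub _ (hs2 δ hδ1 h5)
  · rw [h5, pt_zero]
    rcases hs1 with rfl | rfl
    · exact h.sub _ hH.hp
    · exact h.sub _ hH.hq

/-- a half arc of `S(a)` inside `D(b)` at a harmless point `y` -/
theorem halfB' (h : Irr U T) {v y a b : ℂ} {c c' p q : Fin 6} (h1 : dist v a = 1)
    (h2 : dist y a = 1) (h3 : dist y v = 1) (hb : b = v + y - a) (hTa : ∀ w, dist w a = 1 → ¬ T w ⊆ {c})
    (hH : Harm T y p q) (hTy : T y ⊆ {c, c', p, q})
    (hc' : ∀ᶠ w in 𝓝 y, c' ∈ Pal U w → 1 ≤ dist w b) :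
    ∃ s, (s = p ∨ s = q) ∧ ∀ᶠ g in 𝓝 v, s ∈ Pal U g → dist g y ≤ 1 := by
  obtain ⟨κ, hκ, hv⟩ := circ_param h1 h2 h3
  obtain ⟨r, hr, hrp⟩ := Metric.eventually_nhds_iff.1 (hc'.and ((h.nhd y).and hH.H2))
  set η := min (r / 2) 1 with hη
  have hη0 : 0 < η := lt_min (by linarith) one_pos
  have hηr : η < r := (min_le_left _ _).trans_lt (by linarith)
  have hη1 : η ≤ 1 := min_le_right _ _
  have hpi := Real.pi_gt_three
  -- inward points
  have hin : ∀ δ, 0 < δ → δ ≤ η → dist (pt a y κ δ) v < 1 := by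
    intro δ hδ1 hδ2
    have e1 := dist_pt_v h2 hκ hv δ
    have e2 : 1 / 2 < Real.cos (δ - Real.pi / 3) := by
      rw [← Real.cos_pi_div_three, ← Real.cos_neg (δ - Real.pi / 3)]
      apply Real.cos_lt_cos_of_nonneg_of_le_pi
      · linarith
      · linarith
      · linarith
    have e3 := dist_nonneg (x := pt a y κ δ) (y := v)
    nlinarith
  have hinb : ∀ δ, 0 < δ → δ ≤ η → dist (pt a y κ δ) b < 1 := by
    intro δ hδ1 hδ2
    have e1 := dist_pt_v h2 hκ hv δ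
    have e2 := dist_pt_y h2 hκ δ
    have e3 := dist_pt_b h1 h2 h3 (dist_pt_a h2 κ δ)
    rw [← hb] at e3
    have e4 : 3 / 2 < Real.cos δ + Real.cos (δ - Real.pi / 3) := by
      have e5 : Real.cos δ + Real.cos (δ - Real.pi / 3) =
          2 * Real.cos (δ - Real.pi / 6) * Real.cos (Real.pi / 6) := by
        have e6 : Real.cos δ = Real.cos (δ - Real.pi / 6) * Real.cos (Real.pi / 6) -
            Real.sin (δ - Real.pi / 6) * Real.sin (Real.pi / 6) := by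
          rw [← Real.cos_add]; congr 1; ring
        have e7 : Real.cos (δ - Real.pi / 3) =
            Real.cos (δ - Real.pi / 6) * Real.cos (Real.pi / 6) +
            Real.sin (δ - Real.pi / 6) * Real.sin (Real.pi / 6) := by
          rw [← Real.cos_sub]; congr 1; ring
        rw [e6, e7]; ring
      have e8 : Real.cos (Real.pi / 6) < Real.cos (δ - Real.pi / 6) := by
        rw [← Real.cos_abs (δ - Real.pi / 6)]
        apply Real.cos_lt_cos_of_nonneg_of_le_pi (abs_nonneg _) (by linarith)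
        rw [abs_lt]; constructor <;> linarith
      rw [e5]
      rw [Real.cos_pi_div_six] at *
      have hs : Real.sqrt 3 ^ 2 = 3 := Real.sq_sqrt (by norm_num)
      have hs0 : 0 < Real.sqrt 3 := Real.sqrt_pos.2 (by norm_num)
      nlinarith
    have e9 := dist_nonneg (x := pt a y κ δ) (y := b)
    nlinarith
  have hone : ∀ δ, 0 < δ → δ ≤ η → (p ∈ T (pt a y κ δ) ∨ q ∈ T (pt a y κ δ)) ∧
      ¬ (p ∈ T (pt a y κ δ) ∧ q ∈ T (pt a y κ δ)) := by
    intro δ hδ1 hδ2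
    set w := pt a y κ δ with hw
    have hwa : dist w a = 1 := dist_pt_a h2 κ δ
    have hwb : dist w b < 1 := hinb δ hδ1 hδ2
    have hwy : dist w y < r := by
      refine (dist_pt_y_le h2 hκ δ).trans_lt ?_
      rw [abs_of_pos hδ1]; linarith
    obtain ⟨k1, k2, k3⟩ := hrp hwy
    have hc'w : c' ∉ T w := fun h5 => by
      have := k1 (h.sub w h5)
      linarith
    have hsub : T w ⊆ {c, p, q} := by
      intro m hm
      rcases hTy (k2 hm) with h5 | h5 | h5 | h5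
      · exact Or.inl h5
      · exact absurd (h5 ▸ hm) hc'w
      · exact Or.inr (Or.inl h5)
      · exact Or.inr (Or.inr h5)
    constructor
    · by_contra hcon
      push Not at hcon
      refine hTa w hwa fun m hm => ?_
      rcases hsub hm with h5 | h5 | h5
      · exact h5
      · exact absurd (h5 ▸ hm) hcon.1
      · exact absurd (h5 ▸ hm) hcon.2
    · rintro ⟨h5, h6⟩
      have h7 := k3 h5 h6
      have h8 := Set.ncard_le_ncard hsub (Set.toFinite _)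
      have h9 : ({c, p, q} : Set (Fin 6)).ncard ≤ 3 := Set.ncard_insert_le _ _ |>.trans (by
        have := Set.ncard_insert_le p {q}
        rw [Set.ncard_singleton] at this
        omega)
      omega
  have hcl : ∀ i, IsClosed {δ : ℝ | i ∈ T (pt a y κ δ)} := fun i =>
    (h.closed i).preimage (continuous_pt a y κ)
  have hs : ∃ s, (s = p ∨ s = q) ∧ ∀ δ, 0 < δ → δ ≤ η → s ∈ T (pt a y κ δ) := by
    by_contra hcon
    push Not at hcon
    obtain ⟨δ1, a1, a2, a3⟩ := hcon p (Or.inl rfl)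
    obtain ⟨δ2, b1, b2, b3⟩ := hcon q (Or.inr rfl)
    have hpre : IsPreconnected (Ioc (0 : ℝ) η) := isPreconnected_Ioc
    rw [isPreconnected_closed_iff] at hpre
    obtain ⟨δ, hδ, hδ1, hδ2⟩ := hpre {δ : ℝ | p ∈ T (pt a y κ δ)} {δ : ℝ | q ∈ T (pt a y κ δ)}
      (hcl p) (hcl q) (fun δ hδ => (hone δ hδ.1 hδ.2).1)
      ⟨δ2, ⟨b1, b2⟩, ((hone δ2 b1 b2).1.resolve_right b3)⟩
      ⟨δ1, ⟨a1, a2⟩, ((hone δ1 a1 a2).1.resolve_left a3)⟩
    exact (hone δ hδ.1 hδ.2).2 ⟨hδ1, hδ2⟩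
  obtain ⟨s, hs1, hs2⟩ := hs
  refine ⟨s, hs1, ?_⟩
  have hev1 : ∀ᶠ g in 𝓝 v, dist (pt a y κ η) g < 1 :=
    (continuous_const.dist continuous_id).continuousAt.eventually
      (Iio_mem_nhds (hin η hη0 le_rfl))
  filter_upwards [hev1] with g hg hsg
  by_contra hcon
  push Not at hcon
  refine h.mx.wlemma (Q := pt a y κ '' Icc 0 η)
    (isPreconnected_Icc.image _ (continuous_pt a y κ).continuousOn) ?_
    (a := pt a y κ η) (b := y) ⟨η, ⟨hη0.le, le_rfl⟩, rfl⟩ ⟨0, ⟨le_rfl, hη0.le⟩, pt_zero a y κ⟩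
    hg (by rw [dist_comm]; exact hcon) hsg
  rintro _ ⟨δ, ⟨hδ1, hδ2⟩, rfl⟩
  rcases hδ1.lt_or_eq with h5 | h5
  · exact h.sub _ (hs2 δ h5 hδ2)
  · rw [← h5, pt_zero]
    rcases hs1 with rfl | rfl
    · exact h.sub _ hH.hp
    · exact h.sub _ hH.hq

variable {v : ℂ} {θ : ℝ} {A : Set (Fin 6)} {m : ℕ → Fin 6}

/-- adjacency -/
theorem Hxs.adj' (h : Irr U T) (hA3 : A.ncard = 3) (hs : Hxs T A (yy v θ) m)
    (hg : ∀ k, Good T A (yy v θ k))
    {k : ℕ} (hnb : (T (yy v θ (k + 2))).ncard ≤ 3 ∨ (T (yy v θ (k + 3))).ncard ≤ 3) {s : Fin 6}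
    (hsA : s ∈ A) (h1 : s ∈ T (yy v θ (k + 2))) (h2 : s ∈ T (yy v θ (k + 3))) : False := by
  have hrel : ∀ i j, Good T A (yy v θ i) → (∀ p q, p ∈ A → q ∈ A → p ∈ T (yy v θ j) →
      q ∈ T (yy v θ j) → p = q) → Rel T (yy v θ i) (yy v θ j) := by
    rintro i j (h3 | ⟨p, q, hH, hp, hq⟩) hu
    · exact rel_of_three h h3 _
    · refine rel_of_harm hH fun h4 => ?_
      exact hH.ne (hu p q hp hq h4.1 h4.2)
  by_cases h3 : (T (yy v θ (k + 3))).ncard ≤ 3
  · have hr := hrel (k + 2) (k + 3) (hg _) fun p q hp hq h5 h6 => hs.uniq hA3 h3 hp h5 hq h6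
    have hsub : T (yy v θ (k + 3)) ⊆ insert (m (k + 2)) (T (yy v θ (k + 2))) := by
      intro i hi
      by_cases hiA : i ∈ A
      · right
        rw [hs.uniq hA3 h3 hiA hi hsA h2]; exact h1
      · by_cases him : i = m (k + 2)
        · exact Or.inl him
        · exact Or.inr ((hs.mem (k + 2) i hiA).2 him)
    have h5 := hr.line h (v := yy v θ (k + 4)) (by rw [dist_comm]; exact dist_yy_succ v θ (k + 2))
      hsub (dist_yy_succ v θ (k + 3))
      (h.sub _ ((hs.mem (k + 4) _ (hs.notA _)).2 (hs.ne2 (k + 2))))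
    exact yy_not_line v θ (k + 2) h5
  · have h3' : (T (yy v θ (k + 2))).ncard ≤ 3 := hnb.resolve_right h3
    have hr := hrel (k + 3) (k + 2) (hg _) fun p q hp hq h5 h6 => hs.uniq hA3 h3' hp h5 hq h6
    have hsub : T (yy v θ (k + 2)) ⊆ insert (m (k + 3)) (T (yy v θ (k + 3))) := by
      intro i hi
      by_cases hiA : i ∈ A
      · right
        rw [hs.uniq hA3 h3' hiA hi hsA h1]; exact h2
      · by_cases him : i = m (k + 3)
        · exact Or.inl him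
        · exact Or.inr ((hs.mem (k + 3) i hiA).2 him)
    have h5 := hr.line h (v := yy v θ (k + 1)) (dist_yy_succ v θ (k + 2))
      hsub (by rw [dist_comm]; exact dist_yy_succ v θ (k + 1))
      (h.sub _ ((hs.mem (k + 1) _ (hs.notA _)).2 (hs.ne2 (k + 1)).symm))
    exact not_line' v θ (k + 1) h5

/-- a good point has no circle point with the single colour `c` outside `A` -/
theorem Good.nsub (h : Irr U T) {A : Set (Fin 6)} {a v : ℂ} (hg : Good T A a) (_hav : dist a v = 1)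
    {c : Fin 6} (hc : c ∉ A) (hca : c ∈ T a) : ∀ w, dist w a = 1 → ¬ T w ⊆ {c} := by
  intro w hw hs
  rcases hg with h3 | ⟨p, q, hH, hp, -⟩
  · refine h.not_sub hw h3 fun m hm => ?_
    rw [hs hm]
    exact hca
  · have h5 := (hH.H1 w hw fun m hm => by rw [hs hm]; exact hca).1
    exact hc (hs h5 ▸ hp)

/-- case A: missing colour `c (k + 2)` -/
theorem FD.caseA' (h : Irr U T) (hA3 : A.ncard = 3) {θa θ0 : ℝ} {c : ℕ → Fin 6}
    (hd : FD T v A θa θ0 c) (hs : Hxs T A (yy v θ0) fun k => c (k + 2))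
    (hg : ∀ k, Good T A (yy v θ0 k)) :
    ∃ t : ℕ → Fin 6, (∀ k, t k ∈ A) ∧ (∀ k, t k ∈ T (yy v θ0 (k + 2))) ∧
      ∀ k, ∀ᶠ g in 𝓝 v, t k ∈ Pal U g → 1 ≤ dist g (yy v θ0 (k + 2)) := by
  have hpi := Real.pi_gt_three
  have hex : ∀ k, ∃ t, t ∈ A ∧ t ∈ T (yy v θ0 (k + 2)) ∧
      ∀ᶠ g in 𝓝 v, t ∈ Pal U g → 1 ≤ dist g (yy v θ0 (k + 2)) := by
    intro k
    have hev : ∀ᶠ p in 𝓝 (yy v θ0 (k + 2)), c (k + 3) ∈ Pal U p →
        dist p (yy v θ0 (k + 3)) ≤ 1 := by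
      refine Vale.Agent.P032.S5.H783.arcA h.mx (Q := (fun θ => yy v θ (k + 3)) '' Icc θa θ0)
        (a0 := yy v θa (k + 3))
        (isPreconnected_Icc.image _ (continuous_yy v (k + 3)).continuousOn) ?_
        ⟨θ0, ⟨hd.lt.le, le_rfl⟩, rfl⟩ ⟨θa, ⟨le_rfl, hd.lt.le⟩, rfl⟩ ?_
      · rintro _ ⟨θ, hθm, rfl⟩
        exact h.sub _ (hd.arc (k + 3) hθm)
      · apply dist_sq_lt dist_nonneg
        rw [dist_yy_add]
        have e1 : (θa - θ0) + (((k + 3 : ℕ) : ℝ) - ((k + 2 : ℕ) : ℝ)) * (Real.pi / 3) =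
            Real.pi / 3 - (θ0 - θa) := by push_cast; ring
        rw [e1]
        have e2 : 1 / 2 < Real.cos (Real.pi / 3 - (θ0 - θa)) := by
          have := hd.lt
          have := hd.le
          rw [← Real.cos_pi_div_three]
          apply Real.cos_lt_cos_of_nonneg_of_le_pi <;> linarith
        linarith
    have hca : c (k + 2) ∈ T (yy v θ0 (k + 1)) :=
      (hs.mem (k + 1) _ (hd.notA _)).2 (hd.ne1 (k + 2))
    have d1 : dist v (yy v θ0 (k + 1)) = 1 := by rw [dist_comm]; exact dist_yy v θ0 _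
    have d2 : dist (yy v θ0 (k + 2)) (yy v θ0 (k + 1)) = 1 := by
      rw [dist_comm]; exact dist_yy_succ v θ0 (k + 1)
    have d3 : yy v θ0 (k + 3) = v + yy v θ0 (k + 2) - yy v θ0 (k + 1) := by
      linear_combination yy_rel v θ0 (k + 1)
    have e1 : c (k + 1 + 2) = c (k + 3) := rfl
    rcases hg (k + 2) with h3 | ⟨p, q, hH, hp, hq⟩
    · obtain ⟨t, htA, ht⟩ := hs.ex h hA3 k
      refine ⟨t, htA, ht, ?_⟩
      exact fzA h (a := yy v θ0 (k + 1)) (b := yy v θ0 (k + 3)) (c := c (k + 2))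
        (c' := c (k + 3)) d1 d2 (dist_yy v θ0 _) d3 (hs.three hA3 h3 htA ht).subset
        (h.sub _ hca) hev
    · obtain ⟨s, hs1, hs2⟩ := halfA' h (a := yy v θ0 (k + 1)) (b := yy v θ0 (k + 3))
        (c := c (k + 2)) (c' := c (k + 3)) d1 d2 (dist_yy v θ0 _) d3
        ((hg (k + 1)).nsub h (dist_yy v θ0 _) (hd.notA (k + 2)) hca) hH
        (hs.four hA3 hH hp hq).subset hev
      refine ⟨s, ?_, ?_, hs2⟩
      · rcases hs1 with rfl | rfl
        · exact hp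
        · exact hq
      · rcases hs1 with rfl | rfl
        · exact hH.hp
        · exact hH.hq
  choose t htA hty ht using hex
  exact ⟨t, htA, hty, ht⟩

/-- case B: missing colour `c (k + 1)` -/
theorem FD.caseB' (h : Irr U T) (hA3 : A.ncard = 3) {θa θ0 : ℝ} {c : ℕ → Fin 6}
    (hd : FD T v A θa θ0 c) (hs : Hxs T A (yy v θ0) fun k => c (k + 1))
    (hg : ∀ k, Good T A (yy v θ0 k)) :
    ∃ t : ℕ → Fin 6, (∀ k, t k ∈ A) ∧ (∀ k, t k ∈ T (yy v θ0 (k + 2))) ∧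
      ∀ k, ∀ᶠ g in 𝓝 v, t k ∈ Pal U g → dist g (yy v θ0 (k + 2)) ≤ 1 := by
  have hpi := Real.pi_gt_three
  have hex : ∀ k, ∃ t, t ∈ A ∧ t ∈ T (yy v θ0 (k + 2)) ∧
      ∀ᶠ g in 𝓝 v, t ∈ Pal U g → dist g (yy v θ0 (k + 2)) ≤ 1 := by
    intro k
    have hev : ∀ᶠ p in 𝓝 (yy v θ0 (k + 2)), c (k + 1) ∈ Pal U p →
        1 ≤ dist p (yy v θ0 (k + 1)) := by
      refine Vale.Agent.P032.S5.H783.arcB h.mx (Q := (fun θ => yy v θ (k + 1)) '' Icc θa θ0)
        (a0 := yy v θa (k + 1))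
        (isPreconnected_Icc.image _ (continuous_yy v (k + 1)).continuousOn) ?_
        ⟨θ0, ⟨hd.lt.le, le_rfl⟩, rfl⟩ ⟨θa, ⟨le_rfl, hd.lt.le⟩, rfl⟩ ?_
      · rintro _ ⟨θ, hθm, rfl⟩
        exact h.sub _ (hd.arc (k + 1) hθm)
      · apply dist_sq_gt dist_nonneg
        rw [dist_yy_add]
        have e1 : (θa - θ0) + (((k + 1 : ℕ) : ℝ) - ((k + 2 : ℕ) : ℝ)) * (Real.pi / 3) =
            -(Real.pi / 3 + (θ0 - θa)) := by push_cast; ring
        rw [e1, Real.cos_neg]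
        have e2 : Real.cos (Real.pi / 3 + (θ0 - θa)) < 1 / 2 := by
          have := hd.lt
          have := hd.le
          rw [← Real.cos_pi_div_three]
          apply Real.cos_lt_cos_of_nonneg_of_le_pi <;> linarith
        linarith
    have hca : c (k + 2) ∈ T (yy v θ0 (k + 3)) :=
      (hs.mem (k + 3) _ (hd.notA _)).2 (hd.ne2 (k + 2))
    have d1 : dist v (yy v θ0 (k + 3)) = 1 := by rw [dist_comm]; exact dist_yy v θ0 _
    have d2 : dist (yy v θ0 (k + 2)) (yy v θ0 (k + 3)) = 1 := dist_yy_succ v θ0 (k + 2)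
    have d3 : yy v θ0 (k + 1) = v + yy v θ0 (k + 2) - yy v θ0 (k + 3) := by
      linear_combination yy_rel v θ0 (k + 1)
    rcases hg (k + 2) with h3 | ⟨p, q, hH, hp, hq⟩
    · obtain ⟨t, htA, ht⟩ := hs.ex h hA3 k
      refine ⟨t, htA, ht, ?_⟩
      refine fzB h (a := yy v θ0 (k + 3)) (b := yy v θ0 (k + 1)) (c := c (k + 2))
        (c' := c (k + 1)) d1 d2 (dist_yy v θ0 _) d3 ?_
        (h.sub _ hca) hev
      rw [hs.three hA3 h3 htA ht]
      rintro i (h5 | h5 | h5)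
      · exact Or.inr (Or.inl h5)
      · exact Or.inl h5
      · exact Or.inr (Or.inr h5)
    · obtain ⟨s, hs1, hs2⟩ := halfB' h (a := yy v θ0 (k + 3)) (b := yy v θ0 (k + 1))
        (c := c (k + 2)) (c' := c (k + 1)) d1 d2 (dist_yy v θ0 _) d3
        ((hg (k + 3)).nsub h (dist_yy v θ0 _) (hd.notA (k + 2)) hca) hH (by
            rw [hs.four hA3 hH hp hq]
            rintro i (h5 | h5 | h5 | h5)
            · exact Or.inr (Or.inl h5)
            · exact Or.inl h5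
            · exact Or.inr (Or.inr (Or.inl h5))
            · exact Or.inr (Or.inr (Or.inr h5))) hev
      refine ⟨s, ?_, ?_, hs2⟩
      · rcases hs1 with rfl | rfl
        · exact hp
        · exact hq
      · rcases hs1 with rfl | rfl
        · exact hH.hp
        · exact hH.hq
  choose t htA hty ht using hex
  exact ⟨t, htA, hty, ht⟩

/-- sign form of a comparison of distances -/
theorem sgn_of_sq {ε d : ℝ} (hε : ε = 1 ∨ ε = -1) (hd : 0 ≤ d) (h : ε * (d ^ 2 - 1) < 0) :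
    ε * (d - 1) < 0 := by
  rcases hε with rfl | rfl
  · nlinarith
  · nlinarith

/-- test points on rays -/
theorem ray_sgn {ε : ℝ} (hε : ε = 1 ∨ ε = -1) (v : ℂ) {φ ψ r : ℝ} (hr : 0 < r)
    (hc : r < 2 * Real.cos (φ - ψ)) :
    ε * (dist (v + ((ε * r : ℝ) : ℂ) * cis φ) (v + cis ψ) - 1) < 0 := by
  refine sgn_of_sq hε dist_nonneg ?_
  rw [dist_rc]
  rcases hε with rfl | rfl <;> nlinarith

/-- points of the circle about `v + σ cis a` -/
def cv (v : ℂ) (σ a φ : ℝ) : ℂ := v + (σ : ℂ) * (cis a - cis (a + φ))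

theorem cv_zero (v : ℂ) (σ a : ℝ) : cv v σ a 0 = v := by simp [cv]

theorem dist_cv_v {σ : ℝ} (hσ : σ = 1 ∨ σ = -1) (v : ℂ) (a φ : ℝ) : dist (cv v σ a φ) v ≤ |φ| := by
  rw [dist_eq_norm, cv, add_sub_cancel_left, norm_mul, Complex.norm_real, Real.norm_eq_abs]
  have h1 : |σ| = 1 := by rcases hσ with rfl | rfl <;> simp
  rw [h1, one_mul]
  refine (norm_cis_sub_le _ _).trans (le_of_eq ?_)
  rw [show a - (a + φ) = -φ by ring, abs_neg]

theorem dist_cv_c {σ : ℝ} (hσ : σ = 1 ∨ σ = -1) (v : ℂ) (a φ : ℝ) :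
    dist (cv v σ a φ) (v + (σ : ℂ) * cis a) = 1 := by
  have h1 : |σ| = 1 := by rcases hσ with rfl | rfl <;> simp
  rw [dist_eq_norm, cv, show v + (σ : ℂ) * (cis a - cis (a + φ)) - (v + (σ : ℂ) * cis a) =
    -((σ : ℂ) * cis (a + φ)) by ring, norm_neg, norm_mul, Complex.norm_real, Real.norm_eq_abs, h1,
    norm_cis, one_mul]

theorem dist_cv {σ : ℝ} (hσ : σ = 1 ∨ σ = -1) (v : ℂ) (a φ ψ : ℝ) :
    dist (cv v σ a φ) (v + cis ψ) ^ 2 = 1 + (2 - 2 * Real.cos φ) -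
      2 * σ * (Real.cos (a - ψ) * (1 - Real.cos φ) + Real.sin (a - ψ) * Real.sin φ) := by
  rw [dist_eq_norm, cv, add_sub_add_left_eq_sub, Complex.sq_norm, Complex.normSq_apply]
  simp only [Complex.sub_re, Complex.sub_im, Complex.mul_re, Complex.mul_im, Complex.ofReal_re,
    Complex.ofReal_im, cis, Complex.exp_ofReal_mul_I_re, Complex.exp_ofReal_mul_I_im]
  rw [Real.cos_sub, Real.sin_sub, Real.cos_add, Real.sin_add]
  have h1 := Real.sin_sq_add_cos_sq a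
  have h2 := Real.sin_sq_add_cos_sq ψ
  have h3 := Real.sin_sq_add_cos_sq φ
  have h4 : σ ^ 2 = 1 := by rcases hσ with rfl | rfl <;> norm_num
  set sa := Real.sin a
  set ca := Real.cos a
  set sp := Real.sin ψ
  set cp := Real.cos ψ
  set sf := Real.sin φ
  set cf := Real.cos φ
  linear_combination (1 + (2 - 2 * cf) * 0) * h2 + (sa ^ 2 + ca ^ 2) * ((1 - cf) ^ 2 + sf ^ 2) * h4 +
    ((1 - cf) ^ 2 + sf ^ 2) * h1 + h3

/-- test points on curves -/
theorem cv_sgn {ε σ : ℝ} (hε : ε = 1 ∨ ε = -1) (hσ : σ = 1 ∨ σ = -1) (v : ℂ) {a ψ κ δ : ℝ}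
    (hκ : κ = 1 ∨ κ = -1) (hδ : 0 < δ) (hδ1 : δ ≤ 1)
    (hc : 2 * δ < ε * σ * κ * Real.sin (a - ψ)) :
    ε * (dist (cv v σ a (κ * δ)) (v + cis ψ) - 1) < 0 := by
  refine sgn_of_sq hε dist_nonneg ?_
  rw [dist_cv hσ]
  have h1 : Real.cos (κ * δ) = Real.cos δ := by
    rcases hκ with rfl | rfl
    · rw [one_mul]
    · rw [neg_one_mul, Real.cos_neg]
  have h2 : Real.sin (κ * δ) = κ * Real.sin δ := by
    rcases hκ with rfl | rfl
    · rw [one_mul, one_mul]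
    · rw [neg_one_mul, Real.sin_neg, neg_one_mul]
  rw [h1, h2]
  have h3 : 1 - Real.cos δ ≤ δ ^ 2 / 2 := by
    have := Real.one_sub_sq_div_two_le_cos (x := δ)
    linarith
  have h4 : 0 ≤ 1 - Real.cos δ := by linarith [Real.cos_le_one δ]
  have h5 : δ / 2 ≤ Real.sin δ := by
    have h6 := Real.sin_gt_sub_cube hδ
    have h7 : δ ^ 3 ≤ δ := by nlinarith [sq_nonneg δ]
    linarith
  have h9 : -1 ≤ Real.cos (a - ψ) := Real.neg_one_le_cos _
  have h10 : Real.cos (a - ψ) ≤ 1 := Real.cos_le_one _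
  set C := Real.cos (a - ψ)
  set S := Real.sin (a - ψ)
  set c := Real.cos δ
  set s := Real.sin δ
  have k1 : ε * (1 + (2 - 2 * c) - 2 * σ * (C * (1 - c) + S * (κ * s)) - 1) =
      2 * ε * (1 - c) - 2 * (ε * σ) * C * (1 - c) - 2 * (ε * σ * κ * S) * s := by ring
  rw [k1]
  have k2 : 2 * ε * (1 - c) ≤ 2 * (1 - c) := by
    rcases hε with rfl | rfl <;> nlinarith
  have k3 : -(2 * (ε * σ) * C * (1 - c)) ≤ 2 * (1 - c) := by
    have e : ε * σ = 1 ∨ ε * σ = -1 := by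
      rcases hε with rfl | rfl <;> rcases hσ with rfl | rfl <;> norm_num
    rcases e with e | e <;> rw [e] <;> nlinarith
  have k4 : 2 * δ * (δ / 2) < (ε * σ * κ * S) * s := by
    have : 0 < δ / 2 := by linarith
    calc 2 * δ * (δ / 2) < (ε * σ * κ * S) * (δ / 2) := by nlinarith
      _ ≤ (ε * σ * κ * S) * s := by
        have : 0 ≤ ε * σ * κ * S := by linarith
        nlinarith
  nlinarith

/-- the combinatorial step -/
theorem comb : ∀ r : Fin 6 → Fin 3,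
    (∃ j : Fin 6, r j ≠ r (j + 1) ∧ r (j + 1) ≠ r (j + 2) ∧ r j ≠ r (j + 2)) ∨
    (∃ (j : Fin 6) (x : Fin 3), (x ≠ r j ∧ x ≠ r (j + 1) ∧ x ≠ r (j + 2)) ∧
      (x ≠ r (j + 3) ∧ x ≠ r (j + 4) ∧ x ≠ r (j + 5)) ∧
      ¬ (r j = r (j + 1) ∧ r (j + 1) = r (j + 2)) ∧
      ¬ (r (j + 3) = r (j + 4) ∧ r (j + 4) = r (j + 5))) ∨
    (∃ k : Fin 6, r k = r (k + 1) ∧ r k = r (k + 3) ∧ r k = r (k + 4)) ∨
    ∃ k : Fin 6, r k = r (k + 1) ∧ r (k + 2) = r (k + 3) ∧ r (k + 4) = r (k + 5) ∧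
      r k ≠ r (k + 2) ∧ r (k + 2) ≠ r (k + 4) ∧ r k ≠ r (k + 4) := by
  decide +kernel

/-- the data at the centre -/
structure Fin6 (T : ℂ → Set (Fin 6)) (v : ℂ) (θ ε : ℝ) (s : ℕ → Fin 6) : Prop where
  eps : ε = 1 ∨ ε = -1
  inA : ∀ k, s k ∈ T v
  mem : ∀ k, s k ∈ T (yy v θ k)
  per : ∀ k, s (k + 6) = s k
  half : ∀ k, ∀ᶠ g in 𝓝 v, s k ∈ T g → 0 ≤ ε * (dist g (yy v θ k) - 1)
  four : ∀ k, s k = s (k + 1) → ∀ j, (j = k ∨ j = k + 1) →
    ∃ p q, Harm T (yy v θ j) p q ∧ p ∈ T v ∧ q ∈ T v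

theorem yy_ang (v : ℂ) (θ : ℝ) (k i : ℕ) :
    yy v θ (k + i) = v + cis (θ + k * (Real.pi / 3) + i * (Real.pi / 3)) := by
  rw [yy]; congr 2; push_cast; ring

variable {ε : ℝ} {s : ℕ → Fin 6}

theorem Fin6.ball (h : Irr U T) (hF : Fin6 T v θ ε s) (k : ℕ) :
    ∃ ρ > 0, ∀ g, dist g v < ρ → T g ⊆ T v ∧ ∀ i : ℕ, i < 6 → s (k + i) ∈ T g →
      0 ≤ ε * (dist g (yy v θ (k + i)) - 1) := by
  have h1 : ∀ᶠ g in 𝓝 v, ∀ i ∈ Finset.range 6, s (k + i) ∈ T g →
      0 ≤ ε * (dist g (yy v θ (k + i)) - 1) :=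
    (Filter.eventually_all_finset _).2 fun i _ => hF.half (k + i)
  obtain ⟨ρ, hρ, hb⟩ := Metric.eventually_nhds_iff.1 ((h.nhd v).and h1)
  exact ⟨ρ, hρ, fun g hg => ⟨(hb hg).1, fun i hi => (hb hg).2 i (Finset.mem_range.2 hi)⟩⟩

theorem Fin6.ray (hF : Fin6 T v θ ε s) {k : ℕ} {ρ : ℝ}
    (hb : ∀ g, dist g v < ρ → T g ⊆ T v ∧ ∀ i : ℕ, i < 6 → s (k + i) ∈ T g →
      0 ≤ ε * (dist g (yy v θ (k + i)) - 1)) {r φ : ℝ} (hr : 0 < r) (hrρ : r < ρ) :
    T (v + ((ε * r : ℝ) : ℂ) * cis φ) ⊆ T v ∧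
    ∀ i : ℕ, i < 6 → r < 2 * Real.cos (φ - (θ + k * (Real.pi / 3) + i * (Real.pi / 3))) →
      s (k + i) ∉ T (v + ((ε * r : ℝ) : ℂ) * cis φ) := by
  have h0 : dist (v + ((ε * r : ℝ) : ℂ) * cis φ) v < ρ := by
    rw [dist_rv, abs_mul, abs_of_pos hr]
    have h1 : |ε| = 1 := by rcases hF.eps with h1 | h1 <;> rw [h1] <;> norm_num
    rwa [h1, one_mul]
  obtain ⟨h1, h2⟩ := hb _ h0
  refine ⟨h1, fun i hi hc hcon => ?_⟩
  have h3 := h2 i hi hcon
  rw [yy_ang] at h3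
  exact absurd (ray_sgn hF.eps v hr hc) (not_lt.2 h3)

theorem Fin6.curve (hF : Fin6 T v θ ε s) {k : ℕ} {ρ : ℝ}
    (hb : ∀ g, dist g v < ρ → T g ⊆ T v ∧ ∀ i : ℕ, i < 6 → s (k + i) ∈ T g →
      0 ≤ ε * (dist g (yy v θ (k + i)) - 1)) {σ κ δ : ℝ} (hσ : σ = 1 ∨ σ = -1)
    (hκ : κ = 1 ∨ κ = -1) (hδ : 0 < δ) (hδ1 : δ ≤ 1) (hδρ : δ < ρ) :
    T (cv v σ (θ + k * (Real.pi / 3)) (κ * δ)) ⊆ T v ∧
    ∀ i : ℕ, i < 6 → 2 * δ < -(ε * σ * κ * Real.sin (i * (Real.pi / 3))) →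
      s (k + i) ∉ T (cv v σ (θ + k * (Real.pi / 3)) (κ * δ)) := by
  have h0 : dist (cv v σ (θ + k * (Real.pi / 3)) (κ * δ)) v < ρ := by
    refine (dist_cv_v hσ v _ _).trans_lt ?_
    rw [abs_mul, abs_of_pos hδ]
    have h1 : |κ| = 1 := by rcases hκ with h1 | h1 <;> rw [h1] <;> norm_num
    rwa [h1, one_mul]
  obtain ⟨h1, h2⟩ := hb _ h0
  refine ⟨h1, fun i hi hc hcon => ?_⟩
  have h3 := h2 i hi hcon
  rw [yy_ang] at h3
  refine absurd (cv_sgn hF.eps hσ v (a := θ + k * (Real.pi / 3))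
    (ψ := θ + k * (Real.pi / 3) + i * (Real.pi / 3)) hκ hδ hδ1 ?_) (not_lt.2 h3)
  rw [show θ + k * (Real.pi / 3) - (θ + k * (Real.pi / 3) + i * (Real.pi / 3)) =
    -(i * (Real.pi / 3)) by ring, Real.sin_neg]
  linarith

theorem cos_shift {α η : ℝ} (h1 : 1 / 2 ≤ Real.cos α) (h2 : 0 ≤ η) (h3 : η ≤ 1 / 10) :
    1 / 4 < Real.cos (α + η) := by
  rw [Real.cos_add]
  have e1 := Real.one_sub_sq_div_two_le_cos (x := η)
  have e2 : Real.sin η ≤ η := Real.sin_le h2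
  have e3 : 0 ≤ Real.sin η := Real.sin_nonneg_of_nonneg_of_le_pi h2 (by
    have := Real.pi_gt_three; linarith)
  have e4 := Real.sin_le_one α
  have e5 : 99 / 100 ≤ Real.cos η := by nlinarith
  have e6 : Real.sin α * Real.sin η ≤ 1 / 10 := by nlinarith
  nlinarith

theorem cis_add_pi' (a : ℝ) : cis (a + Real.pi) = -cis a := by
  apply Complex.ext
  · simp only [cis, Complex.neg_re, Complex.exp_ofReal_mul_I_re, Real.cos_add_pi]
  · simp only [cis, Complex.neg_im, Complex.exp_ofReal_mul_I_im, Real.sin_add_pi]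

/-- (A) three consecutive different colours -/
theorem Fin6.tA (h : Irr U T) (h3 : (T v).ncard = 3) (hF : Fin6 T v θ ε s) (k : ℕ)
    (h1 : s k ≠ s (k + 1)) (h2 : s (k + 1) ≠ s (k + 2)) (h4 : s k ≠ s (k + 2)) : False := by
  obtain ⟨ρ, hρ, hb⟩ := hF.ball h k
  set r := min (ρ / 2) (1 / 2) with hr
  have hr0 : 0 < r := lt_min (by linarith) (by norm_num)
  have hr1 : r < ρ := (min_le_left _ _).trans_lt (by linarith)
  have hr2 : r ≤ 1 / 2 := min_le_right _ _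
  obtain ⟨k1, k2⟩ := hF.ray hb (φ := θ + k * (Real.pi / 3) + Real.pi / 3) hr0 hr1
  obtain ⟨i, hi⟩ := h.ne (v + ((ε * r : ℝ) : ℂ) * cis (θ + k * (Real.pi / 3) + Real.pi / 3))
  have c0 := k2 0 (by norm_num) (by
    rw [show θ + k * (Real.pi / 3) + Real.pi / 3 - (θ + k * (Real.pi / 3) +
      ((0 : ℕ) : ℝ) * (Real.pi / 3)) = Real.pi / 3 by push_cast; ring, Real.cos_pi_div_three]
    linarith)
  have c1 := k2 1 (by norm_num) (by
    rw [show θ + k * (Real.pi / 3) + Real.pi / 3 - (θ + k * (Real.pi / 3) +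
      ((1 : ℕ) : ℝ) * (Real.pi / 3)) = 0 by push_cast; ring, Real.cos_zero]
    linarith)
  have c2 := k2 2 (by norm_num) (by
    rw [show θ + k * (Real.pi / 3) + Real.pi / 3 - (θ + k * (Real.pi / 3) +
      ((2 : ℕ) : ℝ) * (Real.pi / 3)) = -(Real.pi / 3) by push_cast; ring, Real.cos_neg,
      Real.cos_pi_div_three]
    linarith)
  rcases three_cover h3 (hF.inA k) (hF.inA (k + 1)) (hF.inA (k + 2)) h1 h2 h4 (k1 hi)
    with h5 | h5 | h5
  · exact c0 (h5 ▸ hi)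
  · exact c1 (h5 ▸ hi)
  · exact c2 (h5 ▸ hi)

/-- one side of (B) -/
theorem Fin6.side (h : Irr U T) (h3 : (T v).ncard = 3) (hF : Fin6 T v θ ε s) (k : ℕ)
    {x : Fin 6} (hx : x ∈ T v) (x0 : x ≠ s k) (x1 : x ≠ s (k + 1)) (x2 : x ≠ s (k + 2))
    (n1 : ¬ (s k = s (k + 1) ∧ s (k + 1) = s (k + 2))) :
    ∃ ρ > 0, ∀ r, 0 < r → r < ρ → ∀ η, 0 ≤ η → η ≤ 1 / 10 →
      x ∈ T (v + ((ε * r : ℝ) : ℂ) * cis (θ + k * (Real.pi / 3) + Real.pi / 3 + η)) := by
  obtain ⟨ρ, hρ, hb⟩ := hF.ball h k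
  refine ⟨min ρ (1 / 2), lt_min hρ (by norm_num), fun r hr0 hr1 η hη0 hη1 => ?_⟩
  have hr2 : r < ρ := hr1.trans_le (min_le_left _ _)
  have hr3 : r < 1 / 2 := hr1.trans_le (min_le_right _ _)
  obtain ⟨k1, k2⟩ := hF.ray hb (φ := θ + k * (Real.pi / 3) + Real.pi / 3 + η) hr0 hr2
  set g := v + ((ε * r : ℝ) : ℂ) * cis (θ + k * (Real.pi / 3) + Real.pi / 3 + η) with hg
  obtain ⟨i, hi⟩ := h.ne g
  have c0 := k2 0 (by norm_num) (by
    rw [show θ + k * (Real.pi / 3) + Real.pi / 3 + η - (θ + k * (Real.pi / 3) +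
      ((0 : ℕ) : ℝ) * (Real.pi / 3)) = Real.pi / 3 + η by push_cast; ring]
    have := cos_shift (α := Real.pi / 3) (by rw [Real.cos_pi_div_three]) hη0 hη1
    linarith)
  have c1 := k2 1 (by norm_num) (by
    rw [show θ + k * (Real.pi / 3) + Real.pi / 3 + η - (θ + k * (Real.pi / 3) +
      ((1 : ℕ) : ℝ) * (Real.pi / 3)) = 0 + η by push_cast; ring]
    have := cos_shift (α := 0) (by rw [Real.cos_zero]; norm_num) hη0 hη1
    linarith)
  have c2 := k2 2 (by norm_num) (by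
    rw [show θ + k * (Real.pi / 3) + Real.pi / 3 + η - (θ + k * (Real.pi / 3) +
      ((2 : ℕ) : ℝ) * (Real.pi / 3)) = -(Real.pi / 3) + η by push_cast; ring]
    have := cos_shift (α := -(Real.pi / 3)) (by
      rw [Real.cos_neg, Real.cos_pi_div_three]) hη0 hη1
    linarith)
  have cover : ∀ i ∈ T v, i = x ∨ i = s k ∨ i = s (k + 1) ∨ i = s (k + 2) := by
    intro i hi
    by_cases e : s k = s (k + 1)
    · have e' : s (k + 1) ≠ s (k + 2) := fun h5 => n1 ⟨e, h5⟩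
      rcases three_cover h3 hx (hF.inA (k + 1)) (hF.inA (k + 2)) x1 e' x2 hi with h5 | h5 | h5
      · exact Or.inl h5
      · exact Or.inr (Or.inr (Or.inl h5))
      · exact Or.inr (Or.inr (Or.inr h5))
    · rcases three_cover h3 hx (hF.inA k) (hF.inA (k + 1)) x0 e x1 hi with h5 | h5 | h5
      · exact Or.inl h5
      · exact Or.inr (Or.inl h5)
      · exact Or.inr (Or.inr (Or.inl h5))
  rcases cover i (k1 hi) with h5 | h5 | h5 | h5
  · exact h5 ▸ hi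
  · exact absurd (h5 ▸ hi) c0
  · exact absurd (h5 ▸ hi) c1
  · exact absurd (h5 ▸ hi) c2

theorem Fin6.XX (h : Irr U T) (hF : Fin6 T v θ ε s) : v ∈ XX U :=
  h.mem_XX (by rw [dist_comm]; exact dist_yy v θ 0) (hF.inA 0) (h.sub _ (hF.mem 0))

/-- (B) a colour which is solid in two opposite directions -/
theorem Fin6.tB (h : Irr U T) (h3 : (T v).ncard = 3) (hF : Fin6 T v θ ε s) (k : ℕ)
    {x : Fin 6} (hx : x ∈ T v) (x0 : x ≠ s k) (x1 : x ≠ s (k + 1)) (x2 : x ≠ s (k + 2))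
    (x3 : x ≠ s (k + 3)) (x4 : x ≠ s (k + 4)) (x5 : x ≠ s (k + 5))
    (n1 : ¬ (s k = s (k + 1) ∧ s (k + 1) = s (k + 2)))
    (n2 : ¬ (s (k + 3) = s (k + 4) ∧ s (k + 4) = s (k + 5))) : False := by
  obtain ⟨ρ1, hρ1, hb1⟩ := hF.side h h3 k hx x0 x1 x2 n1
  obtain ⟨ρ2, hρ2, hb2⟩ := hF.side h h3 (k + 3) hx x3 x4 x5 n2
  obtain ⟨w, hw, hwx⟩ := h.partner_XX (hF.XX h) x
  rw [dist_comm] at hw
  obtain ⟨ψ, hψ⟩ := exists_cis (u := w - v) (by rw [← dist_eq_norm]; exact hw)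
  obtain rfl : w = v + cis ψ := by rw [← hψ]; ring
  set φ0 := θ + k * (Real.pi / 3) + Real.pi / 3 with hφ0
  obtain ⟨η, hη0, hη1, hη⟩ : ∃ η, 0 ≤ η ∧ η ≤ 1 / 10 ∧ Real.cos (φ0 + η - ψ) ≠ 0 := by
    by_cases h0 : Real.cos (φ0 - ψ) = 0
    · refine ⟨1 / 10, by norm_num, le_rfl, ?_⟩
      rw [show φ0 + 1 / 10 - ψ = (φ0 - ψ) + 1 / 10 by ring, Real.cos_add, h0, zero_mul, zero_sub]
      have e1 : 0 < Real.sin (1 / 10) := Real.sin_pos_of_pos_of_lt_pi (by norm_num) (by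
        have := Real.pi_gt_three; linarith)
      have e2 := Real.sin_sq_add_cos_sq (φ0 - ψ)
      rw [h0] at e2
      intro h5
      have h6 : Real.sin (φ0 - ψ) = 0 := by
        rcases mul_eq_zero.1 (neg_eq_zero.1 h5) with h7 | h7
        · exact h7
        · exact absurd h7 e1.ne'
      rw [h6] at e2
      norm_num at e2
    · exact ⟨0, le_rfl, by norm_num, by rwa [add_zero]⟩
  set C := Real.cos (φ0 + η - ψ) with hC
  have hCa : 0 < |C| := abs_pos.2 hη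
  set r := min (min (ρ1 / 2) (ρ2 / 2)) |C| with hr
  have hr0 : 0 < r := lt_min (lt_min (by linarith) (by linarith)) hCa
  have hr1 : r < ρ1 := ((min_le_left _ _).trans (min_le_left _ _)).trans_lt (by linarith)
  have hr2 : r < ρ2 := ((min_le_left _ _).trans (min_le_right _ _)).trans_lt (by linarith)
  have hr3 : r ≤ |C| := min_le_right _ _
  have hseg : ∀ t, -r ≤ t → t ≤ r →
      x ∈ T (v + ((ε * t : ℝ) : ℂ) * cis (φ0 + η)) := by
    intro t ht1 ht2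
    rcases lt_trichotomy t 0 with h5 | h5 | h5
    · have h6 := hb2 (-t) (by linarith) (by linarith) η hη0 hη1
      have e : θ + ((k + 3 : ℕ) : ℝ) * (Real.pi / 3) + Real.pi / 3 + η =
          (φ0 + η) + Real.pi := by rw [hφ0]; push_cast; ring
      have e2 : v + ((ε * -t : ℝ) : ℂ) * cis (θ + ((k + 3 : ℕ) : ℝ) * (Real.pi / 3) +
          Real.pi / 3 + η) = v + ((ε * t : ℝ) : ℂ) * cis (φ0 + η) := by
        rw [e, cis_add_pi']; push_cast; ring
      rwa [e2] at h6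
    · rw [h5]; simpa using hx
    · exact hb1 t h5 (by linarith) η hη0 hη1
  have hcont : Continuous fun t : ℝ => v + ((ε * t : ℝ) : ℂ) * cis (φ0 + η) := by fun_prop
  have hQ : IsPreconnected ((fun t : ℝ => v + ((ε * t : ℝ) : ℂ) * cis (φ0 + η)) '' Icc (-r) r) :=
    isPreconnected_Icc.image _ hcont.continuousOn
  have hQs : (fun t : ℝ => v + ((ε * t : ℝ) : ℂ) * cis (φ0 + η)) '' Icc (-r) r ⊆
      closure (U x) := by
    rintro _ ⟨t, ht, rfl⟩
    exact h.sub _ (hseg t ht.1 ht.2)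
  have m1 : v + ((ε * r : ℝ) : ℂ) * cis (φ0 + η) ∈
      (fun t : ℝ => v + ((ε * t : ℝ) : ℂ) * cis (φ0 + η)) '' Icc (-r) r :=
    ⟨r, ⟨by linarith, le_rfl⟩, rfl⟩
  have m2 : v + ((ε * -r : ℝ) : ℂ) * cis (φ0 + η) ∈
      (fun t : ℝ => v + ((ε * t : ℝ) : ℂ) * cis (φ0 + η)) '' Icc (-r) r :=
    ⟨-r, ⟨le_rfl, by linarith⟩, rfl⟩
  have q1 := dist_rc v (ε * r) (φ0 + η) ψ
  have q2 := dist_rc v (ε * -r) (φ0 + η) ψ
  rw [← hC] at q1 q2
  have hε2 : ε ^ 2 = 1 := by rcases hF.eps with h5 | h5 <;> rw [h5] <;> norm_num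
  have e1 : (ε * r) ^ 2 = r ^ 2 := by rw [mul_pow, hε2, one_mul]
  have e2 : (ε * -r) ^ 2 = r ^ 2 := by rw [mul_pow, hε2, one_mul, neg_sq]
  rw [e1] at q1
  rw [e2] at q2
  have hεC : |ε * C| = |C| := by
    rw [abs_mul]
    rcases hF.eps with h5 | h5 <;> rw [h5] <;> simp
  rw [← hεC] at hr3 hCa
  rcases lt_or_gt_of_ne (abs_pos.1 hCa) with h5 | h5
  · rw [abs_of_neg h5] at hr3
    exact h.mx.wlemma hQ hQs m2 m1 (dist_sq_lt dist_nonneg (by rw [q2]; nlinarith))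
      (dist_sq_gt dist_nonneg (by rw [q1]; nlinarith)) hwx
  · rw [abs_of_pos h5] at hr3
    exact h.mx.wlemma hQ hQs m1 m2 (dist_sq_lt dist_nonneg (by rw [q1]; nlinarith))
      (dist_sq_gt dist_nonneg (by rw [q2]; nlinarith)) hwx

theorem q_pos {d R a : ℝ} (h : 0 ≤ 1 * (d - 1)) (q : d ^ 2 = R ^ 2 + 1 - 2 * a) :
    a ≤ R ^ 2 / 2 := by nlinarith

theorem q_neg {d R a : ℝ} (hd : 0 ≤ d) (h : 0 ≤ -1 * (d - 1)) (q : d ^ 2 = R ^ 2 + 1 - 2 * a) :
    R ^ 2 / 2 ≤ a := by nlinarith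

theorem q_fin {a0 a1 a2 R : ℝ} (hR0 : 0 < R) (hR1 : R < 1 / 2) (b0 : a0 ≤ R ^ 2 / 2)
    (b1 : a1 ≤ R ^ 2 / 2) (b3 : -a0 ≤ R ^ 2 / 2) (b4 : -a1 ≤ R ^ 2 / 2)
    (es : a0 + a2 + -a1 = 0) (eq : a0 ^ 2 + a2 ^ 2 + (-a1) ^ 2 = 3 / 2 * R ^ 2) : False := by
  have c0 : a0 ^ 2 ≤ (R ^ 2 / 2) ^ 2 := sq_le_sq' (by linarith) (by linarith)
  have c1 : a1 ^ 2 ≤ (R ^ 2 / 2) ^ 2 := sq_le_sq' (by linarith) (by linarith)
  have c2 : a2 ^ 2 ≤ (R ^ 2) ^ 2 := sq_le_sq' (by linarith) (by linarith)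
  have hR : R ^ 2 < 1 / 4 := by nlinarith
  have hr2 : 0 < R ^ 2 := by positivity
  have c3 : (-a1) ^ 2 = a1 ^ 2 := by ring
  rw [c3] at eq
  have c4 : (R ^ 2) ^ 2 ≤ 1 / 4 * R ^ 2 := by nlinarith
  nlinarith

/-- (C) two opposite pairs with the same colour -/
theorem Fin6.tC (h : Irr U T) (h3 : (T v).ncard = 3) (hF : Fin6 T v θ ε s) (k : ℕ)
    (e1 : s k = s (k + 1)) (e3 : s k = s (k + 3)) (e4 : s k = s (k + 4)) : False := by
  have hev := (hF.half k).and ((hF.half (k + 1)).and ((hF.half (k + 3)).and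
    ((hF.half (k + 4)).and (Metric.ball_mem_nhds v (by norm_num : (0 : ℝ) < 1 / 2)))))
  obtain ⟨g, hgT, g0, g1, g3, g4, g5⟩ := ((h.pure v _ (hF.inA k)).and_eventually hev).exists
  have hgm : s k ∈ T g := by rw [hgT]; exact rfl
  have hg0 := g0 hgm
  have hg1 := g1 (e1 ▸ hgm)
  have hg3 := g3 (e3 ▸ hgm)
  have hg4 := g4 (e4 ▸ hgm)
  have g5 : dist g v < 1 / 2 := g5
  have hgv : g ≠ v := by
    rintro rfl
    rw [hgT, Set.ncard_singleton] at h3
    omega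
  have hr : 0 < dist g v := dist_pos.2 hgv
  have r1 := yy_rel v θ k
  have r2 := yy_rel v θ (k + 1)
  have r3 := yy_rel v θ (k + 2)
  have o1 : yy v θ (k + 3) - v = -(yy v θ k - v) := by linear_combination r1 + r2
  have o2 : yy v θ (k + 4) - v = -(yy v θ (k + 1) - v) := by linear_combination r2 + r3
  have q0 := dist_sq_ip g v (yy v θ k) (dist_yy v θ k)
  have q1 := dist_sq_ip g v (yy v θ (k + 1)) (dist_yy v θ (k + 1))
  have q3 := dist_sq_ip g v (yy v θ (k + 3)) (dist_yy v θ (k + 3))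
  have q4 := dist_sq_ip g v (yy v θ (k + 4)) (dist_yy v θ (k + 4))
  have es := ip_sum v g θ k
  have eq := ip_sq_sum v g θ k
  have n3 : ip (g - v) (yy v θ (k + 3) - v) = -ip (g - v) (yy v θ k - v) := by
    rw [o1]; simp only [ip, Complex.neg_re, Complex.neg_im]; ring
  have n4 : ip (g - v) (yy v θ (k + 4) - v) = -ip (g - v) (yy v θ (k + 1) - v) := by
    rw [o2]; simp only [ip, Complex.neg_re, Complex.neg_im]; ring
  rw [n3] at q3
  rw [n4] at q4 es eq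
  rcases hF.eps with hε | hε
  · rw [hε] at hg0 hg1 hg3 hg4
    exact q_fin hr g5 (q_pos hg0 q0) (q_pos hg1 q1) (q_pos hg3 q3) (q_pos hg4 q4) es eq
  · rw [hε] at hg0 hg3
    have b0 := q_neg dist_nonneg hg0 q0
    have b3 := q_neg dist_nonneg hg3 q3
    have hr2 : 0 < dist g v ^ 2 := by positivity
    linarith

theorem dist_rr (v : ℂ) (x y φ a : ℝ) :
    dist (v + (x : ℂ) * cis φ) (v + (y : ℂ) * cis a) ^ 2 =
      x ^ 2 + y ^ 2 - 2 * x * y * Real.cos (φ - a) := by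
  rw [dist_eq_norm, add_sub_add_left_eq_sub, Complex.sq_norm, Complex.normSq_apply]
  simp only [Complex.sub_re, Complex.sub_im, Complex.mul_re, Complex.mul_im, Complex.ofReal_re,
    Complex.ofReal_im, cis, Complex.exp_ofReal_mul_I_re, Complex.exp_ofReal_mul_I_im]
  rw [Real.cos_sub]
  have h1 := Real.sin_sq_add_cos_sq φ
  have h2 := Real.sin_sq_add_cos_sq a
  linear_combination x ^ 2 * h1 + y ^ 2 * h2

theorem dist_cv_opp {σ : ℝ} (hσ : σ = 1 ∨ σ = -1) (v : ℂ) (a φ : ℝ) :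
    dist (cv v σ a φ) (v + ((-σ : ℝ) : ℂ) * cis a) ^ 2 = 5 - 4 * Real.cos φ := by
  rw [dist_eq_norm, cv, add_sub_add_left_eq_sub, Complex.sq_norm, Complex.normSq_apply]
  simp only [Complex.sub_re, Complex.sub_im, Complex.mul_re, Complex.mul_im, Complex.ofReal_re,
    Complex.ofReal_im, cis, Complex.exp_ofReal_mul_I_re, Complex.exp_ofReal_mul_I_im]
  rw [Real.sin_add, Real.cos_add]
  have h1 := Real.sin_sq_add_cos_sq a
  have h3 := Real.sin_sq_add_cos_sq φ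
  have h4 : σ ^ 2 = 1 := by rcases hσ with rfl | rfl <;> norm_num
  set sa := Real.sin a
  set ca := Real.cos a
  set sf := Real.sin φ
  set cf := Real.cos φ
  linear_combination (sa ^ 2 + ca ^ 2) * ((2 - cf) ^ 2 + sf ^ 2) * h4 +
    ((2 - cf) ^ 2 + sf ^ 2) * h1 + h3

theorem continuous_cv (v : ℂ) (σ a : ℝ) : Continuous fun φ => cv v σ a φ := by
  unfold cv
  exact continuous_const.add (continuous_const.mul (continuous_const.sub
    (continuous_cis.comp (continuous_const.add continuous_id))))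

theorem sqrt3 : 8 / 5 < Real.sqrt 3 := by
  rw [Real.lt_sqrt (by norm_num)]; norm_num

theorem sin13 : Real.sin (((1 : ℕ) : ℝ) * (Real.pi / 3)) = Real.sqrt 3 / 2 := by
  rw [Nat.cast_one, one_mul, Real.sin_pi_div_three]

theorem sin23 : Real.sin (((2 : ℕ) : ℝ) * (Real.pi / 3)) = Real.sqrt 3 / 2 := by
  rw [show ((2 : ℕ) : ℝ) * (Real.pi / 3) = Real.pi - Real.pi / 3 by push_cast; ring,
    Real.sin_pi_sub, Real.sin_pi_div_three]

theorem sin53 : Real.sin (((5 : ℕ) : ℝ) * (Real.pi / 3)) = -(Real.sqrt 3 / 2) := by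
  rw [show ((5 : ℕ) : ℝ) * (Real.pi / 3) = -(Real.pi / 3) + 2 * Real.pi by push_cast; ring,
    Real.sin_add_two_pi, Real.sin_neg, Real.sin_pi_div_three]

/-- (D) three pairs -/
theorem Fin6.tD (h : Irr U T) (h3 : (T v).ncard = 3) (hF : Fin6 T v θ ε s) (k : ℕ)
    (e1 : s k = s (k + 1)) (e2 : s (k + 2) = s (k + 3)) (e3 : s (k + 4) = s (k + 5))
    (n1 : s k ≠ s (k + 2)) (n2 : s (k + 2) ≠ s (k + 4)) (n3 : s k ≠ s (k + 4)) : False := by
  obtain ⟨ρ, hρ, hb⟩ := hF.ball h k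
  set a := θ + k * (Real.pi / 3) with ha
  have hs3 := sqrt3
  have hpi := Real.pi_gt_three
  have cover : ∀ i ∈ T v, i = s k ∨ i = s (k + 2) ∨ i = s (k + 4) := fun i hi =>
    three_cover h3 (hF.inA _) (hF.inA _) (hF.inA _) n1 n2 n3 hi
  have hε2 : ε * ε = 1 := by rcases hF.eps with h5 | h5 <;> rw [h5] <;> norm_num
  -- the two centres
  have hcen : ∀ σ : ℝ, (σ = 1 ∨ σ = -1) →
      ∃ p q, Harm T (v + (σ : ℂ) * cis a) p q ∧ p ∈ T v ∧ q ∈ T v := by
    rintro σ (rfl | rfl)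
    · have h5 := hF.four k e1 k (Or.inl rfl)
      have h6 : yy v θ k = v + ((1 : ℝ) : ℂ) * cis a := by rw [yy]; simp [ha]
      rwa [h6] at h5
    · have h5 := hF.four (k + 2) e2 (k + 3) (Or.inr rfl)
      have h6 : yy v θ (k + 3) = v + ((-1 : ℝ) : ℂ) * cis a := by
        rw [yy_ang, show θ + k * (Real.pi / 3) + ((3 : ℕ) : ℝ) * (Real.pi / 3) =
          a + Real.pi by rw [ha]; push_cast; ring, cis_add_pi']
        push_cast; ring
      rwa [h6] at h5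
  set δ0 := min (ρ / 2) (1 / 4) with hδ0
  have hδ00 : 0 < δ0 := lt_min (by linarith) (by norm_num)
  have hδ0r : δ0 < ρ := (min_le_left _ _).trans_lt (by linarith)
  have hδ04 : δ0 ≤ 1 / 4 := min_le_right _ _
  have hsig : ∀ σ : ℝ, (σ = 1 ∨ σ = -1) → s k ∈ T (v + (σ : ℂ) * cis a) ∧
      s (k + 2) ∈ T (v + (σ : ℂ) * cis a) ∧
      ∀ w, dist w (v + (σ : ℂ) * cis a) = 1 → T w ⊆ T (v + (σ : ℂ) * cis a) → s k ∈ T w := by
    intro σ hσ
    obtain ⟨p, q, hH, hp, hq⟩ := hcen σ hσ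
    have hκ : (-(ε * σ)) = 1 ∨ (-(ε * σ)) = -1 := by
      rcases hF.eps with h5 | h5 <;> rcases hσ with h6 | h6 <;> rw [h5, h6] <;> norm_num
    have hσ2 : σ * σ = 1 := by rcases hσ with h5 | h5 <;> rw [h5] <;> norm_num
    obtain ⟨k1, k2⟩ := hF.curve hb hσ hκ hδ00 (by linarith) hδ0r
    have hprod : ε * σ * -(ε * σ) = -1 := by linear_combination (-(σ * σ)) * hε2 - hσ2
    rw [← ha] at k1 k2
    have c1 := k2 1 (by norm_num) (by rw [hprod, sin13]; linarith)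
    have c2 := k2 2 (by norm_num) (by rw [hprod, sin23]; linarith)
    rw [← e1] at c1
    have hsub : T (cv v σ a (-(ε * σ) * δ0)) ⊆ {s (k + 4)} := by
      intro i hi
      rcases cover i (k1 hi) with h5 | h5 | h5
      · exact absurd (h5 ▸ hi) c1
      · exact absurd (h5 ▸ hi) c2
      · exact h5
    have h4 : s (k + 4) ∉ T (v + (σ : ℂ) * cis a) := by
      intro h5
      have h6 := hH.H1 _ (dist_cv_c hσ v a (-(ε * σ) * δ0)) fun i hi => by
        rw [hsub hi]; exact h5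
      have h7 : p = s (k + 4) := hsub h6.1
      have h8 : q = s (k + 4) := hsub h6.2
      exact hH.ne (h7.trans h8.symm)
    have hp' : p = s k ∨ p = s (k + 2) := by
      rcases cover p hp with h5 | h5 | h5
      · exact Or.inl h5
      · exact Or.inr h5
      · exact absurd (h5 ▸ hH.hp) h4
    have hq' : q = s k ∨ q = s (k + 2) := by
      rcases cover q hq with h5 | h5 | h5
      · exact Or.inl h5
      · exact Or.inr h5
      · exact absurd (h5 ▸ hH.hq) h4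
    rcases hp' with h5 | h5 <;> rcases hq' with h6 | h6
    · exact absurd (h5.trans h6.symm) hH.ne
    · exact ⟨h5 ▸ hH.hp, h6 ▸ hH.hq, fun w hw hs => h5 ▸ (hH.H1 w hw hs).1⟩
    · exact ⟨h6 ▸ hH.hq, h5 ▸ hH.hp, fun w hw hs => h6 ▸ (hH.H1 w hw hs).2⟩
    · exact absurd (h5.trans h6.symm) hH.ne
  -- the curve
  obtain ⟨a1, a2, a3⟩ := hsig ε hF.eps
  have hcurve : ∀ δ, 0 ≤ δ → δ ≤ δ0 → s k ∈ T (cv v ε a δ) := by
    intro δ hδ1 hδ2
    rcases hδ1.lt_or_eq with h5 | h5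
    · obtain ⟨k1, k2⟩ := hF.curve hb hF.eps (κ := 1) (Or.inl rfl) h5 (by linarith)
        (lt_of_le_of_lt hδ2 hδ0r)
      rw [← ha, one_mul] at k1 k2
      have c5 := k2 5 (by norm_num) (by rw [sin53, mul_one, hε2]; linarith)
      rw [← e3] at c5
      refine a3 _ (dist_cv_c hF.eps v a δ) fun i hi => ?_
      rcases cover i (k1 hi) with h6 | h6 | h6
      · rw [h6]; exact a1
      · rw [h6]; exact a2
      · exact absurd (h6 ▸ hi) c5
    · rw [← h5, cv_zero]; exact hF.inA k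
  -- the ray
  have hray : ∀ r, 0 ≤ r → r ≤ δ0 →
      s k ∈ T (v + ((ε * r : ℝ) : ℂ) * cis (a + Real.pi + Real.pi / 6)) := by
    intro r hr1 hr2
    rcases hr1.lt_or_eq with h5 | h5
    · obtain ⟨k1, k2⟩ := hF.ray hb (φ := a + Real.pi + Real.pi / 6) h5
        (lt_of_le_of_lt hr2 hδ0r)
      rw [← ha] at k2
      have c3 := k2 3 (by norm_num) (by
        rw [show a + Real.pi + Real.pi / 6 - (a + ((3 : ℕ) : ℝ) * (Real.pi / 3)) =
          Real.pi / 6 by push_cast; ring, Real.cos_pi_div_six]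
        linarith)
      have c4 := k2 4 (by norm_num) (by
        rw [show a + Real.pi + Real.pi / 6 - (a + ((4 : ℕ) : ℝ) * (Real.pi / 3)) =
          -(Real.pi / 6) by push_cast; ring, Real.cos_neg, Real.cos_pi_div_six]
        linarith)
      rw [← e2] at c3
      obtain ⟨i, hi⟩ := h.ne (v + ((ε * r : ℝ) : ℂ) * cis (a + Real.pi + Real.pi / 6))
      rcases cover i (k1 hi) with h6 | h6 | h6
      · exact h6 ▸ hi
      · exact absurd (h6 ▸ hi) c3
      · exact absurd (h6 ▸ hi) c4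
    · rw [← h5]; simpa using hF.inA k
  have hneg : (-ε) = 1 ∨ (-ε) = -1 := by
    rcases hF.eps with h5 | h5 <;> rw [h5] <;> norm_num
  obtain ⟨b1, -, -⟩ := hsig (-ε) hneg
  have hcont : Continuous fun r : ℝ =>
      v + ((ε * r : ℝ) : ℂ) * cis (a + Real.pi + Real.pi / 6) := by fun_prop
  have hQ : IsPreconnected (((fun r : ℝ =>
      v + ((ε * r : ℝ) : ℂ) * cis (a + Real.pi + Real.pi / 6)) '' Icc 0 δ0) ∪
      (fun δ => cv v ε a δ) '' Icc 0 δ0) := by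
    refine IsPreconnected.union v ⟨0, ⟨le_rfl, hδ00.le⟩, by simp⟩
      ⟨0, ⟨le_rfl, hδ00.le⟩, cv_zero v ε a⟩
      (isPreconnected_Icc.image _ hcont.continuousOn)
      (isPreconnected_Icc.image _ (continuous_cv v ε a).continuousOn)
  refine h.mx.wlemma (i := s k) hQ ?_
    (a := v + ((ε * δ0 : ℝ) : ℂ) * cis (a + Real.pi + Real.pi / 6)) (b := cv v ε a δ0)
    (Or.inl ⟨δ0, ⟨hδ00.le, le_rfl⟩, rfl⟩) (Or.inr ⟨δ0, ⟨hδ00.le, le_rfl⟩, rfl⟩)
    ?_ ?_ (h.sub _ b1)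
  · rintro _ (⟨r, hr, rfl⟩ | ⟨δ, hδ, rfl⟩)
    · exact h.sub _ (hray r hr.1 hr.2)
    · exact h.sub _ (hcurve δ hδ.1 hδ.2)
  · refine dist_sq_lt dist_nonneg ?_
    rw [dist_rr, show a + Real.pi + Real.pi / 6 - a = Real.pi / 6 + Real.pi by ring,
      Real.cos_add_pi, Real.cos_pi_div_six]
    have k1 : (ε * δ0) ^ 2 + (-ε) ^ 2 - 2 * (ε * δ0) * -ε * -(Real.sqrt 3 / 2) =
        δ0 ^ 2 + 1 - Real.sqrt 3 * δ0 := by
      linear_combination (δ0 ^ 2 + 1 - Real.sqrt 3 * δ0) * hε2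
    rw [k1]
    nlinarith
  · refine dist_sq_gt dist_nonneg ?_
    rw [dist_cv_opp hF.eps]
    have k1 : Real.cos δ0 < 1 := by
      rw [← Real.cos_zero]
      exact Real.cos_lt_cos_of_nonneg_of_le_pi le_rfl (by linarith) hδ00
    linarith

theorem Fin6.mod (hF : Fin6 T v θ ε s) (n : ℕ) : s (n % 6) = s n := by
  induction n using Nat.strong_induction_on with
  | _ n ih =>
    by_cases hn : n < 6
    · rw [Nat.mod_eq_of_lt hn]
    · have e1 : n = (n - 6) + 6 := by omega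
      have h1 := ih (n - 6) (by omega)
      rw [e1, hF.per, Nat.add_mod_right]
      exact h1

/-- the data are contradictory -/
theorem Fin6.false (h : Irr U T) (h3 : (T v).ncard = 3) (hF : Fin6 T v θ ε s) : False := by
  obtain ⟨x, y, z, hxy, hxz, hyz, hT⟩ := Set.ncard_eq_three.1 h3
  obtain ⟨f, hinj, hf⟩ : ∃ f : Fin 3 → Fin 6, Function.Injective f ∧ ∀ i, i ∈ T v ↔ ∃ l, i = f l := by
    refine ⟨![x, y, z], ?_, fun i => ?_⟩
    · intro a b hab
      fin_cases a <;> fin_cases b <;> simp_all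
    · rw [hT]
      constructor
      · rintro (rfl | rfl | rfl)
        · exact ⟨0, rfl⟩
        · exact ⟨1, rfl⟩
        · exact ⟨2, rfl⟩
      · rintro ⟨l, rfl⟩
        fin_cases l <;> simp
  have hr : ∀ j : Fin 6, ∃ l, s j.val = f l := fun j => (hf _).1 (hF.inA _)
  choose r hr using hr
  have key : ∀ j n : Fin 6, s (j.val + n.val) = f (r (j + n)) := by
    intro j n
    rw [← hr (j + n), Fin.val_add, hF.mod]
  have ne : ∀ {a b : ℕ} {l l' : Fin 3}, s a = f l → s b = f l' → l ≠ l' → s a ≠ s b := by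
    intro a b l l' h1 h2 h4 h5
    exact h4 (hinj (h1.symm.trans (h5.trans h2)))
  have eqq : ∀ {a b : ℕ} {l l' : Fin 3}, s a = f l → s b = f l' → l = l' → s a = s b := by
    intro a b l l' h1 h2 h4
    rw [h1, h2, h4]
  have nx : ∀ {a : ℕ} {l l' : Fin 3}, s a = f l' → l ≠ l' → f l ≠ s a := by
    intro a l l' h1 h2 h4
    exact h2 (hinj (h4.trans h1))
  have nn : ∀ {a b c : ℕ} {l l' l'' : Fin 3}, s a = f l → s b = f l' → s c = f l'' →
      ¬ (l = l' ∧ l' = l'') → ¬ (s a = s b ∧ s b = s c) := by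
    rintro a b c l l' l'' h1 h2 h4 h5 ⟨h6, h7⟩
    exact h5 ⟨hinj (h1.symm.trans (h6.trans h2)), hinj (h2.symm.trans (h7.trans h4))⟩
  rcases comb r with ⟨j, h1, h2, h4⟩ | ⟨j, l, ⟨x0, x1, x2⟩, ⟨x3, x4, x5⟩, n1, n2⟩ |
    ⟨j, h1, h2, h4⟩ | ⟨j, h1, h2, h4, h5, h6, h7⟩
  · exact hF.tA h h3 j.val (ne (hr j) (key j 1) h1) (ne (key j 1) (key j 2) h2)
      (ne (hr j) (key j 2) h4)
  · exact hF.tB h h3 j.val ((hf _).2 ⟨l, rfl⟩) (nx (hr j) x0) (nx (key j 1) x1)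
      (nx (key j 2) x2) (nx (key j 3) x3) (nx (key j 4) x4) (nx (key j 5) x5)
      (nn (hr j) (key j 1) (key j 2) n1) (nn (key j 3) (key j 4) (key j 5) n2)
  · exact hF.tC h h3 j.val (eqq (hr j) (key j 1) h1) (eqq (hr j) (key j 3) h2)
      (eqq (hr j) (key j 4) h4)
  · exact hF.tD h h3 j.val (eqq (hr j) (key j 1) h1) (eqq (key j 2) (key j 3) h2)
      (eqq (key j 4) (key j 5) h4) (ne (hr j) (key j 2) h5) (ne (key j 2) (key j 4) h6)
      (ne (hr j) (key j 4) h7)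

theorem yy_mod (v : ℂ) (θ : ℝ) (n : ℕ) : yy v θ (n % 6) = yy v θ n := by
  induction n using Nat.strong_induction_on with
  | _ n ih =>
    by_cases hn : n < 6
    · rw [Nat.mod_eq_of_lt hn]
    · have e1 : n = (n - 6) + 6 := by omega
      have h1 := ih (n - 6) (by omega)
      rw [e1, yy_six, Nat.add_mod_right]
      exact h1

/-- from the half plane data to a contradiction -/
theorem fin_all (h : Irr U T) (h3 : (T v).ncard = 3) {θ0 : ℝ} (hs : Hxs T (T v) (yy v θ0) m)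
    (hg : ∀ k, Good T (T v) (yy v θ0 k)) (hε : ε = 1 ∨ ε = -1) (t : ℕ → Fin 6)
    (htA : ∀ k, t k ∈ T v) (hty : ∀ k, t k ∈ T (yy v θ0 (k + 2)))
    (hev : ∀ k, ∀ᶠ g in 𝓝 v, t k ∈ T g → 0 ≤ ε * (dist g (yy v θ0 (k + 2)) - 1)) : False := by
  have hsh : ∀ k, yy v (θ0 + Real.pi / 3 + Real.pi / 3) k = yy v θ0 (k + 2) := by
    intro k
    rw [yy_shift, yy_shift]
  have hm : ∀ k, yy v θ0 (k % 6 + 2) = yy v θ0 (k + 2) := by
    intro k
    rw [← hsh, ← hsh, yy_mod]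
  have hF : Fin6 T v (θ0 + Real.pi / 3 + Real.pi / 3) ε (fun k => t (k % 6)) := by
    refine ⟨hε, fun k => htA _, fun k => ?_, fun k => ?_, fun k => ?_, fun k hk => ?_⟩
    · have h1 := hty (k % 6)
      rw [hsh]
      rwa [hm] at h1
    · simp only [Nat.add_mod_right]
    · have h1 := hev (k % 6)
      rw [hsh]
      rwa [hm] at h1
    · -- the adjacent case
      have k1 : t (k % 6) ∈ T (yy v θ0 (k + 2)) := by
        have h1 := hty (k % 6)
        rwa [hm] at h1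
      have k2 : t (k % 6) ∈ T (yy v θ0 (k + 3)) := by
        have h1 := hty ((k + 1) % 6)
        rw [hm] at h1
        have hk : t (k % 6) = t ((k + 1) % 6) := hk
        rw [hk]
        exact h1
      have hno : ¬ ((T (yy v θ0 (k + 2))).ncard ≤ 3 ∨ (T (yy v θ0 (k + 3))).ncard ≤ 3) :=
        fun h5 => hs.adj' h h3 hg h5 (htA _) k1 k2
      push Not at hno
      intro j hj
      rw [hsh]
      rcases hj with rfl | rfl
      · rcases hg (j + 2) with h5 | h5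
        · exact absurd h5 (not_le.2 hno.1)
        · exact h5
      · rcases hg (k + 1 + 2) with h5 | h5
        · exact absurd h5 (not_le.2 hno.2)
        · exact h5
  exact hF.false h h3

/-- **No frozen circle, three-coloured centre, arbitrary harmless points on the circle.** -/
theorem not_Frz_realHH (h : Irr U T) {v : ℂ} (h3 : (T v).ncard = 3)
    (hQ2 : ∀ y, dist y v = 1 → ∃ i, i ∉ T v ∧ i ∉ T y)
    (hZ : ∀ y, dist y v = 1 → (T y).ncard ≤ 3 ∨ ∃ p q, Harm T y p q) {col : Fin 3 → Fin 6}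
    (hcol : ∀ i, i ∉ T v ↔ ∃ l, i = col l) (hinj : Function.Injective col) : ¬ Frz v T col := by
  intro hf
  obtain ⟨c, d, e, σ, hcov, hcd, hde, hce, hσc, hσd, hσe, hfr⟩ := frz_sigma hcol hinj hf
  obtain ⟨θa, θ0, cc, hd, hs⟩ := frz_data h h3 (fun y hy => by
    obtain ⟨i, hi, hi'⟩ := h.not_sub' hy h3.le
    exact ⟨i, hi', hi⟩) hQ2 hcov hcd hde hce σ hσc hσd hσe hfr
  have hgood : ∀ m : ℕ → Fin 6, Hxs T (T v) (yy v θ0) m → ∀ k, Good T (T v) (yy v θ0 k) := by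
    intro m hm k
    rcases hZ _ (dist_yy v θ0 k) with h5 | ⟨p, q, hH⟩
    · exact Or.inl h5
    · right
      rw [← yy_six v θ0 k] at hH
      have h6 := hm.harm h h3 rfl (k := k + 4) hH
      rw [yy_six] at hH
      exact ⟨p, q, hH, h6.1, h6.2⟩
  rcases hs with hs | hs
  · obtain ⟨t, ht1, ht2, ht4⟩ := hd.caseA' h h3 hs (hgood _ hs)
    refine fin_all h h3 hs (hgood _ hs) (ε := 1) (Or.inl rfl) t ht1 ht2 fun k => ?_
    refine (ht4 k).mono fun g hg hg' => ?_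
    have := hg (h.sub g hg')
    linarith
  · obtain ⟨t, ht1, ht2, ht4⟩ := hd.caseB' h h3 hs (hgood _ hs)
    refine fin_all h h3 hs (hgood _ hs) (ε := -1) (Or.inr rfl) t ht1 ht2 fun k => ?_
    refine (ht4 k).mono fun g hg hg' => ?_
    have := hg (h.sub g hg')
    linarith

end Vale.Agent.P032.H175
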