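import Vale.Agent.P032.S5.H175.FZT
import Vale.Agent.P032.H180.Ring
import Vale.Agent.P032.S5.H783.L6

/-!
# P032: frozen circles, irredundant palettes, part 2

`not_Frz_real` : the circle about a three-coloured point, harmless four-coloured points allowed on
the circle (no two of them at distance one).
`not_Frz_virt` : the circle about a harmless four-coloured point, for a virtual face.
-/

open Set Filter Topology Metric

noncomputable section

namespace Vale.Agent.P032.H175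

open Vale.Agent.P032.Six
open Vale.Agent.P032.S5.H783 (cis_add cis_zero pt core yy dist_yy yy_succ yy_rel dist_yy_succ
  yy_not_line three_cover yy_shift continuous_yy dist_yy_add dist_sq_lt dist_sq_gt dist_cis_sub
  om_eq)
open Vale.Agent.P032.H180 (Frz om)

variable {U : Fin 6 → Set ℂ} {T : ℂ → Set (Fin 6)}

/-- the pattern at the six points: `m k` is the colour outside `A` which is missing at `y k` -/
structure Hxs (T : ℂ → Set (Fin 6)) (A : Set (Fin 6)) (y : ℕ → ℂ) (m : ℕ → Fin 6) : Prop where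
  notA : ∀ k, m k ∉ A
  ne1 : ∀ k, m k ≠ m (k + 1)
  ne2 : ∀ k, m k ≠ m (k + 2)
  mem : ∀ k, ∀ i, i ∉ A → (i ∈ T (y k) ↔ i ≠ m k)

theorem Hxs.cov {A : Set (Fin 6)} (hA3 : A.ncard = 3) {y : ℕ → ℂ} {m : ℕ → Fin 6}
    (hs : Hxs T A y m) (k : ℕ) {i : Fin 6} (hi : i ∉ A) :
    i = m k ∨ i = m (k + 1) ∨ i = m (k + 2) := by
  have h4 : (Aᶜ).ncard = 3 := by rw [Set.ncard_compl, hA3]; simp
  exact three_cover h4 (hs.notA k) (hs.notA (k + 1)) (hs.notA (k + 2)) (hs.ne1 k)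
    (hs.ne1 (k + 1)) (hs.ne2 k) hi

theorem Hxs.per {A : Set (Fin 6)} (hA3 : A.ncard = 3) {y : ℕ → ℂ} {m : ℕ → Fin 6}
    (hs : Hxs T A y m) (k : ℕ) : m (k + 3) = m k := by
  rcases hs.cov hA3 k (hs.notA (k + 3)) with h1 | h1 | h1
  · exact h1
  · exact absurd h1.symm (hs.ne2 (k + 1))
  · exact absurd h1.symm (hs.ne1 (k + 2))

/-- a point with four colours has exactly two colours in `A` -/
theorem Hxs.inter {A : Set (Fin 6)} (hA3 : A.ncard = 3) {y : ℕ → ℂ} {m : ℕ → Fin 6}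
    (hs : Hxs T A y m) {k : ℕ} (h4 : (T (y (k + 2))).ncard = 4) :
    (T (y (k + 2)) ∩ A).ncard = 2 ∧ (A \ T (y (k + 2))).ncard = 1 := by
  have h1 : T (y (k + 2)) \ A = {m k, m (k + 1)} := by
    ext i
    constructor
    · rintro ⟨hi, hiA⟩
      rcases hs.cov hA3 k hiA with h1 | h1 | h1
      · exact Or.inl h1
      · exact Or.inr h1
      · exact absurd h1 ((hs.mem (k + 2) i hiA).1 hi)
    · rintro (rfl | rfl)
      · exact ⟨(hs.mem _ _ (hs.notA _)).2 (hs.ne2 k), hs.notA _⟩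
      · exact ⟨(hs.mem _ _ (hs.notA _)).2 (hs.ne1 (k + 1)), hs.notA _⟩
  have h2 : (T (y (k + 2)) \ A).ncard = 2 := by rw [h1, Set.ncard_pair (hs.ne1 k)]
  have h3 := Set.ncard_inter_add_ncard_sdiff_eq_ncard (T (y (k + 2))) A (Set.toFinite _)
  have h5 := Set.ncard_inter_add_ncard_sdiff_eq_ncard A (T (y (k + 2))) (Set.toFinite _)
  rw [Set.inter_comm] at h5
  omega

variable {v : ℂ} {θ : ℝ} {A : Set (Fin 6)} {m : ℕ → Fin 6}

theorem not_line' (v : ℂ) (θ : ℝ) (k : ℕ) :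
    ¬ (yy v θ k = yy v θ (k + 2) ∨ yy v θ k + yy v θ (k + 2) = 2 * yy v θ (k + 1)) := by
  intro h1
  refine yy_not_line v θ k ?_
  rcases h1 with h1 | h1
  · exact Or.inl h1.symm
  · right; rw [add_comm]; exact h1

/-- at a harmless point of the pattern the pair is inside `A` (centre with palette `A`) -/
theorem Hxs.harm (h : Irr U T) (hA3 : A.ncard = 3) (hvA : T v = A) (hs : Hxs T A (yy v θ) m)
    {k : ℕ} {p q : Fin 6} (hH : Harm T (yy v θ (k + 2)) p q) : p ∈ A ∧ q ∈ A := by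
  obtain ⟨h2, h1⟩ := hs.inter hA3 hH.card
  obtain ⟨t, ht⟩ := Set.ncard_eq_one.1 h1
  have htT : t ∈ A \ T (yy v θ (k + 2)) := by rw [ht]; exact rfl
  have hAt : ∀ i ∈ A, i ≠ t → i ∈ T (yy v θ (k + 2)) := by
    intro i hi hit
    by_contra hcon
    have : i ∈ A \ T (yy v θ (k + 2)) := ⟨hi, hcon⟩
    rw [ht] at this
    exact hit this
  by_contra hcon
  -- the circle about `y` near `v`
  have hrel : Rel T (yy v θ (k + 2)) v := by
    refine rel_of_harm hH ?_
    rw [hvA]; exact hcon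
  have hsub : T v ⊆ insert t (T (yy v θ (k + 2))) := by
    intro i hi
    rw [hvA] at hi
    by_cases hit : i = t
    · exact Or.inl hit
    · exact Or.inr (hAt i hi hit)
  have hline : ∀ v', dist v v' = 1 → t ∈ Pal U v' →
      v' = yy v θ (k + 2) ∨ v' + yy v θ (k + 2) = 2 * v := fun v' h5 h6 =>
    hrel.line h (by rw [dist_comm]; exact dist_yy v θ (k + 2)) hsub h5 h6
  -- neighbours miss `t`
  have hn : ∀ j, (j = k + 1 ∨ j = k + 3) → t ∉ T (yy v θ j) := by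
    intro j hj htj
    have h5 := hline (yy v θ j) (by rw [dist_comm]; exact dist_yy v θ j) (h.sub _ htj)
    have h6 : dist (yy v θ j) (yy v θ (k + 2)) = 1 := by
      rcases hj with rfl | rfl
      · exact dist_yy_succ v θ (k + 1)
      · rw [dist_comm]; exact dist_yy_succ v θ (k + 2)
    rcases h5 with h5 | h5
    · rw [h5, dist_self] at h6; norm_num at h6
    · have h7 : yy v θ j - v = -(yy v θ (k + 2) - v) := by linear_combination h5
      have h8 : yy v θ j - yy v θ (k + 2) = -(2 * (yy v θ (k + 2) - v)) := by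
        linear_combination h5
      rw [dist_eq_norm, h8, norm_neg, norm_mul, ← dist_eq_norm, dist_yy] at h6
      norm_num at h6
  have hA' : ∀ j, (j = k + 1 ∨ j = k + 3) → ∀ i ∈ T (yy v θ j), i ∈ A →
      i ∈ T (yy v θ (k + 2)) := by
    intro j hj i hi hiA
    refine hAt i hiA ?_
    rintro rfl
    exact hn j hj hi
  -- both neighbours carry the pair
  have hR : p ∈ T (yy v θ (k + 3)) ∧ q ∈ T (yy v θ (k + 3)) := by
    by_contra hcon2
    have hr := rel_of_harm hH hcon2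
    have hsub2 : T (yy v θ (k + 3)) ⊆ insert (m (k + 2)) (T (yy v θ (k + 2))) := by
      intro i hi
      by_cases hiA : i ∈ A
      · exact Or.inr (hA' _ (Or.inr rfl) i hi hiA)
      · by_cases him : i = m (k + 2)
        · exact Or.inl him
        · exact Or.inr ((hs.mem (k + 2) i hiA).2 him)
    have h5 := hr.line h (v := yy v θ (k + 4)) (by rw [dist_comm]; exact dist_yy_succ v θ (k + 2))
      hsub2 (dist_yy_succ v θ (k + 3))
      (h.sub _ ((hs.mem (k + 4) _ (hs.notA _)).2 (hs.ne2 (k + 2))))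
    exact yy_not_line v θ (k + 2) h5
  have hL : p ∈ T (yy v θ (k + 1)) ∧ q ∈ T (yy v θ (k + 1)) := by
    by_contra hcon2
    have hr := rel_of_harm hH hcon2
    have hsub2 : T (yy v θ (k + 1)) ⊆ insert (m (k + 2)) (T (yy v θ (k + 2))) := by
      intro i hi
      by_cases hiA : i ∈ A
      · exact Or.inr (hA' _ (Or.inl rfl) i hi hiA)
      · by_cases him : i = m (k + 2)
        · exact Or.inl him
        · exact Or.inr ((hs.mem (k + 2) i hiA).2 him)
    have h5 := hr.line h (v := yy v θ k) (dist_yy_succ v θ (k + 1))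
      hsub2 (by rw [dist_comm]; exact dist_yy_succ v θ k)
      (h.sub _ ((hs.mem k _ (hs.notA _)).2 (hs.ne2 k).symm))
    exact not_line' v θ k h5
  refine hcon ?_
  have key : ∀ i, i ∈ T (yy v θ (k + 1)) → i ∈ T (yy v θ (k + 2)) → i ∈ T (yy v θ (k + 3)) →
      i ∈ A := by
    intro i h5 h6 h7
    by_contra hiA
    rcases hs.cov hA3 (k + 1) hiA with h8 | h8 | h8
    · exact (hs.mem (k + 1) i hiA).1 h5 h8
    · exact (hs.mem (k + 2) i hiA).1 h6 h8
    · exact (hs.mem (k + 3) i hiA).1 h7 h8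
  exact ⟨key p hL.1 hH.hp hR.1, key q hL.2 hH.hq hR.2⟩

/-- three colours or harmless with the pair in `A` -/
def Good (T : ℂ → Set (Fin 6)) (A : Set (Fin 6)) (y : ℂ) : Prop :=
  (T y).ncard ≤ 3 ∨ ∃ p q, Harm T y p q ∧ p ∈ A ∧ q ∈ A

/-- a three-coloured point of the pattern -/
theorem Hxs.three (hA3 : A.ncard = 3) (hs : Hxs T A (yy v θ) m)
    {k : ℕ} (h3 : (T (yy v θ (k + 2))).ncard ≤ 3) {t : Fin 6} (htA : t ∈ A)
    (ht : t ∈ T (yy v θ (k + 2))) : T (yy v θ (k + 2)) = {m k, m (k + 1), t} := by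
  symm
  apply Set.eq_of_subset_of_ncard_le
  · rintro i (rfl | rfl | rfl)
    · exact (hs.mem _ _ (hs.notA _)).2 (hs.ne2 k)
    · exact (hs.mem _ _ (hs.notA _)).2 (hs.ne1 (k + 1))
    · exact ht
  · rw [Set.ncard_insert_of_notMem, Set.ncard_pair]
    · exact h3
    · rintro rfl
      exact hs.notA _ htA
    · rintro (h7 | h7)
      · exact hs.ne1 k h7
      · exact hs.notA k (h7 ▸ htA)
  · exact Set.toFinite _

theorem Hxs.four (hA3 : A.ncard = 3) (hs : Hxs T A (yy v θ) m)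
    {k : ℕ} {p q : Fin 6} (hH : Harm T (yy v θ (k + 2)) p q) (hp : p ∈ A) (hq : q ∈ A) :
    T (yy v θ (k + 2)) = {m k, m (k + 1), p, q} := by
  symm
  apply Set.eq_of_subset_of_ncard_le
  · rintro i (rfl | rfl | rfl | rfl)
    · exact (hs.mem _ _ (hs.notA _)).2 (hs.ne2 k)
    · exact (hs.mem _ _ (hs.notA _)).2 (hs.ne1 (k + 1))
    · exact hH.hp
    · exact hH.hq
  · rw [hH.card, Set.ncard_insert_of_notMem, Set.ncard_insert_of_notMem, Set.ncard_pair hH.ne]
    · rintro (h7 | h7)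
      · exact hs.notA _ (h7 ▸ hp)
      · exact hs.notA _ (h7 ▸ hq)
    · rintro (h7 | h7 | h7)
      · exact hs.ne1 k h7
      · exact hs.notA _ (h7 ▸ hp)
      · exact hs.notA _ (h7 ▸ hq)
  · exact Set.toFinite _

/-- in a three-coloured point of the pattern two members of `A` coincide -/
theorem Hxs.uniq (hA3 : A.ncard = 3) (hs : Hxs T A (yy v θ) m)
    {k : ℕ} (h3 : (T (yy v θ (k + 2))).ncard ≤ 3) {s t : Fin 6} (hsA : s ∈ A)
    (hst : s ∈ T (yy v θ (k + 2))) (htA : t ∈ A) (ht : t ∈ T (yy v θ (k + 2))) : s = t := by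
  rw [hs.three hA3 h3 htA ht] at hst
  rcases hst with h1 | h1 | h1
  · exact absurd (h1 ▸ hsA) (hs.notA k)
  · exact absurd (h1 ▸ hsA) (hs.notA (k + 1))
  · exact h1

/-- adjacency -/
theorem Hxs.adj (h : Irr U T) (hA3 : A.ncard = 3) (hs : Hxs T A (yy v θ) m)
    (hg : ∀ k, Good T A (yy v θ k))
    (hnb : ∀ k, (T (yy v θ k)).ncard ≤ 3 ∨ (T (yy v θ (k + 1))).ncard ≤ 3) {k : ℕ} {s : Fin 6}
    (hsA : s ∈ A) (h1 : s ∈ T (yy v θ (k + 2))) (h2 : s ∈ T (yy v θ (k + 3))) : False := by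
  have hrel : ∀ i j, Good T A (yy v θ i) → (∀ p q, p ∈ A → q ∈ A → p ∈ T (yy v θ j) →
      q ∈ T (yy v θ j) → p = q) → Rel T (yy v θ i) (yy v θ j) := by
    rintro i j (h3 | ⟨p, q, hH, hp, hq⟩) hu
    · exact rel_of_three h h3 _
    · refine rel_of_harm hH fun h4 => ?_
      exact hH.ne (hu p q hp hq h4.1 h4.2)
  by_cases h3 : (T (yy v θ (k + 3))).ncard ≤ 3
  · have hr := hrel (k + 2) (k + 3) (hg _) fun p q hp hq h5 h6 => hs.uniq hA3 h3 hp h5 hq h6
    have hsub : T (yy v θ (k + 3)) ⊆ insert (m (k + 2)) (T (yy v θ (k + 2))) := by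
      intro i hi
      by_cases hiA : i ∈ A
      · right
        rw [hs.uniq hA3 h3 hiA hi hsA h2]; exact h1
      · by_cases him : i = m (k + 2)
        · exact Or.inl him
        · exact Or.inr ((hs.mem (k + 2) i hiA).2 him)
    have h5 := hr.line h (v := yy v θ (k + 4)) (by rw [dist_comm]; exact dist_yy_succ v θ (k + 2))
      hsub (dist_yy_succ v θ (k + 3))
      (h.sub _ ((hs.mem (k + 4) _ (hs.notA _)).2 (hs.ne2 (k + 2))))
    exact yy_not_line v θ (k + 2) h5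
  · have h3' : (T (yy v θ (k + 2))).ncard ≤ 3 := (hnb (k + 2)).resolve_right h3
    have hr := hrel (k + 3) (k + 2) (hg _) fun p q hp hq h5 h6 => hs.uniq hA3 h3' hp h5 hq h6
    have hsub : T (yy v θ (k + 2)) ⊆ insert (m (k + 3)) (T (yy v θ (k + 3))) := by
      intro i hi
      by_cases hiA : i ∈ A
      · right
        rw [hs.uniq hA3 h3' hiA hi hsA h1]; exact h2
      · by_cases him : i = m (k + 3)
        · exact Or.inl him
        · exact Or.inr ((hs.mem (k + 3) i hiA).2 him)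
    have h5 := hr.line h (v := yy v θ (k + 1)) (dist_yy_succ v θ (k + 2))
      hsub (by rw [dist_comm]; exact dist_yy_succ v θ (k + 1))
      (h.sub _ ((hs.mem (k + 1) _ (hs.notA _)).2 (hs.ne2 (k + 1)).symm))
    exact not_line' v θ (k + 1) h5

/-- there is a colour of `A` at every point of the pattern -/
theorem Hxs.ex (h : Irr U T) (hA3 : A.ncard = 3) (hs : Hxs T A (yy v θ) m) (k : ℕ) :
    ∃ t ∈ A, t ∈ T (yy v θ (k + 2)) := by
  by_contra hcon
  push Not at hcon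
  have hsub : T (yy v θ (k + 2)) ⊆ {m (k + 1), m (k + 3)} := by
    intro i hi
    have hiA : i ∉ A := fun h5 => hcon i h5 hi
    rcases hs.cov hA3 (k + 1) hiA with h1 | h1 | h1
    · exact Or.inl h1
    · exact absurd h1 ((hs.mem _ i hiA).1 hi)
    · exact Or.inr h1
  have h5 := h.lemmaB (x := yy v θ (k + 2)) (y := yy v θ (k + 3)) (y' := yy v θ (k + 1)) hsub
    (dist_yy_succ v θ (k + 2)) (by rw [dist_comm]; exact dist_yy_succ v θ (k + 1))
    (h.sub _ ((hs.mem (k + 3) _ (hs.notA _)).2 (hs.ne2 (k + 1))))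
    (h.sub _ ((hs.mem (k + 1) _ (hs.notA _)).2 (hs.ne2 (k + 1)).symm))
  exact not_line' v θ (k + 1) h5

/-- frozen data -/
structure FD (T : ℂ → Set (Fin 6)) (v : ℂ) (A : Set (Fin 6)) (θa θ0 : ℝ) (c : ℕ → Fin 6) :
    Prop where
  lt : θa < θ0
  le : θ0 - θa ≤ 1 / 2
  notA : ∀ k, c k ∉ A
  ne1 : ∀ k, c k ≠ c (k + 1)
  ne2 : ∀ k, c k ≠ c (k + 2)
  per : ∀ k, c (k + 3) = c k
  mem : ∀ k, c k ∈ T (yy v θ0 k)
  pure : ∀ k, ∀ θ ∈ Ico θa θ0, ∀ i, i ∉ A → (i ∈ T (yy v θ k) ↔ i = c k)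

theorem FD.arc {θa θ0 : ℝ} {c : ℕ → Fin 6} (hd : FD T v A θa θ0 c) (k : ℕ) {θ : ℝ}
    (hθ : θ ∈ Icc θa θ0) : c k ∈ T (yy v θ k) := by
  rcases hθ.2.lt_or_eq with h1 | h1
  · exact (hd.pure k θ ⟨hθ.1, h1⟩ _ (hd.notA k)).2 rfl
  · rw [h1]; exact hd.mem k

/-- case A: missing colour `c (k + 2)` -/
theorem FD.caseA (h : Irr U T) (hA3 : A.ncard = 3) {θa θ0 : ℝ} {c : ℕ → Fin 6}
    (hd : FD T v A θa θ0 c) (hs : Hxs T A (yy v θ0) fun k => c (k + 2))
    (hg : ∀ k, Good T A (yy v θ0 k))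
    (hnb : ∀ k, (T (yy v θ0 k)).ncard ≤ 3 ∨ (T (yy v θ0 (k + 1))).ncard ≤ 3) :
    ∃ t : ℕ → Fin 6, (∀ k, t k ∈ A) ∧ (∀ k, t k ∈ T (yy v θ0 (k + 2))) ∧
      (∀ k, t k ≠ t (k + 1)) ∧
      ∀ k, ∀ᶠ g in 𝓝 v, t k ∈ Pal U g → 1 ≤ dist g (yy v θ0 (k + 2)) := by
  have hpi := Real.pi_gt_three
  have hex : ∀ k, ∃ t, t ∈ A ∧ t ∈ T (yy v θ0 (k + 2)) ∧
      ∀ᶠ g in 𝓝 v, t ∈ Pal U g → 1 ≤ dist g (yy v θ0 (k + 2)) := by
    intro k
    have hev : ∀ᶠ p in 𝓝 (yy v θ0 (k + 2)), c (k + 3) ∈ Pal U p →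
        dist p (yy v θ0 (k + 3)) ≤ 1 := by
      refine Vale.Agent.P032.S5.H783.arcA h.mx (Q := (fun θ => yy v θ (k + 3)) '' Icc θa θ0)
        (a0 := yy v θa (k + 3))
        (isPreconnected_Icc.image _ (continuous_yy v (k + 3)).continuousOn) ?_
        ⟨θ0, ⟨hd.lt.le, le_rfl⟩, rfl⟩ ⟨θa, ⟨le_rfl, hd.lt.le⟩, rfl⟩ ?_
      · rintro _ ⟨θ, hθm, rfl⟩
        exact h.sub _ (hd.arc (k + 3) hθm)
      · apply dist_sq_lt dist_nonneg
        rw [dist_yy_add]
        have e1 : (θa - θ0) + (((k + 3 : ℕ) : ℝ) - ((k + 2 : ℕ) : ℝ)) * (Real.pi / 3) =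
            Real.pi / 3 - (θ0 - θa) := by push_cast; ring
        rw [e1]
        have e2 : 1 / 2 < Real.cos (Real.pi / 3 - (θ0 - θa)) := by
          have := hd.lt
          have := hd.le
          rw [← Real.cos_pi_div_three]
          apply Real.cos_lt_cos_of_nonneg_of_le_pi <;> linarith
        linarith
    have hca : c (k + 2) ∈ T (yy v θ0 (k + 1)) :=
      (hs.mem (k + 1) _ (hd.notA _)).2 (hd.ne1 (k + 2))
    have d1 : dist v (yy v θ0 (k + 1)) = 1 := by rw [dist_comm]; exact dist_yy v θ0 _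
    have d2 : dist (yy v θ0 (k + 2)) (yy v θ0 (k + 1)) = 1 := by
      rw [dist_comm]; exact dist_yy_succ v θ0 (k + 1)
    have d3 : yy v θ0 (k + 3) = v + yy v θ0 (k + 2) - yy v θ0 (k + 1) := by
      linear_combination yy_rel v θ0 (k + 1)
    have e1 : c (k + 1 + 2) = c (k + 3) := rfl
    rcases hg (k + 2) with h3 | ⟨p, q, hH, hp, hq⟩
    · obtain ⟨t, htA, ht⟩ := hs.ex h hA3 k
      refine ⟨t, htA, ht, ?_⟩
      exact fzA h (a := yy v θ0 (k + 1)) (b := yy v θ0 (k + 3)) (c := c (k + 2))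
        (c' := c (k + 3)) d1 d2 (dist_yy v θ0 _) d3 (hs.three hA3 h3 htA ht).subset
        (h.sub _ hca) hev
    · obtain ⟨s, hs1, hs2⟩ := halfA h (a := yy v θ0 (k + 1)) (b := yy v θ0 (k + 3))
        (c := c (k + 2)) (c' := c (k + 3)) d1 d2 (dist_yy v θ0 _) d3
        ((hnb (k + 1)).resolve_right (by
          have := hH.card
          show ¬ (T (yy v θ0 (k + 2))).ncard ≤ 3
          omega)) hca hH (hs.four hA3 hH hp hq).subset hev
      refine ⟨s, ?_, ?_, hs2⟩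
      · rcases hs1 with rfl | rfl
        · exact hp
        · exact hq
      · rcases hs1 with rfl | rfl
        · exact hH.hp
        · exact hH.hq
  choose t htA hty ht using hex
  refine ⟨t, htA, hty, fun k heq => ?_, ht⟩
  exact hs.adj h hA3 hg hnb (htA k) (hty k) (heq ▸ hty (k + 1))

/-- case B: missing colour `c (k + 1)` -/
theorem FD.caseB (h : Irr U T) (hA3 : A.ncard = 3) {θa θ0 : ℝ} {c : ℕ → Fin 6}
    (hd : FD T v A θa θ0 c) (hs : Hxs T A (yy v θ0) fun k => c (k + 1))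
    (hg : ∀ k, Good T A (yy v θ0 k))
    (hnb : ∀ k, (T (yy v θ0 k)).ncard ≤ 3 ∨ (T (yy v θ0 (k + 1))).ncard ≤ 3) :
    ∃ t : ℕ → Fin 6, (∀ k, t k ∈ A) ∧ (∀ k, t k ∈ T (yy v θ0 (k + 2))) ∧
      (∀ k, t k ≠ t (k + 1)) ∧
      ∀ k, ∀ᶠ g in 𝓝 v, t k ∈ Pal U g → dist g (yy v θ0 (k + 2)) ≤ 1 := by
  have hpi := Real.pi_gt_three
  have hex : ∀ k, ∃ t, t ∈ A ∧ t ∈ T (yy v θ0 (k + 2)) ∧
      ∀ᶠ g in 𝓝 v, t ∈ Pal U g → dist g (yy v θ0 (k + 2)) ≤ 1 := by
    intro k
    have hev : ∀ᶠ p in 𝓝 (yy v θ0 (k + 2)), c (k + 1) ∈ Pal U p →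
        1 ≤ dist p (yy v θ0 (k + 1)) := by
      refine Vale.Agent.P032.S5.H783.arcB h.mx (Q := (fun θ => yy v θ (k + 1)) '' Icc θa θ0)
        (a0 := yy v θa (k + 1))
        (isPreconnected_Icc.image _ (continuous_yy v (k + 1)).continuousOn) ?_
        ⟨θ0, ⟨hd.lt.le, le_rfl⟩, rfl⟩ ⟨θa, ⟨le_rfl, hd.lt.le⟩, rfl⟩ ?_
      · rintro _ ⟨θ, hθm, rfl⟩
        exact h.sub _ (hd.arc (k + 1) hθm)
      · apply dist_sq_gt dist_nonneg
        rw [dist_yy_add]
        have e1 : (θa - θ0) + (((k + 1 : ℕ) : ℝ) - ((k + 2 : ℕ) : ℝ)) * (Real.pi / 3) =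
            -(Real.pi / 3 + (θ0 - θa)) := by push_cast; ring
        rw [e1, Real.cos_neg]
        have e2 : Real.cos (Real.pi / 3 + (θ0 - θa)) < 1 / 2 := by
          have := hd.lt
          have := hd.le
          rw [← Real.cos_pi_div_three]
          apply Real.cos_lt_cos_of_nonneg_of_le_pi <;> linarith
        linarith
    have hca : c (k + 2) ∈ T (yy v θ0 (k + 3)) :=
      (hs.mem (k + 3) _ (hd.notA _)).2 (hd.ne2 (k + 2))
    have d1 : dist v (yy v θ0 (k + 3)) = 1 := by rw [dist_comm]; exact dist_yy v θ0 _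
    have d2 : dist (yy v θ0 (k + 2)) (yy v θ0 (k + 3)) = 1 := dist_yy_succ v θ0 (k + 2)
    have d3 : yy v θ0 (k + 1) = v + yy v θ0 (k + 2) - yy v θ0 (k + 3) := by
      linear_combination yy_rel v θ0 (k + 1)
    rcases hg (k + 2) with h3 | ⟨p, q, hH, hp, hq⟩
    · obtain ⟨t, htA, ht⟩ := hs.ex h hA3 k
      refine ⟨t, htA, ht, ?_⟩
      refine fzB h (a := yy v θ0 (k + 3)) (b := yy v θ0 (k + 1)) (c := c (k + 2))
        (c' := c (k + 1)) d1 d2 (dist_yy v θ0 _) d3 ?_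
        (h.sub _ hca) hev
      rw [hs.three hA3 h3 htA ht]
      rintro i (h5 | h5 | h5)
      · exact Or.inr (Or.inl h5)
      · exact Or.inl h5
      · exact Or.inr (Or.inr h5)
    · obtain ⟨s, hs1, hs2⟩ := halfB h (a := yy v θ0 (k + 3)) (b := yy v θ0 (k + 1))
        (c := c (k + 2)) (c' := c (k + 1)) d1 d2 (dist_yy v θ0 _) d3
        ((hnb (k + 2)).resolve_left (by
          have := hH.card
          show ¬ (T (yy v θ0 (k + 2))).ncard ≤ 3
          omega)) hca hH (by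
            rw [hs.four hA3 hH hp hq]
            rintro i (h5 | h5 | h5 | h5)
            · exact Or.inr (Or.inl h5)
            · exact Or.inl h5
            · exact Or.inr (Or.inr (Or.inl h5))
            · exact Or.inr (Or.inr (Or.inr h5))) hev
      refine ⟨s, ?_, ?_, hs2⟩
      · rcases hs1 with rfl | rfl
        · exact hp
        · exact hq
      · rcases hs1 with rfl | rfl
        · exact hH.hp
        · exact hH.hq
  choose t htA hty ht using hex
  refine ⟨t, htA, hty, fun k heq => ?_, ht⟩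
  exact hs.adj h hA3 hg hnb (htA k) (hty k) (heq ▸ hty (k + 1))

end Vale.Agent.P032.H175
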