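import Vale.Agent.P032.S5.H175.FrozenHH

/-!
# P032: frozen circles at a virtual face with harmless points on the circle
-/

open Set Filter Topology Metric

noncomputable section

namespace Vale.Agent.P032.H175

open Vale.Agent.P032.Six
open Vale.Agent.P032.S5.H783 (circ_param pt pt_zero continuous_pt dist_pt_a dist_pt_y
  dist_pt_y_le dist_pt_v dist_pt_b cis_add cis_zero norm_cis_sub_le yy dist_yy yy_succ yy_rel
  dist_yy_succ yy_not_line three_cover yy_shift continuous_yy dist_yy_add dist_sq_lt dist_sq_gt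
  dist_cis_sub ip dist_sq_ip ip_sum ip_sq_sum)
open Vale.Agent.P032.H180 (Frz om)

variable {U : Fin 6 → Set ℂ} {T : ℂ → Set (Fin 6)}

/-- three colours or harmless with the pair `F` -/
def HZ (T : ℂ → Set (Fin 6)) (u : ℂ) (F : Set (Fin 6)) : Prop :=
  (T u).ncard ≤ 3 ∨ ∃ p q, Harm T u p q ∧ F = {p, q}

theorem nsub_one (h : Irr U T) {u : ℂ} {F : Set (Fin 6)} (hu : HZ T u F) {f : Fin 6}
    (hf : f ∈ T u) {w : ℂ} (hw : dist w u = 1) : ¬ T w ⊆ {f} := by
  intro hs
  have hs' : T w ⊆ T u := fun m hm => by rw [hs hm]; exact hf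
  rcases hu with h3 | ⟨p, q, hH, -⟩
  · exact h.not_sub hw h3 hs'
  · obtain ⟨h1, h2⟩ := hH.H1 w hw hs'
    have e1 : p = f := hs h1
    have e2 : q = f := hs h2
    exact hH.ne (e1.trans e2.symm)

theorem HZ.rel (h : Irr U T) {u : ℂ} {F : Set (Fin 6)} (hu : HZ T u F) {p : ℂ}
    (hp : ¬ F ⊆ T p) : Rel T u p := by
  rcases hu with h3 | ⟨a, b, hH, rfl⟩
  · exact rel_of_three h h3 p
  · refine rel_of_harm hH fun h1 => hp ?_
    rintro i (rfl | rfl)
    · exact h1.1
    · exact h1.2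

/-- a half arc of `S(a)` outside `cl D(b)` with colour `t` -/
theorem halfTA (h : Irr U T) {v y a b : ℂ} {t : Fin 6} (h1 : dist v a = 1)
    (h2 : dist y a = 1) (h3 : dist y v = 1) (hb : b = v + y - a)
    (hw : ∀ᶠ w in 𝓝 y, dist w a = 1 → 1 < dist w b → t ∈ T w) :
    ∀ᶠ g in 𝓝 v, t ∈ Pal U g → 1 ≤ dist g y := by
  obtain ⟨κ, hκ, hv⟩ := circ_param h1 h2 h3
  obtain ⟨r, hr, hrp⟩ := Metric.eventually_nhds_iff.1 hw
  set η := min (r / 2) 1 with hη
  have hη0 : 0 < η := lt_min (by linarith) one_pos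
  have hηr : η < r := (min_le_left _ _).trans_lt (by linarith)
  have hη1 : η ≤ 1 := min_le_right _ _
  have hpi := Real.pi_gt_three
  -- outward points
  have hout : ∀ δ, -η ≤ δ → δ < 0 → 1 < dist (pt a y κ δ) v := by
    intro δ hδ1 hδ2
    have e1 := dist_pt_v h2 hκ hv δ
    have e2 : Real.cos (δ - Real.pi / 3) < 1 / 2 := by
      rw [← Real.cos_pi_div_three, ← Real.cos_neg (δ - Real.pi / 3)]
      apply Real.cos_lt_cos_of_nonneg_of_le_pi
      · positivity
      · linarith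
      · linarith
    have e3 := dist_nonneg (x := pt a y κ δ) (y := v)
    nlinarith
  have hs2 : ∀ δ, -η ≤ δ → δ < 0 → t ∈ T (pt a y κ δ) := by
    intro δ hδ1 hδ2
    have hwa : dist (pt a y κ δ) a = 1 := dist_pt_a h2 κ δ
    have hwb : 1 < dist (pt a y κ δ) b := by
      have e1 := dist_pt_b h1 h2 h3 hwa
      rw [← hb] at e1
      have e0 := hout δ hδ1 hδ2
      have e2 := dist_nonneg (x := pt a y κ δ) (y := b)
      have e3 := sq_nonneg (dist (pt a y κ δ) y)
      nlinarith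
    have hwy : dist (pt a y κ δ) y < r := by
      refine (dist_pt_y_le h2 hκ δ).trans_lt ?_
      rw [abs_of_neg hδ2]; linarith
    exact hrp hwy hwa hwb
  have hcl : IsClosed {δ : ℝ | t ∈ T (pt a y κ δ)} :=
    (h.closed t).preimage (continuous_pt a y κ)
  have hs3 : Icc (-η) 0 ⊆ {δ : ℝ | t ∈ T (pt a y κ δ)} := by
    have h5 : Ico (-η) 0 ⊆ {δ : ℝ | t ∈ T (pt a y κ δ)} := fun δ hδ => hs2 δ hδ.1 hδ.2
    have h6 := hcl.closure_subset_iff.2 h5
    rwa [closure_Ico (by linarith : (-η) ≠ 0)] at h6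
  have hev1 : ∀ᶠ g in 𝓝 v, 1 < dist (pt a y κ (-η)) g :=
    (continuous_const.dist continuous_id).continuousAt.eventually
      (Ioi_mem_nhds (hout (-η) le_rfl (by linarith)))
  filter_upwards [hev1] with g hg hsg
  by_contra hcon
  push Not at hcon
  refine h.mx.wlemma (Q := pt a y κ '' Icc (-η) 0)
    (isPreconnected_Icc.image _ (continuous_pt a y κ).continuousOn) ?_
    (a := y) (b := pt a y κ (-η)) ⟨0, ⟨by linarith, le_rfl⟩, pt_zero a y κ⟩
    ⟨-η, ⟨le_rfl, by linarith⟩, rfl⟩ (by rw [dist_comm]; exact hcon) hg hsg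
  rintro _ ⟨δ, hδ, rfl⟩
  exact h.sub _ (hs3 hδ)

/-- points on the half arc outside `cl D(b)` -/
theorem brA {v y a b : ℂ} (h1 : dist v a = 1)
    (h2 : dist y a = 1) (h3 : dist y v = 1) (hb : b = v + y - a) :
    ∃ᶠ w in 𝓝 y, dist w a = 1 ∧ 1 < dist w b := by
  obtain ⟨κ, hκ, hv⟩ := circ_param h1 h2 h3
  rw [Metric.nhds_basis_ball.frequently_iff]
  intro r hr
  set η := min (r / 2) 1 with hη
  have hη0 : 0 < η := lt_min (by linarith) one_pos
  have hηr : η < r := (min_le_left _ _).trans_lt (by linarith)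
  have hη1 : η ≤ 1 := min_le_right _ _
  have hpi := Real.pi_gt_three
  have hout : 1 < dist (pt a y κ (-η)) v := by
    have e1 := dist_pt_v h2 hκ hv (-η)
    have e2 : Real.cos (-η - Real.pi / 3) < 1 / 2 := by
      rw [← Real.cos_pi_div_three, ← Real.cos_neg (-η - Real.pi / 3)]
      apply Real.cos_lt_cos_of_nonneg_of_le_pi
      · positivity
      · linarith
      · linarith
    have e3 := dist_nonneg (x := pt a y κ (-η)) (y := v)
    nlinarith
  have hwa : dist (pt a y κ (-η)) a = 1 := dist_pt_a h2 κ (-η)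
  refine ⟨pt a y κ (-η), ?_, hwa, ?_⟩
  · rw [Metric.mem_ball]
    refine (dist_pt_y_le h2 hκ (-η)).trans_lt ?_
    rw [abs_neg, abs_of_pos hη0]; linarith
  · have e1 := dist_pt_b h1 h2 h3 hwa
    rw [← hb] at e1
    have e2 := dist_nonneg (x := pt a y κ (-η)) (y := b)
    have e3 := sq_nonneg (dist (pt a y κ (-η)) y)
    nlinarith

theorem inb_aux {v y a b : ℂ} {κ : ℝ} (h1 : dist v a = 1)
    (h2 : dist y a = 1) (h3 : dist y v = 1) (hb : b = v + y - a) (hκ : κ = 1 ∨ κ = -1)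
    (hv : v - a = (y - a) * cis (κ * (Real.pi / 3))) {δ : ℝ} (hδ1 : 0 < δ) (hδ2 : δ ≤ 1) :
    dist (pt a y κ δ) v < 1 ∧ dist (pt a y κ δ) b < 1 := by
  have hpi := Real.pi_gt_three
  have hin : dist (pt a y κ δ) v < 1 := by
    have e1 := dist_pt_v h2 hκ hv δ
    have e2 : 1 / 2 < Real.cos (δ - Real.pi / 3) := by
      rw [← Real.cos_pi_div_three, ← Real.cos_neg (δ - Real.pi / 3)]
      apply Real.cos_lt_cos_of_nonneg_of_le_pi
      · linarith
      · linarith
      · linarith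
    have e3 := dist_nonneg (x := pt a y κ δ) (y := v)
    nlinarith
  refine ⟨hin, ?_⟩
  have e1 := dist_pt_v h2 hκ hv δ
  have e2 := dist_pt_y h2 hκ δ
  have e3 := dist_pt_b h1 h2 h3 (dist_pt_a h2 κ δ)
  rw [← hb] at e3
  have e4 : 3 / 2 < Real.cos δ + Real.cos (δ - Real.pi / 3) := by
    have e5 : Real.cos δ + Real.cos (δ - Real.pi / 3) =
        2 * Real.cos (δ - Real.pi / 6) * Real.cos (Real.pi / 6) := by
      have e6 : Real.cos δ = Real.cos (δ - Real.pi / 6) * Real.cos (Real.pi / 6) -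
          Real.sin (δ - Real.pi / 6) * Real.sin (Real.pi / 6) := by
        rw [← Real.cos_add]; congr 1; ring
      have e7 : Real.cos (δ - Real.pi / 3) =
          Real.cos (δ - Real.pi / 6) * Real.cos (Real.pi / 6) +
          Real.sin (δ - Real.pi / 6) * Real.sin (Real.pi / 6) := by
        rw [← Real.cos_sub]; congr 1; ring
      rw [e6, e7]; ring
    have e8 : Real.cos (Real.pi / 6) < Real.cos (δ - Real.pi / 6) := by
      rw [← Real.cos_abs (δ - Real.pi / 6)]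
      apply Real.cos_lt_cos_of_nonneg_of_le_pi (abs_nonneg _) (by linarith)
      rw [abs_lt]; constructor <;> linarith
    rw [e5]
    rw [Real.cos_pi_div_six] at *
    have hs : Real.sqrt 3 ^ 2 = 3 := Real.sq_sqrt (by norm_num)
    have hs0 : 0 < Real.sqrt 3 := Real.sqrt_pos.2 (by norm_num)
    nlinarith
  have e9 := dist_nonneg (x := pt a y κ δ) (y := b)
  nlinarith

/-- a half arc of `S(a)` inside `D(b)` with colour `t` -/
theorem halfTB (h : Irr U T) {v y a b : ℂ} {t : Fin 6} (h1 : dist v a = 1)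
    (h2 : dist y a = 1) (h3 : dist y v = 1) (hb : b = v + y - a)
    (hw : ∀ᶠ w in 𝓝 y, dist w a = 1 → dist w b < 1 → t ∈ T w) :
    ∀ᶠ g in 𝓝 v, t ∈ Pal U g → dist g y ≤ 1 := by
  obtain ⟨κ, hκ, hv⟩ := circ_param h1 h2 h3
  obtain ⟨r, hr, hrp⟩ := Metric.eventually_nhds_iff.1 hw
  set η := min (r / 2) 1 with hη
  have hη0 : 0 < η := lt_min (by linarith) one_pos
  have hηr : η < r := (min_le_left _ _).trans_lt (by linarith)
  have hη1 : η ≤ 1 := min_le_right _ _
  have hs2 : ∀ δ, 0 < δ → δ ≤ η → t ∈ T (pt a y κ δ) := by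
    intro δ hδ1 hδ2
    have hwa : dist (pt a y κ δ) a = 1 := dist_pt_a h2 κ δ
    have hwy : dist (pt a y κ δ) y < r := by
      refine (dist_pt_y_le h2 hκ δ).trans_lt ?_
      rw [abs_of_pos hδ1]; linarith
    exact hrp hwy hwa (inb_aux h1 h2 h3 hb hκ hv hδ1 (hδ2.trans hη1)).2
  have hcl : IsClosed {δ : ℝ | t ∈ T (pt a y κ δ)} :=
    (h.closed t).preimage (continuous_pt a y κ)
  have hs3 : Icc 0 η ⊆ {δ : ℝ | t ∈ T (pt a y κ δ)} := by
    have h5 : Ioc 0 η ⊆ {δ : ℝ | t ∈ T (pt a y κ δ)} := fun δ hδ => hs2 δ hδ.1 hδ.2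
    have h6 := hcl.closure_subset_iff.2 h5
    rwa [closure_Ioc hη0.ne] at h6
  have hev1 : ∀ᶠ g in 𝓝 v, dist (pt a y κ η) g < 1 :=
    (continuous_const.dist continuous_id).continuousAt.eventually
      (Iio_mem_nhds (inb_aux h1 h2 h3 hb hκ hv hη0 hη1).1)
  filter_upwards [hev1] with g hg hsg
  by_contra hcon
  push Not at hcon
  refine h.mx.wlemma (Q := pt a y κ '' Icc 0 η)
    (isPreconnected_Icc.image _ (continuous_pt a y κ).continuousOn) ?_
    (a := pt a y κ η) (b := y) ⟨η, ⟨hη0.le, le_rfl⟩, rfl⟩ ⟨0, ⟨le_rfl, hη0.le⟩, pt_zero a y κ⟩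
    hg (by rw [dist_comm]; exact hcon) hsg
  rintro _ ⟨δ, hδ, rfl⟩
  exact h.sub _ (hs3 hδ)

/-- points on the half arc inside `D(b)` -/
theorem brB {v y a b : ℂ} (h1 : dist v a = 1)
    (h2 : dist y a = 1) (h3 : dist y v = 1) (hb : b = v + y - a) :
    ∃ᶠ w in 𝓝 y, dist w a = 1 ∧ dist w b < 1 := by
  obtain ⟨κ, hκ, hv⟩ := circ_param h1 h2 h3
  rw [Metric.nhds_basis_ball.frequently_iff]
  intro r hr
  set η := min (r / 2) 1 with hη
  have hη0 : 0 < η := lt_min (by linarith) one_pos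
  have hηr : η < r := (min_le_left _ _).trans_lt (by linarith)
  have hη1 : η ≤ 1 := min_le_right _ _
  refine ⟨pt a y κ η, ?_, dist_pt_a h2 κ η, (inb_aux h1 h2 h3 hb hκ hv hη0 hη1).2⟩
  rw [Metric.mem_ball]
  refine (dist_pt_y_le h2 hκ η).trans_lt ?_
  rw [abs_of_pos hη0]; linarith

/-- both versions -/
theorem halfT (h : Irr U T) {ε : ℝ} (hε : ε = 1 ∨ ε = -1) {v y a b : ℂ} {t : Fin 6}
    (h1 : dist v a = 1) (h2 : dist y a = 1) (h3 : dist y v = 1) (hb : b = v + y - a)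
    (hw : ∀ᶠ w in 𝓝 y, dist w a = 1 → 0 < ε * (dist w b - 1) → t ∈ T w) :
    ∀ᶠ g in 𝓝 v, t ∈ Pal U g → 0 ≤ ε * (dist g y - 1) := by
  rcases hε with rfl | rfl
  · have := halfTA h (t := t) h1 h2 h3 hb (hw.mono fun w h5 h6 h7 => h5 h6 (by linarith))
    exact this.mono fun g h5 h6 => by have := h5 h6; linarith
  · have := halfTB h (t := t) h1 h2 h3 hb (hw.mono fun w h5 h6 h7 => h5 h6 (by linarith))
    exact this.mono fun g h5 h6 => by have := h5 h6; linarith

theorem brT {ε : ℝ} (hε : ε = 1 ∨ ε = -1) {v y a b : ℂ} (h1 : dist v a = 1)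
    (h2 : dist y a = 1) (h3 : dist y v = 1) (hb : b = v + y - a) :
    ∃ᶠ w in 𝓝 y, dist w a = 1 ∧ 0 < ε * (dist w b - 1) := by
  rcases hε with rfl | rfl
  · exact (brA h1 h2 h3 hb).mono fun w h5 => ⟨h5.1, by linarith [h5.2]⟩
  · exact (brB h1 h2 h3 hb).mono fun w h5 => ⟨h5.1, by linarith [h5.2]⟩

/-- **The core of the virtual case.** -/
theorem virt_core (h : Irr U T) {ε : ℝ} (hε : ε = 1 ∨ ε = -1) {v : ℂ} {A : Set (Fin 6)}
    {a b e f : Fin 6} (hA3 : A.ncard = 3) (hH : Harm T v a b) (ha : a ∈ A) (hb : b ∉ A)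
    (he : e ∉ A) (hf : f ∉ A) (hbe : b ≠ e) (hef : e ≠ f) (hbf : b ≠ f) (hTv : T v = insert b A)
    {Pm P0 P1 P2 P3 : ℂ} (d0 : dist P0 v = 1) (d1 : dist P1 v = 1)
    (d2 : dist P2 v = 1) (dm0 : dist Pm P0 = 1) (d01 : dist P0 P1 = 1)
    (d12 : dist P1 P2 = 1) (d23 : dist P2 P3 = 1) (r2 : P2 = v + P1 - P0)
    (r3 : P3 = v + P2 - P1)
    (nl1 : ¬ (Pm = P1 ∨ Pm + P1 = 2 * P0)) (nl2 : ¬ (P1 = P3 ∨ P1 + P3 = 2 * P2))
    (t0 : ∀ i, i ∉ A → (i ∈ T P0 ↔ i ≠ f)) (t1 : ∀ i, i ∉ A → (i ∈ T P1 ↔ i ≠ b))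
    (t2 : ∀ i, i ∉ A → (i ∈ T P2 ↔ i ≠ e)) (t3 : ∀ i, i ∉ A → (i ∈ T P3 ↔ i ≠ f))
    (tm : b ∈ T Pm) (a0 : a ∈ T P0) (a3 : a ∈ T P3) {F : ℂ → Set (Fin 6)} (hFv : F v = {a, b})
    (z0 : HZ T P0 (F P0)) (z1 : HZ T P1 (F P1)) (z2 : HZ T P2 (F P2)) (z3 : HZ T P3 (F P3))
    (nab : 4 ≤ (T P3).ncard → F P3 ≠ {a, b})
    (hup : ∀ y y', (y = v ∨ dist y v = 1) → (y' = v ∨ dist y' v = 1) → dist y y' = 1 →
      4 ≤ (T y).ncard → 4 ≤ (T y').ncard → T y \ F y ⊆ T y' → T y \ F y = F y')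
    (ra : ∀ᶠ w in 𝓝 P2, a ∈ Pal U w → ε * (dist w P3 - 1) ≤ 0)
    (rb : ∀ᶠ w in 𝓝 P2, b ∈ Pal U w → ε * (dist w P3 - 1) ≤ 0)
    (rf : ∀ᶠ w in 𝓝 P1, f ∈ Pal U w → ε * (dist w P2 - 1) ≤ 0) :
    ∃ x x', (∀ i ∈ A, i = a ∨ i = x ∨ i = x') ∧
      (∀ᶠ g in 𝓝 v, x ∈ Pal U g → 0 ≤ ε * (dist g P2 - 1)) ∧
      (∀ᶠ g in 𝓝 v, x' ∈ Pal U g → 0 ≤ ε * (dist g P1 - 1)) := by
  have hv4 : 4 ≤ (T v).ncard := hH.card.ge
  have cov : ∀ i, i ∉ A → i = b ∨ i = e ∨ i = f := fun i hi =>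
    covA hA3 hb he hf hbe hef hbf hi
  have hab : a ≠ b := fun h5 => hb (h5 ▸ ha)
  have haf : a ≠ f := fun h5 => hf (h5 ▸ ha)
  -- (1)
  have hb2 : b ∈ T P2 := (t2 b hb).2 hbe
  have hf2 : f ∈ T P2 := (t2 f hf).2 hef.symm
  have hf1 : f ∈ T P1 := (t1 f hf).2 hbf.symm
  have he1 : e ∈ T P1 := (t1 e he).2 hbe.symm
  have he0 : e ∈ T P0 := (t0 e he).2 hef
  have hb0 : b ∈ T P0 := (t0 b hb).2 hbf
  have hb3 : b ∈ T P3 := (t3 b hb).2 hbf
  have hf3 : f ∉ T P3 := fun h5 => (t3 f hf).1 h5 rfl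
  have hf0 : f ∉ T P0 := fun h5 => (t0 f hf).1 h5 rfl
  have ha2 : a ∈ T P2 := by
    by_contra hcon
    have hr : Rel T v P2 := rel_of_harm hH fun h5 => hcon h5.1
    have hsub : T P2 ⊆ insert f (T v) := by
      intro i hi
      rw [hTv]
      by_cases hiA : i ∈ A
      · exact Or.inr (Or.inr hiA)
      · rcases cov i hiA with h5 | h5 | h5
        · exact Or.inr (Or.inl h5)
        · exact absurd h5 ((t2 i hiA).1 hi)
        · exact Or.inl h5
    rcases hr.line h d2 hsub (by rw [dist_comm]; exact d12) (h.sub _ hf1) with h5 | h5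
    · rw [h5, dist_self] at d1; norm_num at d1
    · have h6 : P1 - v = 2 * (P2 - v) := by linear_combination h5
      rw [dist_eq_norm, h6, norm_mul, ← dist_eq_norm, d2] at d1
      norm_num at d1
  -- (2)
  obtain ⟨x, hxA, hxa, hx2⟩ : ∃ x ∈ A, x ≠ a ∧ x ∈ T P2 := by
    by_contra hcon
    push Not at hcon
    have key : ∀ i, i ∈ T P2 → i ∈ T P3 → i = a ∨ i = b := by
      intro i hi hi3
      by_cases hiA : i ∈ A
      · left
        by_contra hia
        exact hcon i hiA hia hi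
      · rcases cov i hiA with h7 | h7 | h7
        · exact Or.inr h7
        · exact absurd h7 ((t2 i hiA).1 hi)
        · exact absurd h7 ((t3 i hiA).1 hi3)
    have hr : Rel T P3 P2 := by
      rcases z3 with h6 | ⟨p, q, hH3, hF3⟩
      · exact rel_of_three h h6 _
      · refine rel_of_harm hH3 fun h5 => nab hH3.card.ge ?_
        rw [hF3]
        rcases key p h5.1 hH3.hp with h7 | h7 <;> rcases key q h5.2 hH3.hq with h8 | h8
        · exact absurd (h7.trans h8.symm) hH3.ne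
        · rw [h7, h8]
        · rw [h7, h8, Set.pair_comm]
        · exact absurd (h7.trans h8.symm) hH3.ne
    have hsub : T P2 ⊆ insert f (T P3) := by
      intro i hi
      by_cases hiA : i ∈ A
      · have : i = a := by
          by_contra hia
          exact hcon i hiA hia hi
        rw [this]; exact Or.inr a3
      · rcases cov i hiA with h7 | h7 | h7
        · rw [h7]; exact Or.inr hb3
        · exact absurd h7 ((t2 i hiA).1 hi)
        · exact Or.inl h7
    exact nl2 (hr.line h d23 hsub (by rw [dist_comm]; exact d12) (h.sub _ hf1))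
  -- the third colour of `A`
  obtain ⟨x', hx'A, hx'a, hx'x, hcovA⟩ : ∃ x' ∈ A, x' ≠ a ∧ x' ≠ x ∧
      ∀ i ∈ A, i = a ∨ i = x ∨ i = x' := by
    have h5 : (A \ {a, x}).ncard = 1 := by
      rw [Set.ncard_sdiff (by rintro i (rfl | rfl) <;> assumption) (Set.toFinite _), hA3,
        Set.ncard_pair hxa.symm]
    obtain ⟨x', hx'⟩ := Set.ncard_eq_one.1 h5
    have h6 : x' ∈ A \ {a, x} := by rw [hx']; exact rfl
    refine ⟨x', h6.1, fun h7 => h6.2 (Or.inl h7), fun h7 => h6.2 (Or.inr h7), fun i hi => ?_⟩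
    by_contra hcon
    push Not at hcon
    have h7 : i ∈ A \ {a, x} := ⟨hi, by rintro (h8 | h8); exacts [hcon.1 h8, hcon.2.1 h8]⟩
    rw [hx'] at h7
    exact hcon.2.2 h7
  have hbx : b ≠ x := fun h5 => hb (h5 ▸ hxA)
  have hfx : f ≠ x := fun h5 => hf (h5 ▸ hxA)
  have hfx' : f ≠ x' := fun h5 => hf (h5 ▸ hx'A)
  have hex : e ≠ x := fun h5 => he (h5 ▸ hxA)
  have hea : e ≠ a := fun h5 => he (h5 ▸ ha)
  -- the palette of `P2`
  have hTP2 : ∀ i ∈ T P2, i = a ∨ i = b ∨ i = f ∨ i = x := by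
    have hle : (T P2).ncard ≤ 4 := by
      rcases z2 with h5 | ⟨p, q, hH2, -⟩
      · omega
      · exact hH2.card.le
    have h5 : ({a, b, f, x} : Set (Fin 6)) = T P2 := by
      apply Set.eq_of_subset_of_ncard_le
      · rintro i (rfl | rfl | rfl | rfl) <;> assumption
      · refine hle.trans (le_of_eq ?_)
        rw [Set.ncard_insert_of_notMem, Set.ncard_insert_of_notMem, Set.ncard_pair hfx]
        · rintro (h6 | h6)
          · exact hbf h6
          · exact hbx h6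
        · rintro (h6 | h6 | h6)
          · exact hab h6
          · exact haf h6
          · exact hxa h6.symm
      · exact Set.toFinite _
    intro i hi
    rw [← h5] at hi
    exact hi
  -- (3)
  have hd12 : dist P2 P1 = 1 := by rw [dist_comm]; exact d12
  have hd1v : dist v P1 = 1 := by rw [dist_comm]; exact d1
  have hd0v : dist v P0 = 1 := by rw [dist_comm]; exact d0
  have hd10 : dist P1 P0 = 1 := by rw [dist_comm]; exact d01
  have hbr2 : ∀ᶠ w in 𝓝 P2, dist w P1 = 1 → 0 < ε * (dist w P3 - 1) → T w ⊆ {f, x} := by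
    filter_upwards [ra, rb, h.nhd P2] with w h5 h6 h7 _ h8 i hi
    rcases hTP2 i (h7 hi) with h9 | h9 | h9 | h9
    · have := h5 (h.sub w (h9 ▸ hi)); linarith
    · have := h6 (h.sub w (h9 ▸ hi)); linarith
    · exact Or.inl h9
    · exact Or.inr h9
  have hx3 : ∀ᶠ g in 𝓝 v, x ∈ Pal U g → 0 ≤ ε * (dist g P2 - 1) := by
    refine halfT h hε hd1v hd12 d2 r3 (hbr2.mono fun w h5 h6 h7 => ?_)
    have h8 := h5 h6 h7
    by_contra hcon
    refine nsub_one h z1 hf1 h6 fun i hi => ?_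
    rcases h8 hi with h9 | h9
    · exact h9
    · exact absurd (h9 ▸ hi) hcon
  -- the pair of `P0` is not `a, e`
  have hF0 : 4 ≤ (T P0).ncard → F P0 ≠ {a, e} := by
    intro h4 h5
    -- a second colour of `A` in `T P0`
    have h6 : T P0 \ F P0 ⊆ T v := by
      rw [h5, hTv]
      rintro i ⟨hi, hi'⟩
      by_cases hiA : i ∈ A
      · exact Or.inr hiA
      · rcases cov i hiA with h7 | h7 | h7
        · exact Or.inl h7
        · exact absurd (Or.inr h7) hi'
        · exact absurd h7 ((t0 i hiA).1 hi)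
    have h7 := hup P0 v (Or.inr d0) (Or.inl rfl) d0 h4 hv4 h6
    rw [hFv, h5] at h7
    have h8 : a ∈ T P0 \ {a, e} := by rw [h7]; exact Or.inl rfl
    exact h8.2 (Or.inl rfl)
  -- (4)
  have hx1 : x ∉ T P1 := by
    intro hx1
    obtain ⟨w, ⟨hw1, hw2⟩, hw3⟩ := ((brT hε hd1v hd12 d2 r3).and_eventually hbr2).exists
    have hw4 := hw3 hw1 hw2
    have hw5 : T w ⊆ T P1 := by
      intro i hi
      rcases hw4 hi with h9 | h9
      · rw [h9]; exact hf1
      · rw [h9]; exact hx1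
    rcases z1 with h6 | ⟨p, q, hH1, hF1⟩
    · exact h.not_sub hw1 h6 hw5
    · obtain ⟨hp, hq⟩ := hH1.H1 w hw1 hw5
      have hF1' : F P1 = {f, x} := by
        rw [hF1]
        rcases hw4 hp with h7 | h7 <;> rcases hw4 hq with h8 | h8
        · exact absurd (h7.trans h8.symm) hH1.ne
        · have h7 : p = f := h7
          have h8 : q = x := h8
          rw [h7, h8]
        · have h7 : p = x := h7
          have h8 : q = f := h8
          rw [h7, h8, Set.pair_comm]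
        · exact absurd (h7.trans h8.symm) hH1.ne
      have h41 : 4 ≤ (T P1).ncard := hH1.card.ge
      -- the other colour of `A` at `P1` is not `x'`
      have hx'1 : x' ∉ T P1 := by
        intro h7
        have h8 : T v \ F v ⊆ T P1 := by
          rw [hFv, hTv]
          rintro i ⟨hi | hi, hi'⟩
          · exact absurd (Or.inr hi) hi'
          · rcases hcovA i hi with h9 | h9 | h9
            · exact absurd (Or.inl h9) hi'
            · rw [h9]; exact hx1
            · rw [h9]; exact h7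
        have h9 := hup v P1 (Or.inl rfl) (Or.inr d1) hd1v hv4 h41 h8
        rw [hF1'] at h9
        have h10 : f ∈ T v \ F v := by rw [h9]; exact Or.inl rfl
        have h11 := h10.1
        rw [hTv] at h11
        rcases h11 with h12 | h12
        · exact hbf h12.symm
        · exact hf h12
      -- `T P1 ⊆ {a, e, f, x}`
      have hT1 : ∀ i ∈ T P1, i = a ∨ i = e ∨ i = f ∨ i = x := by
        intro i hi
        by_cases hiA : i ∈ A
        · rcases hcovA i hiA with h9 | h9 | h9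
          · exact Or.inl h9
          · exact Or.inr (Or.inr (Or.inr h9))
          · exact absurd (h9 ▸ hi) hx'1
        · rcases cov i hiA with h9 | h9 | h9
          · exact absurd h9 ((t1 i hiA).1 hi)
          · exact Or.inr (Or.inl h9)
          · exact Or.inr (Or.inr (Or.inl h9))
      have ha1 : a ∈ T P1 := by
        by_contra h7
        have h8 : T P1 ⊆ {e, f, x} := by
          intro i hi
          rcases hT1 i hi with h9 | h9 | h9 | h9
          · exact absurd (h9 ▸ hi) h7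
          · exact Or.inl h9
          · exact Or.inr (Or.inl h9)
          · exact Or.inr (Or.inr h9)
        have h9 := Set.ncard_le_ncard h8 (Set.toFinite _)
        have h10 : ({e, f, x} : Set (Fin 6)).ncard ≤ 3 := (Set.ncard_insert_le _ _).trans (by
          have := Set.ncard_insert_le f {x}
          rw [Set.ncard_singleton] at this
          omega)
        omega
      have hsubC : T P1 \ F P1 ⊆ T P0 := by
        rw [hF1']
        rintro i ⟨hi, hi'⟩
        rcases hT1 i hi with h9 | h9 | h9 | h9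
        · rw [h9]; exact a0
        · rw [h9]; exact he0
        · exact absurd (Or.inl h9) hi'
        · exact absurd (Or.inr h9) hi'
      rcases z0 with h30 | ⟨p', q', hH0, hF0'⟩
      · -- three colours at `P0`
        have hT0 : ({a, b, e} : Set (Fin 6)) = T P0 := by
          apply Set.eq_of_subset_of_ncard_le
          · rintro i (rfl | rfl | rfl) <;> assumption
          · refine h30.trans (le_of_eq ?_)
            rw [Set.ncard_insert_of_notMem, Set.ncard_pair hbe]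
            rintro (h6 | h6)
            · exact hab h6
            · exact hea h6.symm
          · exact Set.toFinite _
        have hr : Rel T P1 P0 := by
          refine rel_of_harm hH1 fun h7 => ?_
          have h8 : f ∈ F P1 := by rw [hF1']; exact Or.inl rfl
          rw [hF1] at h8
          rcases h8 with h9 | h9
          · exact hf0 (h9 ▸ h7.1)
          · exact hf0 (h9 ▸ h7.2)
        have hsub : T P0 ⊆ insert b (T P1) := by
          rw [← hT0]
          rintro i (h6 | h6 | h6)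
          · rw [h6]; exact Or.inr ha1
          · exact Or.inl h6
          · rw [h6]; exact Or.inr he1
        exact nl1 (hr.line h d01 hsub (by rw [dist_comm]; exact dm0) (h.sub _ tm))
      · have h40 : 4 ≤ (T P0).ncard := hH0.card.ge
        have h7 := hup P1 P0 (Or.inr d1) (Or.inr d0) hd10 h41 h40 hsubC
        refine hF0 h40 ?_
        rw [← h7, hF1']
        ext i
        constructor
        · rintro ⟨hi, hi'⟩
          rcases hT1 i hi with h9 | h9 | h9 | h9
          · exact Or.inl h9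
          · exact Or.inr h9
          · exact absurd (Or.inl h9) hi'
          · exact absurd (Or.inr h9) hi'
        · rintro (h9 | h9)
          · rw [h9]
            refine ⟨ha1, ?_⟩
            rintro (h10 | h10)
            · exact haf h10
            · exact hxa h10.symm
          · have h9 : i = e := h9
            rw [h9]
            refine ⟨he1, ?_⟩
            rintro (h10 | h10)
            · exact hef h10
            · exact hex h10
  -- (5)
  refine ⟨x, x', hcovA, hx3, ?_⟩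
  refine halfT h hε hd0v hd10 d1 r2 ?_
  filter_upwards [rf, h.nhd P1] with w h5 h6 h7 h8
  by_contra hcon
  have hw4 : T w ⊆ {a, e} := by
    intro i hi
    by_cases hiA : i ∈ A
    · rcases hcovA i hiA with h9 | h9 | h9
      · exact Or.inl h9
      · exact absurd (h6 (h9 ▸ hi)) hx1
      · exact absurd (h9 ▸ hi) hcon
    · rcases cov i hiA with h9 | h9 | h9
      · exact absurd h9 ((t1 i hiA).1 (h6 hi))
      · exact Or.inr h9
      · have := h5 (h.sub w (h9 ▸ hi)); linarith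
  have hw5 : T w ⊆ T P0 := by
    intro i hi
    rcases hw4 hi with h9 | h9
    · rw [h9]; exact a0
    · rw [h9]; exact he0
  rcases z0 with h30 | ⟨p, q, hH0, hF0'⟩
  · exact h.not_sub h7 h30 hw5
  · obtain ⟨hp, hq⟩ := hH0.H1 w h7 hw5
    refine hF0 hH0.card.ge ?_
    rw [hF0']
    rcases hw4 hp with h9 | h9 <;> rcases hw4 hq with h10 | h10
    · exact absurd (h9.trans h10.symm) hH0.ne
    · have h9 : p = a := h9
      have h10 : q = e := h10
      rw [h9, h10]
    · have h9 : p = e := h9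
      have h10 : q = a := h10
      rw [h9, h10, Set.pair_comm]
    · exact absurd (h9.trans h10.symm) hH0.ne

theorem arcA_gen (h : Irr U T) {v : ℂ} {θa θ0 : ℝ} (hlt : θa < θ0) (hle : θ0 - θa ≤ 1 / 2)
    (k : ℕ) {i : Fin 6} (hi : ∀ θ ∈ Icc θa θ0, i ∈ T (yy v θ (k + 1))) :
    ∀ᶠ p in 𝓝 (yy v θ0 k), i ∈ Pal U p → dist p (yy v θ0 (k + 1)) ≤ 1 := by
  have hpi := Real.pi_gt_three
  refine Vale.Agent.P032.S5.H783.arcA h.mx (Q := (fun θ => yy v θ (k + 1)) '' Icc θa θ0)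
    (a0 := yy v θa (k + 1))
    (isPreconnected_Icc.image _ (continuous_yy v (k + 1)).continuousOn) ?_
    ⟨θ0, ⟨hlt.le, le_rfl⟩, rfl⟩ ⟨θa, ⟨le_rfl, hlt.le⟩, rfl⟩ ?_
  · rintro _ ⟨θ, hθm, rfl⟩
    exact h.sub _ (hi θ hθm)
  · apply dist_sq_lt dist_nonneg
    rw [dist_yy_add]
    have e1 : (θa - θ0) + (((k + 1 : ℕ) : ℝ) - (k : ℝ)) * (Real.pi / 3) =
        Real.pi / 3 - (θ0 - θa) := by push_cast; ring
    rw [e1]
    have e2 : 1 / 2 < Real.cos (Real.pi / 3 - (θ0 - θa)) := by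
      rw [← Real.cos_pi_div_three]
      apply Real.cos_lt_cos_of_nonneg_of_le_pi <;> linarith
    linarith

theorem arcB_gen (h : Irr U T) {v : ℂ} {θa θ0 : ℝ} (hlt : θa < θ0) (hle : θ0 - θa ≤ 1 / 2)
    (k : ℕ) {i : Fin 6} (hi : ∀ θ ∈ Icc θa θ0, i ∈ T (yy v θ k)) :
    ∀ᶠ p in 𝓝 (yy v θ0 (k + 1)), i ∈ Pal U p → 1 ≤ dist p (yy v θ0 k) := by
  have hpi := Real.pi_gt_three
  refine Vale.Agent.P032.S5.H783.arcB h.mx (Q := (fun θ => yy v θ k) '' Icc θa θ0)
    (a0 := yy v θa k)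
    (isPreconnected_Icc.image _ (continuous_yy v k).continuousOn) ?_
    ⟨θ0, ⟨hlt.le, le_rfl⟩, rfl⟩ ⟨θa, ⟨le_rfl, hlt.le⟩, rfl⟩ ?_
  · rintro _ ⟨θ, hθm, rfl⟩
    exact h.sub _ (hi θ hθm)
  · apply dist_sq_gt dist_nonneg
    rw [dist_yy_add]
    have e1 : (θa - θ0) + ((k : ℝ) - ((k + 1 : ℕ) : ℝ)) * (Real.pi / 3) =
        -(Real.pi / 3 + (θ0 - θa)) := by push_cast; ring
    rw [e1, Real.cos_neg]
    have e2 : Real.cos (Real.pi / 3 + (θ0 - θa)) < 1 / 2 := by
      rw [← Real.cos_pi_div_three]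
      apply Real.cos_lt_cos_of_nonneg_of_le_pi <;> linarith
    linarith

/-- no arc of points with the pair `a, b` ends in a harmless point with the pair `a, b` -/
theorem nab_of (h : Irr U T) {v : ℂ} {θa θ0 : ℝ} (hlt : θa < θ0) (hle : θ0 - θa ≤ 1 / 2) (i : ℕ)
    {a b : Fin 6} (hi : ∀ θ ∈ Icc θa θ0, a ∈ T (yy v θ i) ∧ b ∈ T (yy v θ i))
    (hH : Harm T (yy v θ0 i) a b) : False := by
  have hpi := Real.pi_gt_three
  have h1 : ∀ᶠ θ in 𝓝 θ0, a ∈ T (yy v θ i) → b ∈ T (yy v θ i) → 4 ≤ (T (yy v θ i)).ncard :=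
    (continuous_yy v i).continuousAt.eventually hH.H2
  obtain ⟨r, hr, hb⟩ := Metric.eventually_nhds_iff.1 h1
  set θ1 := max θa (θ0 - r / 2) with hθ1
  have h2 : θ1 < θ0 := max_lt hlt (by linarith)
  have h3 : θa ≤ θ1 := le_max_left _ _
  have h4 : θ0 - r / 2 ≤ θ1 := le_max_right _ _
  have h5 : (fun θ => yy v θ i) '' Icc θ1 θ0 ⊆ {x | 4 ≤ (T x).ncard} := by
    rintro _ ⟨θ, hθ, rfl⟩
    have h6 := hi θ ⟨h3.trans hθ.1, hθ.2⟩
    refine hb ?_ h6.1 h6.2
    rw [Real.dist_eq, abs_lt]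
    constructor <;> linarith [hθ.1, hθ.2]
  have h6 := h.td _ h5 (isPreconnected_Icc.image _ (continuous_yy v i).continuousOn)
    ⟨θ1, ⟨le_rfl, h2.le⟩, rfl⟩ ⟨θ0, ⟨h2.le, le_rfl⟩, rfl⟩
  have h7 := dist_yy_add v θ1 θ0 i i
  have h6 : yy v θ1 i = yy v θ0 i := h6
  rw [h6, dist_self] at h7
  have h8 : Real.cos ((θ1 - θ0) + ((i : ℝ) - i) * (Real.pi / 3)) < 1 := by
    rw [show (θ1 - θ0) + ((i : ℝ) - i) * (Real.pi / 3) = -(θ0 - θ1) by ring, Real.cos_neg,
      ← Real.cos_zero]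
    exact Real.cos_lt_cos_of_nonneg_of_le_pi le_rfl (by linarith) (by linarith)
  rw [show (0 : ℝ) ^ 2 = 0 by norm_num] at h7
  linarith

/-- **One time, virtual face**: the frozen pattern at one time `θ0` and its solid left side. -/
theorem virt_local (h : Irr U T) {v : ℂ} {a b : Fin 6} (hH : Harm T v a b)
    {A : Set (Fin 6)} (hA3 : A.ncard = 3) (hAv : A ⊆ T v) (ha : a ∈ A) (hb : b ∉ A)
    {F : ℂ → Set (Fin 6)} (hFv : F v = {a, b}) {θa θ0 : ℝ} {cc : ℕ → Fin 6}
    (hd : FD T v A θa θ0 cc)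
    (hs : (Hxs T A (yy v θ0) fun k => cc (k + 2)) ∨ Hxs T A (yy v θ0) fun k => cc (k + 1))
    (hZ : ∀ k, (T (yy v θ0 k)).ncard ≤ 3 ∨
      ∃ p q, Harm T (yy v θ0 k) p q ∧ F (yy v θ0 k) = {p, q})
    (hup : ∀ y y', (y = v ∨ dist y v = 1) → (y' = v ∨ dist y' v = 1) → dist y y' = 1 →
      4 ≤ (T y).ncard → 4 ≤ (T y').ncard → T y \ F y ⊆ T y' → T y \ F y = F y') : False := by
  have hTv : T v = insert b A := by
    symm
    apply Set.eq_of_subset_of_ncard_le
    · rintro i (rfl | hi)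
      · exact hH.hq
      · exact hAv hi
    · rw [hH.card, Set.ncard_insert_of_notMem hb, hA3]
    · exact Set.toFinite _
  have hlt := hd.lt
  have hle := hd.le
  -- the index of `b`
  obtain ⟨j, hj⟩ : ∃ j, cc j = b := by
    rcases covA hA3 (hd.notA 0) (hd.notA 1) (hd.notA 2) (hd.ne1 0) (hd.ne1 1) (hd.ne2 0) hb
      with h1 | h1 | h1
    · exact ⟨0, h1.symm⟩
    · exact ⟨1, h1.symm⟩
    · exact ⟨2, h1.symm⟩
  have hab : ∀ i, cc i = b → ∀ θ ∈ Icc θa θ0, a ∈ T (yy v θ i) ∧ b ∈ T (yy v θ i) := by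
    intro i hi
    have h1 : ∀ θ ∈ Ico θa θ0, a ∈ T (yy v θ i) ∧ b ∈ T (yy v θ i) := by
      intro θ hθ
      refine hH.H1 _ (dist_yy v θ i) ?_
      rw [hTv]
      intro l hl
      by_cases hlA : l ∈ A
      · exact Or.inr hlA
      · left
        rw [(hd.pure i θ hθ l hlA).1 hl, hi]
    have hcl : IsClosed {θ | a ∈ T (yy v θ i) ∧ b ∈ T (yy v θ i)} :=
      ((h.closed a).preimage (continuous_yy v i)).inter
        ((h.closed b).preimage (continuous_yy v i))
    intro θ hθ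
    have h2 := hcl.closure_subset_iff.2 h1
    rw [closure_Ico hd.lt.ne] at h2
    exact h2 hθ
  have nab : ∀ i, cc i = b → 4 ≤ (T (yy v θ0 i)).ncard → F (yy v θ0 i) ≠ {a, b} := by
    intro i hi h4 h5
    rcases hZ i with h6 | ⟨p, q, hHp, hF⟩
    · omega
    · have h7 : Harm T (yy v θ0 i) a b := by
        rw [hF] at h5
        have hp : p ∈ ({a, b} : Set (Fin 6)) := by rw [← h5]; exact Or.inl rfl
        have hq : q ∈ ({a, b} : Set (Fin 6)) := by rw [← h5]; exact Or.inr rfl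
        rcases hp with h8 | h8 <;> rcases hq with h9 | h9
        · exact absurd (h8.trans h9.symm) hHp.ne
        · have h8 : p = a := h8
          have h9 : q = b := h9
          rwa [h8, h9] at hHp
        · have h8 : p = b := h8
          have h9 : q = a := h9
          rw [h8, h9] at hHp
          exact hHp.symm
        · exact absurd (h8.trans h9.symm) hHp.ne
      exact nab_of h hlt hle i (hab i hi) h7
  have hc1 : cc (j + 4) = cc (j + 1) := hd.per (j + 1)
  have hc2 : cc (j + 5) = cc (j + 2) := hd.per (j + 2)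
  have hc3 : cc (j + 3) = b := by rw [hd.per, hj]
  have hc6 : cc (j + 6) = b := by rw [show j + 6 = j + 3 + 3 from rfl, hd.per, hc3]
  have hc7 : cc (j + 7) = cc (j + 1) := by rw [show j + 7 = j + 4 + 3 from rfl, hd.per, hc1]
  have hc8 : cc (j + 8) = cc (j + 2) := by rw [show j + 8 = j + 5 + 3 from rfl, hd.per, hc2]
  have hbe : b ≠ cc (j + 1) := by rw [← hj]; exact hd.ne1 j
  have hbf : b ≠ cc (j + 2) := by rw [← hj]; exact hd.ne2 j
  have hef : cc (j + 1) ≠ cc (j + 2) := hd.ne1 (j + 1)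
  have h0 : θ0 ∈ Icc θa θ0 := ⟨hlt.le, le_rfl⟩
  have nlA : ∀ k, ¬ (yy v θ0 k = yy v θ0 (k + 2) ∨
      yy v θ0 k + yy v θ0 (k + 2) = 2 * yy v θ0 (k + 1)) := not_line' v θ0
  have nlB : ∀ k, ¬ (yy v θ0 (k + 2) = yy v θ0 k ∨
      yy v θ0 (k + 2) + yy v θ0 k = 2 * yy v θ0 (k + 1)) := yy_not_line v θ0
  have sc : ∀ k, dist (yy v θ0 (k + 1)) (yy v θ0 k) = 1 := fun k => by
    rw [dist_comm]; exact dist_yy_succ v θ0 k
  have harc : ∀ i, (i = a ∨ i = b) →
      (fun θ => yy v θ (j + 3)) '' Icc θa θ0 ⊆ closure (U i) := by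
    rintro i hi _ ⟨θ, hθ, rfl⟩
    rcases hi with rfl | rfl
    · exact h.sub _ (hab _ hc3 θ hθ).1
    · exact h.sub _ (hab _ hc3 θ hθ).2
  have hpre : IsPreconnected ((fun θ => yy v θ (j + 3)) '' Icc θa θ0) :=
    isPreconnected_Icc.image _ (continuous_yy v (j + 3)).continuousOn
  have hm0 : yy v θ0 (j + 3) ∈ (fun θ => yy v θ (j + 3)) '' Icc θa θ0 := ⟨θ0, h0, rfl⟩
  have hma : yy v θa (j + 3) ∈ (fun θ => yy v θ (j + 3)) '' Icc θa θ0 :=
    ⟨θa, ⟨le_rfl, hd.lt.le⟩, rfl⟩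
  rcases hs with hs | hs
  · -- case A
    obtain ⟨x, x', hcovA, hx, hx'⟩ := virt_core h (ε := 1) (Or.inl rfl) hA3 hH ha hb
      (hd.notA (j + 1)) (hd.notA (j + 2)) hbe hef hbf hTv
      (Pm := yy v θ0 (j + 2)) (P0 := yy v θ0 (j + 3)) (P1 := yy v θ0 (j + 4))
      (P2 := yy v θ0 (j + 5)) (P3 := yy v θ0 (j + 6))
      (dist_yy _ _ _) (dist_yy _ _ _) (dist_yy _ _ _) (dist_yy_succ _ _ _) (dist_yy_succ _ _ _)
      (dist_yy_succ _ _ _) (dist_yy_succ _ _ _)
      (by linear_combination yy_rel v θ0 (j + 3)) (by linear_combination yy_rel v θ0 (j + 4))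
      (nlA (j + 2)) (nlA (j + 4))
      (fun i hi => by rw [← hc2]; exact hs.mem (j + 3) i hi)
      (fun i hi => by rw [← hc6]; exact hs.mem (j + 4) i hi)
      (fun i hi => by rw [← hc7]; exact hs.mem (j + 5) i hi)
      (fun i hi => by rw [← hc8]; exact hs.mem (j + 6) i hi)
      ((hs.mem (j + 2) b hb).2 (by
        show b ≠ cc (j + 4)
        rw [hc1]; exact hbe))
      (hab _ hc3 θ0 h0).1 (hab _ hc6 θ0 h0).1 (F := F) hFv
      (hZ _) (hZ _) (hZ _) (hZ _) (nab _ hc6) hup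
      ((arcA_gen h hlt hle (j + 5) fun θ hθ => (hab _ hc6 θ hθ).1).mono fun w h5 h6 => by
        have := h5 h6; linarith)
      ((arcA_gen h hlt hle (j + 5) fun θ hθ => (hab _ hc6 θ hθ).2).mono fun w h5 h6 => by
        have := h5 h6; linarith)
      ((arcA_gen h hlt hle (j + 4) (i := cc (j + 2)) fun θ hθ => by
        rw [← hc2]; exact hd.arc (j + 5) hθ).mono fun w h5 h6 => by
        have := h5 h6; linarith)
    have hev := hx.and (hx'.and (h.nhd v))
    obtain ⟨ρ, hρ, hball⟩ := Metric.eventually_nhds_iff.1 hev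
    obtain ⟨g, hgv, c1, c2, c3, c4⟩ := virt_pts v hd.lt hd.le j hρ
    obtain ⟨g1, g2, g3⟩ := hball hgv
    have w : ∀ i, (i = a ∨ i = b) → i ∉ Pal U g := fun i hi =>
      h.mx.wlemma hpre (harc i hi) hm0 hma c3 c4
    obtain ⟨i, hi⟩ := h.ne g
    have hiv := g3 hi
    have hiP := h.sub g hi
    rw [hTv] at hiv
    rcases hiv with h5 | h5
    · exact w i (Or.inr h5) hiP
    · rcases hcovA i h5 with h6 | h6 | h6
      · exact w i (Or.inl h6) hiP
      · have := g1 (h6 ▸ hiP); linarith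
      · have := g2 (h6 ▸ hiP); linarith
  · -- case B
    obtain ⟨x, x', hcovA, hx, hx'⟩ := virt_core h (ε := -1) (Or.inr rfl) hA3 hH ha hb
      (hd.notA (j + 2)) (hd.notA (j + 1)) hbf hef.symm hbe hTv
      (Pm := yy v θ0 (j + 7)) (P0 := yy v θ0 (j + 6)) (P1 := yy v θ0 (j + 5))
      (P2 := yy v θ0 (j + 4)) (P3 := yy v θ0 (j + 3))
      (dist_yy _ _ _) (dist_yy _ _ _) (dist_yy _ _ _) (sc _) (sc _) (sc _) (sc _)
      (by linear_combination yy_rel v θ0 (j + 4)) (by linear_combination yy_rel v θ0 (j + 3))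
      (nlB (j + 5)) (nlB (j + 3))
      (fun i hi => by rw [← hc7]; exact hs.mem (j + 6) i hi)
      (fun i hi => by rw [← hc6]; exact hs.mem (j + 5) i hi)
      (fun i hi => by rw [← hc2]; exact hs.mem (j + 4) i hi)
      (fun i hi => by rw [← hc1]; exact hs.mem (j + 3) i hi)
      ((hs.mem (j + 7) b hb).2 (by
        show b ≠ cc (j + 8)
        rw [hc8]; exact hbf))
      (hab _ hc6 θ0 h0).1 (hab _ hc3 θ0 h0).1 (F := F) hFv
      (hZ _) (hZ _) (hZ _) (hZ _) (nab _ hc3) hup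
      ((arcB_gen h hlt hle (j + 3) fun θ hθ => (hab _ hc3 θ hθ).1).mono fun w h5 h6 => by
        have := h5 h6; linarith)
      ((arcB_gen h hlt hle (j + 3) fun θ hθ => (hab _ hc3 θ hθ).2).mono fun w h5 h6 => by
        have := h5 h6; linarith)
      ((arcB_gen h hlt hle (j + 4) (i := cc (j + 1)) fun θ hθ => by
        rw [← hc1]; exact hd.arc (j + 4) hθ).mono fun w h5 h6 => by
        have := h5 h6; linarith)
    have hev := hx.and (hx'.and (h.nhd v))
    obtain ⟨ρ, hρ, hball⟩ := Metric.eventually_nhds_iff.1 hev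
    obtain ⟨g, hgv, c1, c2, c3, c4⟩ := virt_pts' v hd.lt hd.le j hρ
    obtain ⟨g1, g2, g3⟩ := hball hgv
    have w : ∀ i, (i = a ∨ i = b) → i ∉ Pal U g := fun i hi =>
      h.mx.wlemma hpre (harc i hi) hma hm0 c4 c3
    obtain ⟨i, hi⟩ := h.ne g
    have hiv := g3 hi
    have hiP := h.sub g hi
    rw [hTv] at hiv
    rcases hiv with h5 | h5
    · exact w i (Or.inr h5) hiP
    · rcases hcovA i h5 with h6 | h6 | h6
      · exact w i (Or.inl h6) hiP
      · have := g1 (h6 ▸ hiP); linarith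
      · have := g2 (h6 ▸ hiP); linarith

/-- **No frozen circle, virtual face, arbitrary harmless points on the circle.** -/
theorem not_Frz_virtHH (h : Irr U T) {v : ℂ} {a b : Fin 6} (hH : Harm T v a b)
    {A : Set (Fin 6)} (hA3 : A.ncard = 3) (hAv : A ⊆ T v) (ha : a ∈ A) (hb : b ∉ A)
    {F : ℂ → Set (Fin 6)} (hFv : F v = {a, b})
    (hZ : ∀ y, dist y v = 1 → (T y).ncard ≤ 3 ∨ ∃ p q, Harm T y p q ∧ F y = {p, q})
    (hup : ∀ y y', (y = v ∨ dist y v = 1) → (y' = v ∨ dist y' v = 1) → dist y y' = 1 →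
      4 ≤ (T y).ncard → 4 ≤ (T y').ncard → T y \ F y ⊆ T y' → T y \ F y = F y')
    (hQ2 : ∀ y, dist y v = 1 → ∃ i, i ∉ A ∧ i ∉ T y) {col : Fin 3 → Fin 6}
    (hcol : ∀ i, i ∉ A ↔ ∃ l, i = col l) (hinj : Function.Injective col) : ¬ Frz v T col := by
  intro hf
  obtain ⟨c, d, e, σ, hcov, hcd, hde, hce, hσc, hσd, hσe, hfr⟩ := frz_sigma hcol hinj hf
  obtain ⟨θa, θ0, cc, hd, hs⟩ := frz_data h hA3 (fun y hy => by
    by_contra hcon
    push Not at hcon
    have hsub : T y ⊆ A := fun i hi => by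
      by_contra h5
      exact hcon i h5 hi
    exact hb (hsub (hH.H1 y hy (hsub.trans hAv)).2)) hQ2 hcov hcd hde hce σ hσc hσd hσe hfr
  exact virt_local h hH hA3 hAv ha hb hFv hd hs (fun k => hZ _ (dist_yy v θ0 k)) hup

/-- **One time, three-coloured centre**: the frozen pattern at one time and its solid left side. -/
theorem real_local (h : Irr U T) {v : ℂ} (h3 : (T v).ncard = 3) {θa θ0 : ℝ} {cc : ℕ → Fin 6}
    (hd : FD T v (T v) θa θ0 cc)
    (hs : (Hxs T (T v) (yy v θ0) fun k => cc (k + 2)) ∨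
      Hxs T (T v) (yy v θ0) fun k => cc (k + 1))
    (hZ : ∀ k, (T (yy v θ0 k)).ncard ≤ 3 ∨ ∃ p q, Harm T (yy v θ0 k) p q) : False := by
  have hgood : ∀ m : ℕ → Fin 6, Hxs T (T v) (yy v θ0) m → ∀ k, Good T (T v) (yy v θ0 k) := by
    intro m hm k
    rcases hZ k with h5 | ⟨p, q, hH⟩
    · exact Or.inl h5
    · right
      rw [← yy_six v θ0 k] at hH
      have h6 := hm.harm h h3 rfl (k := k + 4) hH
      rw [yy_six] at hH
      exact ⟨p, q, hH, h6.1, h6.2⟩
  rcases hs with hs | hs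
  · obtain ⟨t, ht1, ht2, ht4⟩ := hd.caseA' h h3 hs (hgood _ hs)
    refine fin_all h h3 hs (hgood _ hs) (ε := 1) (Or.inl rfl) t ht1 ht2 fun k => ?_
    refine (ht4 k).mono fun g hg hg' => ?_
    have := hg (h.sub g hg')
    linarith
  · obtain ⟨t, ht1, ht2, ht4⟩ := hd.caseB' h h3 hs (hgood _ hs)
    refine fin_all h h3 hs (hgood _ hs) (ε := -1) (Or.inr rfl) t ht1 ht2 fun k => ?_
    refine (ht4 k).mono fun g hg hg' => ?_
    have := hg (h.sub g hg')
    linarith

end Vale.Agent.P032.H175
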