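import Mathlib

/-!
# P032: the geometry of a closed thin hexagon (plane geometry only)

`z₁ = 0`, `u₂ = 1`, `u₁ = e(-s)`, `u₀ = e(t)`, `z₀ = -u₀`, `z₂ = -u₁`, `z₃ = 1 - u₁`, `z₅ = 1 - u₀`,
`z₄ = 1 - u₀ - u₁`.
-/

open Set Real

noncomputable section

namespace Vale.Agent.P032.H175.Hexa

/-- decomposition of a point of the thin triangle -/
theorem decomp {s t x y : ℝ} (hs : 0 < s) (ht : 0 < t) (hst : s + t < π / 3)
    (h1 : x ^ 2 + y ^ 2 < 1) (h3 : 1 < (x - (1 - cos s)) ^ 2 + (y - sin s) ^ 2)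
    (h5 : 1 < (x - (1 - cos t)) ^ 2 + (y + sin t) ^ 2) :
    ∃ α β, 0 < α ∧ α < s ∧ 0 < β ∧ β < t ∧ x = 1 - cos α - cos β ∧ y = sin α - sin β := by
  have hpi := Real.pi_pos
  set W : ℂ := ⟨1 - x, -y⟩ with hW
  have hWne : W ≠ 0 := by
    intro h
    have e1 : 1 - x = 0 := by have := congrArg Complex.re h; simpa [hW] using this
    have e2 : x = 1 := by linarith
    rw [e2] at h1
    nlinarith [sq_nonneg y]
  set ρ : ℝ := ‖W‖ with hρ
  set μ : ℝ := W.arg with hμ
  have hρ0 : 0 < ρ := norm_pos_iff.2 hWne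
  have hre : ρ * cos μ = 1 - x := by
    have := Complex.norm_mul_cos_arg W
    simpa [hρ, hμ, hW] using this
  have him : ρ * sin μ = -y := by
    have := Complex.norm_mul_sin_arg W
    simpa [hρ, hμ, hW] using this
  have hcs : cos μ ^ 2 + sin μ ^ 2 = 1 := by rw [add_comm]; exact sin_sq_add_cos_sq μ
  have hsq : ρ ^ 2 = (1 - x) ^ 2 + y ^ 2 := by
    have e : ρ ^ 2 = (ρ * cos μ) ^ 2 + (ρ * sin μ) ^ 2 := by linear_combination (-(ρ ^ 2)) * hcs
    rw [e, hre, him]; ring
  have hx : -1 < x := by nlinarith [sq_nonneg y]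
  have hρ2 : ρ < 2 := by
    have : ρ ^ 2 < 2 ^ 2 := by rw [hsq]; nlinarith
    exact lt_of_pow_lt_pow_left₀ 2 (by norm_num) this
  set δ : ℝ := arccos (ρ / 2) with hδ
  have hcδ : cos δ = ρ / 2 := cos_arccos (by linarith) (by linarith)
  have hδ0 : 0 < δ := arccos_pos.2 (by linarith)
  have hδ2 : δ < π / 2 := arccos_lt_pi_div_two.2 (by linarith)
  have key : ∀ γ : ℝ, (x - (1 - cos γ)) ^ 2 + (y + sin γ) ^ 2 - 1 =
      2 * ρ * (cos δ - cos (μ - γ)) := by
    intro γ
    have e1 : x = 1 - ρ * cos μ := by linarith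
    have e2 : y = -(ρ * sin μ) := by linarith
    rw [cos_sub, hcδ, e1, e2]
    have hγ : cos γ ^ 2 + sin γ ^ 2 = 1 := by rw [add_comm]; exact sin_sq_add_cos_sq γ
    linear_combination hγ + ρ ^ 2 * hcs
  have hμ1 : -π < μ := Complex.neg_pi_lt_arg W
  have hμ2 : μ ≤ π := Complex.arg_le_pi W
  -- first condition
  have hA : |μ| < δ := by
    by_contra hcon
    push Not at hcon
    have h2 : cos |μ| ≤ cos δ := cos_le_cos_of_nonneg_of_le_pi hδ0.le
      (abs_le.2 ⟨by linarith, hμ2⟩) hcon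
    rw [cos_abs] at h2
    have h4 := key 0
    simp only [cos_zero, sin_zero, sub_self, sub_zero, add_zero] at h4
    have h5 : 0 ≤ 2 * ρ * (cos δ - cos μ) := by
      have : 0 ≤ cos δ - cos μ := by linarith
      positivity
    linarith
  obtain ⟨hA1, hA2⟩ := abs_lt.1 hA
  -- second condition
  have hB : δ < μ + s := by
    by_contra hcon
    push Not at hcon
    have h2 : cos δ ≤ cos |μ + s| := cos_le_cos_of_nonneg_of_le_pi (abs_nonneg _)
      (by linarith) (abs_le.2 ⟨by linarith, hcon⟩)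
    rw [cos_abs] at h2
    have h4 := key (-s)
    rw [cos_neg, sin_neg, sub_neg_eq_add] at h4
    have h6 : 2 * ρ * (cos δ - cos (μ + s)) ≤ 0 := by
      have : cos δ - cos (μ + s) ≤ 0 := by linarith
      exact mul_nonpos_of_nonneg_of_nonpos (by positivity) this
    have e : y + -sin s = y - sin s := by ring
    rw [e] at h4
    linarith
  have hC : μ - t < -δ := by
    by_contra hcon
    push Not at hcon
    have h2 : cos δ ≤ cos |μ - t| := cos_le_cos_of_nonneg_of_le_pi (abs_nonneg _)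
      (by linarith) (abs_le.2 ⟨hcon, by linarith⟩)
    rw [cos_abs] at h2
    have h4 := key t
    have h6 : 2 * ρ * (cos δ - cos (μ - t)) ≤ 0 := by
      have : cos δ - cos (μ - t) ≤ 0 := by linarith
      exact mul_nonpos_of_nonneg_of_nonpos (by positivity) this
    linarith
  refine ⟨δ - μ, μ + δ, by linarith, by linarith, by linarith, by linarith, ?_, ?_⟩
  · rw [cos_sub, cos_add, hcδ]
    linarith
  · rw [sin_sub, sin_add, hcδ]
    linarith

theorem exists_angle {x y : ℝ} (h : x ^ 2 + y ^ 2 = 1) :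
    ∃ ν, -π < ν ∧ ν ≤ π ∧ x = cos ν ∧ y = sin ν := by
  have hN : ‖(⟨x, y⟩ : ℂ)‖ = 1 := by
    have e : ‖(⟨x, y⟩ : ℂ)‖ ^ 2 = 1 := by
      rw [← Complex.normSq_eq_norm_sq, Complex.normSq_mk]
      linarith
    have e2 : 0 ≤ ‖(⟨x, y⟩ : ℂ)‖ := norm_nonneg _
    nlinarith
  refine ⟨(⟨x, y⟩ : ℂ).arg, Complex.neg_pi_lt_arg _, Complex.arg_le_pi _, ?_, ?_⟩
  · have := Complex.norm_mul_cos_arg (⟨x, y⟩ : ℂ)
    rw [hN, one_mul] at this
    exact this.symm
  · have := Complex.norm_mul_sin_arg (⟨x, y⟩ : ℂ)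
    rw [hN, one_mul] at this
    exact this.symm

theorem half_cos (x : ℝ) : cos x = 1 - 2 * sin (x / 2) ^ 2 := by
  have h1 : cos x = 2 * cos (x / 2) ^ 2 - 1 := by rw [← cos_two_mul]; congr 1; ring
  have h2 := sin_sq_add_cos_sq (x / 2)
  linarith

theorem half_cos' (x : ℝ) : cos x = 2 * cos (x / 2) ^ 2 - 1 := by
  rw [← cos_two_mul]; congr 1; ring

theorem half_sin (x : ℝ) : sin x = 2 * sin (x / 2) * cos (x / 2) := by
  rw [← sin_two_mul]; congr 1; ring

theorem cs (x : ℝ) : cos x ^ 2 + sin x ^ 2 = 1 := by rw [add_comm]; exact sin_sq_add_cos_sq x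

/-- the direction is not beyond an arm -/
theorem lt_of {β ν : ℝ} (hβ : 0 < β) (hβ2 : β < π) (h1 : -π < ν) (h2 : ν ≤ π)
    (h : 0 < (1 - cos β) * (1 + cos ν) - sin ν * sin β) : ν < β := by
  have k : (1 - cos β) * (1 + cos ν) - sin ν * sin β =
      4 * (sin (β / 2) * (cos (ν / 2) * sin (β / 2 - ν / 2))) := by
    rw [half_cos β, half_cos' ν, half_sin β, half_sin ν, sin_sub]
    ring
  rw [k] at h
  have hc2 : 0 ≤ cos (ν / 2) := cos_nonneg_of_mem_Icc ⟨by linarith, by linarith⟩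
  have sb : 0 < sin (β / 2) := sin_pos_of_pos_of_lt_pi (by linarith) (by linarith)
  by_contra hcon
  push Not at hcon
  have k2 : sin (β / 2 - ν / 2) ≤ 0 :=
    sin_nonpos_of_nonpos_of_neg_pi_le (by linarith) (by linarith)
  have k3 : cos (ν / 2) * sin (β / 2 - ν / 2) ≤ 0 := mul_nonpos_of_nonneg_of_nonpos hc2 k2
  have k4 : sin (β / 2) * (cos (ν / 2) * sin (β / 2 - ν / 2)) ≤ 0 :=
    mul_nonpos_of_nonneg_of_nonpos sb.le k3
  linarith

theorem gt_of {α ν : ℝ} (hα : 0 < α) (hα2 : α < π) (h1 : -π < ν) (h2 : ν ≤ π)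
    (h : 0 < (1 - cos α) * (1 + cos ν) + sin ν * sin α) : -α < ν := by
  have k : (1 - cos α) * (1 + cos ν) + sin ν * sin α =
      4 * (sin (α / 2) * (cos (ν / 2) * sin (α / 2 + ν / 2))) := by
    rw [half_cos α, half_cos' ν, half_sin α, half_sin ν, sin_add]
    ring
  rw [k] at h
  have hc2 : 0 ≤ cos (ν / 2) := cos_nonneg_of_mem_Icc ⟨by linarith, by linarith⟩
  have sb : 0 < sin (α / 2) := sin_pos_of_pos_of_lt_pi (by linarith) (by linarith)
  by_contra hcon
  push Not at hcon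
  have k2 : sin (α / 2 + ν / 2) ≤ 0 :=
    sin_nonpos_of_nonpos_of_neg_pi_le (by linarith) (by linarith)
  have k3 : cos (ν / 2) * sin (α / 2 + ν / 2) ≤ 0 := mul_nonpos_of_nonneg_of_nonpos hc2 k2
  have k4 : sin (α / 2) * (cos (ν / 2) * sin (α / 2 + ν / 2)) ≤ 0 :=
    mul_nonpos_of_nonneg_of_nonpos sb.le k3
  linarith

/-- the far vertex is inside -/
theorem far {s t α β ν : ℝ} (hst : s + t < π / 3) (hα : 0 < α) (hαs : α < s) (hβ : 0 < β)
    (hβt : β < t) (h1 : -α < ν) (h2 : ν < β) :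
    (cos ν + (1 - cos α - cos β) - (1 - cos s - cos t)) ^ 2 +
      (sin ν + (sin α - sin β) - (sin s - sin t)) ^ 2 < 1 := by
  have hpi := Real.pi_pos
  have sA : 0 < sin ((t - β) / 2) := sin_pos_of_pos_of_lt_pi (by linarith) (by linarith)
  have sB : 0 < sin ((s - α) / 2) := sin_pos_of_pos_of_lt_pi (by linarith) (by linarith)
  have m1 : cos (ν + s) - cos (ν + α) + 1 - cos (s - α) =
      2 * (sin ((s - α) / 2) * (sin ((s - α) / 2) - sin (ν + (s + α) / 2))) := by
    have k1 : cos (ν + s) - cos (ν + α) = -2 * sin (ν + (s + α) / 2) * sin ((s - α) / 2) := by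
      rw [cos_sub_cos]
      rw [show (ν + s + (ν + α)) / 2 = ν + (s + α) / 2 by ring,
        show (ν + s - (ν + α)) / 2 = (s - α) / 2 by ring]
    rw [half_cos (s - α)]
    linear_combination k1
  have m2 : cos (ν - t) - cos (ν - β) + 1 - cos (t - β) =
      2 * (sin ((t - β) / 2) * (sin ((t - β) / 2) - sin ((t + β) / 2 - ν))) := by
    have k1 : cos (ν - t) - cos (ν - β) = -2 * sin ((t + β) / 2 - ν) * sin ((t - β) / 2) := by
      rw [← cos_neg (ν - t), ← cos_neg (ν - β), cos_sub_cos]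
      rw [show (-(ν - t) + -(ν - β)) / 2 = (t + β) / 2 - ν by ring,
        show (-(ν - t) - -(ν - β)) / 2 = (t - β) / 2 by ring]
    rw [half_cos (t - β)]
    linear_combination k1
  have m3 : cos (s + t) - cos (s + β) - cos (α + t) + cos (α + β) =
      -2 * (sin ((t - β) / 2) * (sin (s + (t + β) / 2) - sin (α + (t + β) / 2))) := by
    have k1 : cos (s + t) - cos (s + β) = -2 * sin (s + (t + β) / 2) * sin ((t - β) / 2) := by
      rw [cos_sub_cos]
      rw [show (s + t + (s + β)) / 2 = s + (t + β) / 2 by ring,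
        show (s + t - (s + β)) / 2 = (t - β) / 2 by ring]
    have k2 : cos (α + t) - cos (α + β) = -2 * sin (α + (t + β) / 2) * sin ((t - β) / 2) := by
      rw [cos_sub_cos]
      rw [show (α + t + (α + β)) / 2 = α + (t + β) / 2 by ring,
        show (α + t - (α + β)) / 2 = (t - β) / 2 by ring]
    linear_combination k1 - k2
  have hmono : StrictMonoOn sin (Icc (-(π / 2)) (π / 2)) := strictMonoOn_sin
  have n1 : sin ((s - α) / 2) < sin (ν + (s + α) / 2) :=
    hmono ⟨by linarith, by linarith⟩ ⟨by linarith, by linarith⟩ (by linarith)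
  have n2 : sin ((t - β) / 2) < sin ((t + β) / 2 - ν) :=
    hmono ⟨by linarith, by linarith⟩ ⟨by linarith, by linarith⟩ (by linarith)
  have n3 : sin (α + (t + β) / 2) < sin (s + (t + β) / 2) :=
    hmono ⟨by linarith, by linarith⟩ ⟨by linarith, by linarith⟩ (by linarith)
  have fin : (cos ν + (1 - cos α - cos β) - (1 - cos s - cos t)) ^ 2 +
      (sin ν + (sin α - sin β) - (sin s - sin t)) ^ 2 - 1 =
      2 * (cos (ν + s) - cos (ν + α) + 1 - cos (s - α)) +
      2 * (cos (ν - t) - cos (ν - β) + 1 - cos (t - β)) +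
      2 * (cos (s + t) - cos (s + β) - cos (α + t) + cos (α + β)) := by
    simp only [cos_add, cos_sub]
    linear_combination cs ν + cs s + cs t + cs α + cs β
  rw [m1, m2, m3] at fin
  have o1 : sin ((s - α) / 2) * (sin ((s - α) / 2) - sin (ν + (s + α) / 2)) < 0 :=
    mul_neg_of_pos_of_neg sB (by linarith)
  have o2 : sin ((t - β) / 2) * (sin ((t - β) / 2) - sin ((t + β) / 2 - ν)) < 0 :=
    mul_neg_of_pos_of_neg sA (by linarith)
  have o3 : 0 < sin ((t - β) / 2) * (sin (s + (t + β) / 2) - sin (α + (t + β) / 2)) :=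
    mul_pos sA (by linarith)
  linarith

/-- a point inside the circles about both neighbours -/
theorem neg_case {α β nx ny : ℝ} (hα : 0 < α) (hβ : 0 < β) (hab : α + β < π)
    (hn : nx ^ 2 + ny ^ 2 = 1)
    (i1 : (nx + (1 - cos α - cos β) + cos β) ^ 2 + (ny + (sin α - sin β) + sin β) ^ 2 < 1)
    (i2 : (nx + (1 - cos α - cos β) + cos α) ^ 2 + (ny + (sin α - sin β) - sin α) ^ 2 < 1) :
    False := by
  have sab : 0 < sin (α + β) := sin_pos_of_pos_of_lt_pi (by linarith) (by linarith)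
  have sa : 0 < sin α := sin_pos_of_pos_of_lt_pi hα (by linarith)
  have sb : 0 < sin β := sin_pos_of_pos_of_lt_pi hβ (by linarith)
  have s4 : 0 ≤ sin α + sin β - sin (α + β) := by
    rw [sin_add]
    nlinarith [cos_le_one α, cos_le_one β]
  have hca := cs α
  have hcb := cs β
  have key : sin (α + β) * (nx ^ 2 + ny ^ 2 - 1) =
      sin β * ((nx + (1 - cos α - cos β) + cos β) ^ 2 + (ny + (sin α - sin β) + sin β) ^ 2 - 1) +
      sin α * ((nx + (1 - cos α - cos β) + cos α) ^ 2 + (ny + (sin α - sin β) - sin α) ^ 2 - 1) -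
      (sin α + sin β - sin (α + β)) * ((nx + 1) ^ 2 + ny ^ 2) := by
    rw [sin_add]
    have hca' : cos α ^ 2 = 1 - sin α ^ 2 := by linarith
    have hcb' : cos β ^ 2 = 1 - sin β ^ 2 := by linarith
    ring_nf
    rw [hca', hcb']
    ring_nf
  rw [hn] at key
  have k1 : sin β * ((nx + (1 - cos α - cos β) + cos β) ^ 2 +
      (ny + (sin α - sin β) + sin β) ^ 2 - 1) < 0 := mul_neg_of_pos_of_neg sb (by linarith)
  have k2 : sin α * ((nx + (1 - cos α - cos β) + cos α) ^ 2 +
      (ny + (sin α - sin β) - sin α) ^ 2 - 1) < 0 := mul_neg_of_pos_of_neg sa (by linarith)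
  have k3 : 0 ≤ (sin α + sin β - sin (α + β)) * ((nx + 1) ^ 2 + ny ^ 2) :=
    mul_nonneg s4 (by positivity)
  linarith

/-- **The swap geometry of a thin hexagon**, coordinates -/
theorem core {s t px py qx qy : ℝ} (hs : 0 < s) (ht : 0 < t) (hst : s + t < π / 3)
    (h1 : qx ^ 2 + qy ^ 2 < 1) (h3 : 1 < (qx - (1 - cos s)) ^ 2 + (qy - sin s) ^ 2)
    (h5 : 1 < (qx - (1 - cos t)) ^ 2 + (qy + sin t) ^ 2)
    (hpq : (px - qx) ^ 2 + (py - qy) ^ 2 = 1)
    (hJ : ∀ x, -s ≤ x → x ≤ t → (px + cos x) ^ 2 + (py + sin x) ^ 2 ≠ 1) :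
    (px - (1 - cos s - cos t)) ^ 2 + (py - (sin s - sin t)) ^ 2 < 1 ∧
      1 < (px + cos t) ^ 2 + (py + sin t) ^ 2 ∧ 1 < (px + cos s) ^ 2 + (py - sin s) ^ 2 := by
  have hpi := Real.pi_pos
  obtain ⟨α, β, hα, hαs, hβ, hβt, hqx, hqy⟩ := decomp hs ht hst h1 h3 h5
  -- constant sign
  have hsign : (∀ x ∈ Icc (-s) t, 0 < (px + cos x) ^ 2 + (py + sin x) ^ 2 - 1) ∨
      ∀ x ∈ Icc (-s) t, (px + cos x) ^ 2 + (py + sin x) ^ 2 - 1 < 0 := by
    have hconn : IsPreconnected (Icc (-s) t) := isPreconnected_Icc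
    have hcont : Continuous fun x => (px + cos x) ^ 2 + (py + sin x) ^ 2 - 1 := by fun_prop
    by_contra hcon
    push Not at hcon
    obtain ⟨⟨x, hx, hx0⟩, y, hy, hy0⟩ := hcon
    obtain ⟨w, hw, hw0⟩ := hconn.intermediate_value₂ hx hy hcont.continuousOn
      (continuousOn_const (c := (0 : ℝ))) hx0 hy0
    exact hJ w hw.1 hw.2 (by linarith)
  obtain ⟨ν, hν1, hν2, hcν, hsν⟩ := exists_angle hpq
  have hpx : px = cos ν + (1 - cos α - cos β) := by rw [← hcν, hqx]; ring
  have hpy : py = sin ν + (sin α - sin β) := by rw [← hsν, hqy]; ring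
  rcases hsign with hpos | hneg
  · have i1 := hpos β ⟨by linarith, hβt.le⟩
    have i2 := hpos (-α) ⟨by linarith, by linarith⟩
    have i3 := hpos t ⟨by linarith, le_refl t⟩
    have i4 := hpos (-s) ⟨le_refl _, by linarith⟩
    rw [cos_neg, sin_neg] at i2 i4
    have lt1 : ν < β := by
      refine lt_of hβ (by linarith) hν1 hν2 ?_
      have a1 : (px + cos α) ^ 2 + (py + -sin α) ^ 2 - 1 =
          2 * ((1 - cos β) * (1 + cos ν) - sin ν * sin β) := by
        rw [hpx, hpy]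
        linear_combination cs ν + cs β
      linarith
    have lt2 : -α < ν := by
      refine gt_of hα (by linarith) hν1 hν2 ?_
      have a1 : (px + cos β) ^ 2 + (py + sin β) ^ 2 - 1 =
          2 * ((1 - cos α) * (1 + cos ν) + sin ν * sin α) := by
        rw [hpx, hpy]
        linear_combination cs ν + cs α
      linarith
    refine ⟨?_, by linarith, ?_⟩
    · have := far hst hα hαs hβ hβt lt2 lt1
      rw [hpx, hpy]
      exact this
    · have e : py + -sin s = py - sin s := by ring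
      rw [e] at i4
      linarith
  · exfalso
    have i1 := hneg β ⟨by linarith, hβt.le⟩
    have i2 := hneg (-α) ⟨by linarith, by linarith⟩
    rw [cos_neg, sin_neg] at i2
    rw [hpx, hpy] at i1 i2
    refine neg_case hα hβ (by linarith) (cs ν) (by linarith) ?_
    have e : sin ν + (sin α - sin β) + -sin α = sin ν + (sin α - sin β) - sin α := by ring
    rw [e] at i2
    linarith

end Vale.Agent.P032.H175.Hexa
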